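import Mathlib

namespace Vale.Agent.P028

open Finset Real

lemma totient_div (q : ℕ) (hq : q ≠ 0) :
    (q.totient : ℝ) / q = ∏ p ∈ q.primeFactors, (1 - (p : ℝ)⁻¹) := by
  have h := Nat.totient_eq_mul_prod_factors q
  have h2 : ((q.totient : ℚ) : ℝ) = (((q : ℚ) * ∏ p ∈ q.primeFactors, (1 - (p : ℚ)⁻¹) : ℚ) : ℝ) := by
    rw [h]
  push_cast at h2
  have hq' : (q : ℝ) ≠ 0 := by exact_mod_cast hq
  rw [h2]; field_simp

lemma one_sub_inv_mem {p : ℕ} (hp : p.Prime) : (1 / 2 : ℝ) ≤ 1 - (p : ℝ)⁻¹ ∧ 1 - (p : ℝ)⁻¹ ≤ 1 := by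
  have h2 : (2 : ℝ) ≤ p := by exact_mod_cast hp.two_le
  have : (p : ℝ)⁻¹ ≤ 2⁻¹ := inv_anti₀ (by norm_num) h2
  have h0 : 0 ≤ (p : ℝ)⁻¹ := by positivity
  constructor <;> linarith

/-- `M ^ ω(q) ≤ M ^ M * q`. -/
lemma pow_omega_le (M q : ℕ) (hM : 1 ≤ M) (hq : q ≠ 0) :
    M ^ q.primeFactors.card ≤ M ^ M * q := by
  classical
  have h1 : M ^ q.primeFactors.card = ∏ _p ∈ q.primeFactors, M := by simp
  have h2 : ∏ _p ∈ q.primeFactors, M ≤
      ∏ p ∈ q.primeFactors, ((if p < M then M else 1) * p) := by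
    apply Finset.prod_le_prod'
    intro p hp
    have hp1 : 1 ≤ p := (Nat.prime_of_mem_primeFactors hp).one_le
    split_ifs with h
    · exact Nat.le_mul_of_pos_right _ hp1
    · omega
  have h3 : ∏ p ∈ q.primeFactors, (if p < M then M else 1) ≤ M ^ M := by
    rw [Finset.prod_ite]
    simp only [Finset.prod_const, one_pow, mul_one]
    apply Nat.pow_le_pow_right hM
    calc (q.primeFactors.filter (fun p => p < M)).card ≤ (Finset.range M).card := by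
          apply Finset.card_le_card; intro p hp
          simp only [Finset.mem_filter] at hp; simpa using hp.2
      _ = M := by simp
  have h4 : ∏ p ∈ q.primeFactors, p ≤ q := Nat.le_of_dvd (Nat.pos_of_ne_zero hq)
    (Nat.prod_primeFactors_dvd q)
  rw [h1]
  refine h2.trans ?_
  rw [Finset.prod_mul_distrib]
  exact Nat.mul_le_mul h3 h4

lemma two_pow_omega_le (ε : ℝ) (hε : 0 < ε) : ∃ Q : ℕ, ∀ q : ℕ, Q ≤ q →
    (2 : ℝ) ^ q.primeFactors.card ≤ ε * q.totient := by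
  obtain ⟨Q, hQ⟩ := exists_nat_ge ((16 : ℝ) ^ 16 / ε ^ 2)
  refine ⟨Q + 1, fun q hq => ?_⟩
  have hq0 : q ≠ 0 := by omega
  have hqr : (0 : ℝ) < q := by exact_mod_cast Nat.pos_of_ne_zero hq0
  have h1 : ((16 : ℝ)) ^ q.primeFactors.card ≤ 16 ^ 16 * q := by
    exact_mod_cast pow_omega_le 16 q (by norm_num) hq0
  have h2 : (1 / 2 : ℝ) ^ q.primeFactors.card ≤ (q.totient : ℝ) / q := by
    rw [totient_div q hq0, ← Finset.prod_const]
    apply Finset.prod_le_prod (fun _ _ => by norm_num)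
    intro p hp; exact (one_sub_inv_mem (Nat.prime_of_mem_primeFactors hp)).1
  set w := q.primeFactors.card
  have h3 : (16 : ℝ) ^ 16 ≤ ε ^ 2 * q := by
    have : (Q : ℝ) ≤ q := by exact_mod_cast (by omega : Q ≤ q)
    rw [div_le_iff₀ (by positivity)] at hQ
    nlinarith [sq_nonneg ε]
  have h4 : ((4 : ℝ) ^ w) ^ 2 ≤ (ε * q) ^ 2 := by
    calc ((4 : ℝ) ^ w) ^ 2 = 16 ^ w := by rw [← pow_mul, mul_comm, pow_mul]; norm_num
      _ ≤ 16 ^ 16 * q := h1
      _ ≤ ε ^ 2 * q * q := by gcongr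
      _ = (ε * q) ^ 2 := by ring
  have h5 : (4 : ℝ) ^ w ≤ ε * q := by
    exact (pow_le_pow_iff_left₀ (by positivity) (by positivity) (by norm_num)).mp h4
  rw [le_div_iff₀ hqr] at h2
  have h6 : (2 : ℝ) ^ w = 4 ^ w * (1 / 2) ^ w := by rw [← mul_pow]; norm_num
  calc (2 : ℝ) ^ w = 4 ^ w * (1 / 2) ^ w := h6
    _ ≤ ε * q * (1 / 2) ^ w := by gcongr
    _ = ε * ((1 / 2) ^ w * q) := by ring
    _ ≤ ε * q.totient := by gcongr

/-- `exp(ω(g)) ≤ C g^ε`. -/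
lemma exp_omega_le (ε : ℝ) (hε : 0 < ε) : ∃ C : ℝ, 0 < C ∧ ∀ g : ℕ, g ≠ 0 →
    Real.exp (g.primeFactors.card) ≤ C * (g : ℝ) ^ ε := by
  obtain ⟨k, hk⟩ := exists_nat_ge (1 / ε)
  have hk0 : (0 : ℝ) < k := lt_of_lt_of_le (by positivity) hk
  have hk1 : k ≠ 0 := by exact_mod_cast hk0.ne'
  set M : ℕ := 3 ^ k with hM
  refine ⟨((M : ℝ) ^ M) ^ (1 / k : ℝ), by positivity, fun g hg => ?_⟩
  have hg1 : (1 : ℝ) ≤ g := by exact_mod_cast Nat.pos_of_ne_zero hg
  have h1 : ((M : ℝ)) ^ g.primeFactors.card ≤ (M : ℝ) ^ M * g := by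
    exact_mod_cast pow_omega_le M g (Nat.one_le_pow _ _ (by norm_num)) hg
  set w := g.primeFactors.card
  have h2 : Real.exp w ≤ (3 : ℝ) ^ w := by
    rw [← Real.exp_one_pow]
    exact pow_le_pow_left₀ (by positivity) (by linarith [Real.exp_one_lt_d9]) _
  have h3 : ((3 : ℝ) ^ w) = (((M : ℝ)) ^ w) ^ (1 / k : ℝ) := by
    rw [hM]; push_cast
    rw [← pow_mul, mul_comm, pow_mul, one_div, Real.pow_rpow_inv_natCast (by positivity) hk1]
  have h4 : (g : ℝ) ^ (1 / k : ℝ) ≤ (g : ℝ) ^ ε := by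
    apply Real.rpow_le_rpow_of_exponent_le hg1
    rw [div_le_iff₀ hk0]; rw [div_le_iff₀ hε] at hk; linarith
  calc Real.exp w ≤ (((M : ℝ)) ^ w) ^ (1 / k : ℝ) := h3 ▸ h2
    _ ≤ ((M : ℝ) ^ M * g) ^ (1 / k : ℝ) := Real.rpow_le_rpow (by positivity) h1 (by positivity)
    _ = ((M : ℝ) ^ M) ^ (1 / k : ℝ) * (g : ℝ) ^ (1 / k : ℝ) :=
        Real.mul_rpow (by positivity) (by positivity)
    _ ≤ _ := by gcongr

lemma moment_prod (a : ℕ → ℝ) (ha : ∀ p, 0 ≤ a p) (N : ℕ) :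
    ∑ q ∈ Finset.Ioc 0 N, ∏ p ∈ q.primeFactors, (1 + a p) ≤
      N * Real.exp (∑ p ∈ Finset.Ioc 0 N, a p / p) := by
  classical
  set Pr := (Finset.Ioc 0 N).filter Nat.Prime with hPr
  have step1 : ∀ q ∈ Finset.Ioc 0 N, ∏ p ∈ q.primeFactors, (1 + a p) ≤
      ∑ T ∈ Pr.powerset, if (∏ p ∈ T, p) ∣ q then ∏ p ∈ T, a p else 0 := by
    intro q hq
    rw [Finset.prod_one_add]
    have hq' := Finset.mem_Ioc.mp hq
    have hsub : q.primeFactors.powerset ⊆ Pr.powerset := by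
      apply Finset.powerset_mono.mpr
      intro p hp
      have hpp := Nat.prime_of_mem_primeFactors hp
      have := Nat.le_of_mem_primeFactors hp
      simp only [hPr, Finset.mem_filter, Finset.mem_Ioc]
      exact ⟨⟨hpp.pos, by omega⟩, hpp⟩
    calc ∑ T ∈ q.primeFactors.powerset, ∏ p ∈ T, a p
        = ∑ T ∈ q.primeFactors.powerset, if (∏ p ∈ T, p) ∣ q then ∏ p ∈ T, a p else 0 := by
          apply Finset.sum_congr rfl
          intro T hT
          rw [if_pos]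
          exact (Finset.prod_dvd_prod_of_subset _ _ _ (Finset.mem_powerset.mp hT)).trans
            (Nat.prod_primeFactors_dvd q)
      _ ≤ _ := by
          apply Finset.sum_le_sum_of_subset_of_nonneg hsub
          intro T _ _
          split_ifs
          · exact Finset.prod_nonneg fun p _ => ha p
          · exact le_rfl
  have step2 : ∀ T ∈ Pr.powerset,
      ∑ q ∈ Finset.Ioc 0 N, (if (∏ p ∈ T, p) ∣ q then ∏ p ∈ T, a p else 0) ≤
        N * ∏ p ∈ T, (a p / p) := by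
    intro T hT
    rw [← Finset.sum_filter, Finset.sum_const, Nat.Ioc_filter_dvd_card_eq_div, nsmul_eq_mul,
      Finset.prod_div_distrib]
    have h1 : ((N / ∏ p ∈ T, p : ℕ) : ℝ) ≤ (N : ℝ) / ((∏ p ∈ T, p : ℕ) : ℝ) := Nat.cast_div_le
    push_cast at h1
    have h2 : 0 ≤ ∏ p ∈ T, a p := Finset.prod_nonneg fun p _ => ha p
    calc _ ≤ (N : ℝ) / (∏ p ∈ T, (p : ℝ)) * ∏ p ∈ T, a p := by gcongr
      _ = _ := by ring
  calc ∑ q ∈ Finset.Ioc 0 N, ∏ p ∈ q.primeFactors, (1 + a p)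
      ≤ ∑ q ∈ Finset.Ioc 0 N, ∑ T ∈ Pr.powerset,
          if (∏ p ∈ T, p) ∣ q then ∏ p ∈ T, a p else 0 := Finset.sum_le_sum step1
    _ = ∑ T ∈ Pr.powerset, ∑ q ∈ Finset.Ioc 0 N,
          if (∏ p ∈ T, p) ∣ q then ∏ p ∈ T, a p else 0 := Finset.sum_comm
    _ ≤ ∑ T ∈ Pr.powerset, N * ∏ p ∈ T, (a p / p) := Finset.sum_le_sum step2
    _ = N * ∏ p ∈ Pr, (1 + a p / p) := by rw [← Finset.mul_sum, Finset.prod_one_add]
    _ ≤ N * Real.exp (∑ p ∈ Pr, a p / p) := by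
        gcongr
        exact Real.prod_one_add_le_exp_sum _ fun p => div_nonneg (ha p) (Nat.cast_nonneg p)
    _ ≤ _ := by
        gcongr
        · intro p _ _; exact div_nonneg (ha p) (Nat.cast_nonneg p)
        · exact Finset.filter_subset _ _

lemma exp_le_one_add {y β : ℝ} (h0 : 0 ≤ y) (h1 : y ≤ β) : Real.exp y ≤ 1 + Real.exp β * y := by
  have h2 : 1 - y ≤ Real.exp (-y) := by linarith [Real.add_one_le_exp (-y)]
  have h3 : Real.exp y * Real.exp (-y) = 1 := by rw [← Real.exp_add]; simp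
  have h4 : Real.exp y ≤ Real.exp β := Real.exp_le_exp.mpr h1
  have h5 := Real.exp_pos y
  nlinarith

lemma moment_exp (b : ℕ → ℝ) (β B : ℝ) (hb0 : ∀ p, 0 ≤ b p) (hb1 : ∀ p, b p ≤ β) (N : ℕ)
    (hB : ∑ p ∈ Finset.Ioc 0 N, b p / p ≤ B) :
    ∑ q ∈ Finset.Ioc 0 N, Real.exp (∑ p ∈ q.primeFactors, b p) ≤
      N * Real.exp (Real.exp β * B) := by
  calc ∑ q ∈ Finset.Ioc 0 N, Real.exp (∑ p ∈ q.primeFactors, b p)
      ≤ ∑ q ∈ Finset.Ioc 0 N, ∏ p ∈ q.primeFactors, (1 + Real.exp β * b p) := by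
        apply Finset.sum_le_sum; intro q _
        rw [Real.exp_sum]
        exact Finset.prod_le_prod (fun p _ => (Real.exp_pos _).le)
          fun p _ => exp_le_one_add (hb0 p) (hb1 p)
    _ ≤ N * Real.exp (∑ p ∈ Finset.Ioc 0 N, Real.exp β * b p / p) :=
        moment_prod (fun p => Real.exp β * b p) (fun p => mul_nonneg (Real.exp_pos _).le (hb0 p)) N
    _ ≤ _ := by
        gcongr
        simp_rw [mul_div_assoc]
        rw [← Finset.mul_sum]
        gcongr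

lemma holder (A : Finset ℕ) (N : ℕ) (hN : 0 < N) (hA : A ⊆ Finset.Ioc 0 N) (G : ℕ → ℝ)
    (hG : ∀ q, 0 ≤ G q) (k : ℕ) (hk : k ≠ 0) (C : ℝ) (hC : 0 ≤ C)
    (hM : ∑ q ∈ Finset.Ioc 0 N, G q ^ k ≤ N * C) :
    ∑ q ∈ A, G q ≤ C ^ (1 / k : ℝ) * N * ((A.card : ℝ) / N) ^ (1 - 1 / k : ℝ) := by
  obtain ⟨n, rfl⟩ := Nat.exists_eq_succ_of_ne_zero hk
  have hNr : (0 : ℝ) < N := by exact_mod_cast hN
  have h1 := pow_sum_le_card_mul_sum_pow (s := A) (f := G) (fun q _ => hG q) n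
  have h2 : ∑ q ∈ A, G q ^ (n + 1) ≤ N * C :=
    (Finset.sum_le_sum_of_subset_of_nonneg hA fun q _ _ => pow_nonneg (hG q) _).trans hM
  have hS : 0 ≤ ∑ q ∈ A, G q := Finset.sum_nonneg fun q _ => hG q
  have hn1 : (0 : ℝ) < (n : ℝ) + 1 := by positivity
  have h3 : (C ^ (1 / (n.succ : ℕ) : ℝ) * N * ((A.card : ℝ) / N) ^ (1 - 1 / (n.succ : ℕ) : ℝ)) ^ (n + 1)
      = (A.card : ℝ) ^ n * (N * C) := by
    have e1 : (C ^ (1 / (n.succ : ℕ) : ℝ)) ^ (n + 1) = C := by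
      rw [one_div]; exact Real.rpow_inv_natCast_pow hC (Nat.succ_ne_zero n)
    have e2 : (((A.card : ℝ) / N) ^ (1 - 1 / (n.succ : ℕ) : ℝ)) ^ (n + 1) = ((A.card : ℝ) / N) ^ n := by
      rw [← Real.rpow_natCast, ← Real.rpow_mul (by positivity), ← Real.rpow_natCast]
      congr 1; push_cast; field_simp; ring
    rw [mul_pow, mul_pow, e1, e2, div_pow, pow_succ]
    field_simp
  refine (pow_le_pow_iff_left₀ hS (by positivity) (Nat.succ_ne_zero n)).mp ?_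
  change _ ^ (n + 1) ≤ _ ^ (n + 1)
  rw [h3]
  exact h1.trans (by gcongr)

lemma inv_one_sub_le_exp {x c : ℝ} (hx0 : 0 ≤ x) (hx1 : x < 1) (hc : (1 - x)⁻¹ ≤ c) :
    (1 - x)⁻¹ ≤ Real.exp (c * x) := by
  have h : 0 < 1 - x := by linarith
  have e : (1 - x)⁻¹ = 1 + (1 - x)⁻¹ * x := by field_simp; ring
  have : (1 - x)⁻¹ * x ≤ c * x := by gcongr
  linarith [Real.add_one_le_exp (c * x)]

/-- divisor sum bound by an Euler product -/
lemma sum_divisors_rpow_le (lam : ℝ) (hl : 0 < lam) (q : ℕ) (hq : q ≠ 0) :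
    ∑ g ∈ q.divisors, (g : ℝ) ^ (-lam) ≤
      Real.exp (∑ p ∈ q.primeFactors, (1 - (2 : ℝ) ^ (-lam))⁻¹ * (p : ℝ) ^ (-lam)) := by
  classical
  let f : ℕ →* ℝ :=
    { toFun := fun n => (n : ℝ) ^ (-lam)
      map_one' := by simp
      map_mul' := fun m n => by push_cast; exact Real.mul_rpow (by positivity) (by positivity) }
  have hf : ∀ n : ℕ, f n = (n : ℝ) ^ (-lam) := fun n => rfl
  have hle : ∀ {p : ℕ}, p.Prime → (p : ℝ) ^ (-lam) ≤ (2 : ℝ) ^ (-lam) := by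
    intro p hp
    have h2 : (2 : ℝ) ≤ p := by exact_mod_cast hp.two_le
    exact Real.rpow_le_rpow_of_nonpos (by norm_num) h2 (by linarith)
  have h2lt : (2 : ℝ) ^ (-lam) < 1 := Real.rpow_lt_one_of_one_lt_of_neg (by norm_num) (by linarith)
  have hlt : ∀ {p : ℕ}, p.Prime → ‖f p‖ < 1 := by
    intro p hp
    rw [hf, Real.norm_of_nonneg (by positivity)]
    exact (hle hp).trans_lt h2lt
  obtain ⟨-, hs⟩ := EulerProduct.summable_and_hasSum_factoredNumbers_prod_filter_prime_geometric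
    hlt q.primeFactors
  have hmem : ∀ g ∈ q.divisors, g ∈ Nat.factoredNumbers q.primeFactors := by
    intro g hg
    have hd := Nat.dvd_of_mem_divisors hg
    exact Nat.mem_factoredNumbers_of_primeFactors_subset (ne_zero_of_dvd_ne_zero hq hd)
      (Nat.primeFactors_mono hd hq)
  have h1 : ∑ g ∈ q.divisors, (g : ℝ) ^ (-lam) =
      ∑ m ∈ q.divisors.subtype (· ∈ Nat.factoredNumbers q.primeFactors), f m := by
    rw [Finset.sum_subtype_of_mem (fun n : ℕ => f n) hmem]; rfl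
  have h2 := sum_le_hasSum (q.divisors.subtype (· ∈ Nat.factoredNumbers q.primeFactors))
    (fun m _ => by rw [hf]; positivity) hs
  rw [h1]
  refine h2.trans ?_
  rw [Finset.filter_true_of_mem (fun p hp => Nat.prime_of_mem_primeFactors hp), Real.exp_sum]
  apply Finset.prod_le_prod
  · intro p hp
    have := hlt (Nat.prime_of_mem_primeFactors hp)
    rw [hf, Real.norm_of_nonneg (by positivity)] at this
    rw [hf]; exact inv_nonneg.mpr (by linarith)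
  · intro p hp
    have hp' := Nat.prime_of_mem_primeFactors hp
    rw [hf]
    apply inv_one_sub_le_exp (by positivity) ((hle hp').trans_lt h2lt)
    exact inv_anti₀ (by linarith) (by linarith [hle hp'])

lemma div_totient_le (q : ℕ) (hq : q ≠ 0) :
    ((q.totient : ℝ) / q)⁻¹ ≤ Real.exp (∑ p ∈ q.primeFactors, 2 * (p : ℝ)⁻¹) := by
  rw [totient_div q hq, ← Finset.prod_inv_distrib, Real.exp_sum]
  apply Finset.prod_le_prod
  · intro p hp
    have := one_sub_inv_mem (Nat.prime_of_mem_primeFactors hp)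
    exact inv_nonneg.mpr (by linarith [this.1])
  · intro p hp
    have := one_sub_inv_mem (Nat.prime_of_mem_primeFactors hp)
    apply inv_one_sub_le_exp (by positivity) (by linarith [this.1])
    calc (1 - (p : ℝ)⁻¹)⁻¹ ≤ (1 / 2 : ℝ)⁻¹ := inv_anti₀ (by norm_num) this.1
      _ = 2 := by norm_num

end Vale.Agent.P028
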