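import Vale.Agent.P028.Grid

namespace Vale.Agent.P028

open Finset MeasureTheory

theorem bc_tail (m : ℕ → ℝ) (T : Set ℕ) (hm : ∀ q, 0 ≤ m q)
    (hdiv : ¬ Summable (T.indicator m)) (Q : ℕ) :
    ∃ S : Finset ℕ, (∀ q ∈ S, q ∈ T ∧ Q ≤ q) ∧ 1 ≤ ∑ q ∈ S, m q := by
  classical
  have h0 : ∀ q, 0 ≤ T.indicator m q := fun q => Set.indicator_nonneg (fun a _ => hm a) q
  by_contra hcon
  push Not at hcon
  refine hdiv (summable_of_sum_le (c := 1 + ∑ q ∈ range Q, T.indicator m q) h0 fun S0 => ?_)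
  have h1 := hcon (S0.filter fun q => q ∈ T ∧ Q ≤ q) (fun q hq => (mem_filter.1 hq).2)
  rw [← Finset.sum_filter_add_sum_filter_not S0 (fun q => Q ≤ q)]
  have h2 : ∑ q ∈ S0.filter (fun q => Q ≤ q), T.indicator m q
      = ∑ q ∈ S0.filter fun q => q ∈ T ∧ Q ≤ q, m q := by
    rw [Finset.sum_filter, Finset.sum_filter]
    refine Finset.sum_congr rfl fun q _ => ?_
    by_cases a : q ∈ T <;> by_cases b : Q ≤ q <;> simp [a, b]
  have h3 : ∑ q ∈ S0.filter (fun q => ¬ Q ≤ q), T.indicator m q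
      ≤ ∑ q ∈ range Q, T.indicator m q :=
    Finset.sum_le_sum_of_subset_of_nonneg (fun q hq => by
      have := (mem_filter.1 hq).2
      exact mem_range.2 (by omega)) (fun q _ _ => h0 q)
  linarith

theorem bc_cells (A : Set ℝ) (hA : MeasurableSet A) (n : ℕ) (hn : 0 < n) (J : Finset ℕ) :
    volume.real (A ∩ ⋃ j ∈ J, Set.Ioo ((j : ℝ) / n) (((j : ℝ) + 1) / n)) =
      ∑ j ∈ J, volume.real (A ∩ Set.Ioo ((j : ℝ) / n) (((j : ℝ) + 1) / n)) := by
  have hnp : (0 : ℝ) < n := by exact_mod_cast hn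
  rw [Set.inter_iUnion₂]
  refine measureReal_biUnion_finset ?_ (fun j _ => hA.inter measurableSet_Ioo) (fun j _ => ?_)
  · intro i _ j _ hij
    refine Set.disjoint_left.2 fun x hx hy => hij ?_
    obtain ⟨-, a1, a2⟩ := hx
    obtain ⟨-, b1, b2⟩ := hy
    rw [div_lt_iff₀ hnp] at a1 b1
    rw [lt_div_iff₀ hnp] at a2 b2
    have c1 : (i : ℝ) < j + 1 := by linarith
    have c2 : (j : ℝ) < i + 1 := by linarith
    have d1 : i < j + 1 := by exact_mod_cast c1
    have d2 : j < i + 1 := by exact_mod_cast c2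
    omega
  · exact ne_top_of_le_ne_top (by simp) (measure_mono Set.inter_subset_right)

/-- divergence Borel-Cantelli lemma with full measure -/
theorem bc (E : ℕ → Set ℝ) (m : ℕ → ℝ) (T : Set ℕ) (hE : ∀ q, MeasurableSet (E q))
    (hfin : ∀ q, volume (E q) ≠ ⊤) (hm : ∀ q, 0 ≤ m q) (hdiv : ¬ Summable (T.indicator m))
    (heq : ∀ u v : ℝ, 0 ≤ u → u < v → v ≤ 1 → ∃ Q : ℕ, ∀ q ∈ T, Q ≤ q →
      (v - u) / 2 * m q ≤ volume.real (E q ∩ Set.Ioo u v))
    (C : ℝ) (hC0 : 0 < C) (hC : ∀ S : Finset ℕ, (S : Set ℕ) ⊆ T →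
      ∑ q ∈ S, ∑ r ∈ S, volume.real (E q ∩ E r) ≤ C * (∑ q ∈ S, m q + (∑ q ∈ S, m q) ^ 2)) :
    ∀ᵐ x : ℝ, x ∈ Set.Ioo (0 : ℝ) 1 → {q | q ∈ T ∧ x ∈ E q}.Infinite := by
  have key : ∀ q1 : ℕ, volume (Set.Ioo (0 : ℝ) 1 \ ⋃ q ∈ {q | q ∈ T ∧ q1 ≤ q}, E q) = 0 := by
    intro q1
    set Z := Set.Ioo (0 : ℝ) 1 \ ⋃ q ∈ {q | q ∈ T ∧ q1 ≤ q}, E q with hZ
    have hZm : MeasurableSet Z := measurableSet_Ioo.diff
      (MeasurableSet.biUnion (Set.to_countable _) fun q _ => hE q)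
    have hZf : volume Z ≠ ⊤ :=
      ne_top_of_le_ne_top (by simp) (measure_mono (Set.sdiff_subset (s := Set.Ioo (0 : ℝ) 1)))
    by_contra hne
    have hβ : 0 < volume.real Z := ENNReal.toReal_pos hne hZf
    set β := volume.real Z with hβd
    obtain ⟨n, J, hn, hJ, hJ1, hJ2⟩ := exists_grid hZm Set.sdiff_subset
      (ε := β ^ 2 / (64 * C)) (by positivity)
    have hnp : (0 : ℝ) < n := by exact_mod_cast hn
    set G := ⋃ j ∈ J, Set.Ioo ((j : ℝ) / n) (((j : ℝ) + 1) / n) with hG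
    have hGm : MeasurableSet G := Finset.measurableSet_biUnion _ fun j _ => measurableSet_Ioo
    have hGf : volume G ≠ ⊤ := by
      refine ne_top_of_le_ne_top ?_ (measure_biUnion_finset_le _ _)
      exact ENNReal.sum_ne_top.2 fun j _ => by simp
    have hQ : ∀ j : ℕ, ∃ Q : ℕ, j < n → ∀ q ∈ T, Q ≤ q →
        1 / (n : ℝ) / 2 * m q ≤ volume.real (E q ∩ Set.Ioo ((j : ℝ) / n) (((j : ℝ) + 1) / n)) := by
      intro j
      by_cases hj : j < n
      · obtain ⟨Q, hQ⟩ := heq ((j : ℝ) / n) (((j : ℝ) + 1) / n) (by positivity)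
          (by gcongr; linarith) (by
            rw [div_le_one hnp]; exact_mod_cast hj)
        refine ⟨Q, fun _ q hq hq' => ?_⟩
        have := hQ q hq hq'
        rwa [show ((j : ℝ) + 1) / n - j / n = 1 / n by ring] at this
      · exact ⟨0, fun h => absurd h hj⟩
    choose Q hQ using hQ
    obtain ⟨S, hS, hs1⟩ := bc_tail m T hm hdiv (max q1 (J.sup Q))
    have hlow : ∀ q ∈ S, β / 4 * m q ≤ volume.real (E q ∩ G) := by
      intro q hq
      rw [hG, bc_cells _ (hE q) n hn J]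
      have h1 := Finset.card_nsmul_le_sum J
        (fun j => volume.real (E q ∩ Set.Ioo ((j : ℝ) / n) (((j : ℝ) + 1) / n)))
        (1 / (n : ℝ) / 2 * m q) (fun j hj => hQ j (hJ j hj) q (hS q hq).1
          ((Finset.le_sup hj).trans ((le_max_right _ _).trans (hS q hq).2)))
      refine le_trans ?_ h1
      rw [nsmul_eq_mul]
      have : β / 4 * m q ≤ ((J.card : ℝ) / n / 2) * m q := by
        exact mul_le_mul_of_nonneg_right (by linarith) (hm q)
      refine this.trans (le_of_eq (by ring))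
    have hce := chung_erdos S (fun q => E q ∩ G) (G \ Z) (fun q => (hE q).inter hGm)
      (hGm.diff hZm) (ne_top_of_le_ne_top hGf (measure_mono Set.sdiff_subset)) (by
        intro q hq x hx
        refine ⟨hx.2, fun hz => hz.2 ?_⟩
        exact Set.mem_biUnion (x := q) ⟨(hS q hq).1, (le_max_left _ _).trans (hS q hq).2⟩ hx.1)
    set s := ∑ q ∈ S, m q with hs
    have h1 : β / 4 * s ≤ ∑ q ∈ S, volume.real (E q ∩ G) := by
      rw [hs, Finset.mul_sum]; exact Finset.sum_le_sum hlow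
    have h2 : ∑ q ∈ S, ∑ r ∈ S, volume.real ((E q ∩ G) ∩ (E r ∩ G)) ≤ C * (s + s ^ 2) := by
      refine le_trans ?_ (hC S fun q hq => (hS q hq).1)
      refine Finset.sum_le_sum fun q _ => Finset.sum_le_sum fun r _ => ?_
      refine measureReal_mono (fun x hx => ⟨hx.1.1, hx.2.1⟩) ?_
      exact ne_top_of_le_ne_top (hfin q) (measure_mono Set.inter_subset_left)
    have h3 : (β / 4 * s) ^ 2 ≤ β ^ 2 / (64 * C) * (C * (s + s ^ 2)) := by
      refine le_trans (pow_le_pow_left₀ (by positivity) h1 2) (hce.trans ?_)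
      exact mul_le_mul hJ2 h2 (Finset.sum_nonneg fun q _ => Finset.sum_nonneg fun r _ =>
        measureReal_nonneg) (by positivity)
    have h4 : β ^ 2 / (64 * C) * (C * (s + s ^ 2)) = β ^ 2 * ((s + s ^ 2) / 64) := by
      field_simp
    have h5 : (β / 4 * s) ^ 2 = β ^ 2 * (s ^ 2 / 16) := by ring
    rw [h4, h5] at h3
    have h6 := le_of_mul_le_mul_left h3 (by positivity)
    nlinarith
  have hall : ∀ᵐ x : ℝ, ∀ q1 : ℕ,
      x ∉ Set.Ioo (0 : ℝ) 1 \ ⋃ q ∈ {q | q ∈ T ∧ q1 ≤ q}, E q :=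
    ae_all_iff.2 fun q1 => measure_eq_zero_iff_ae_notMem.1 (key q1)
  filter_upwards [hall] with x hx hx1
  refine Set.infinite_of_forall_exists_gt fun a => ?_
  have := hx (a + 1)
  simp only [Set.mem_sdiff, not_and, not_not] at this
  obtain ⟨q, hq, hxq⟩ := Set.mem_iUnion₂.1 (this hx1)
  exact ⟨q, ⟨hq.1, hxq⟩, hq.2⟩

end Vale.Agent.P028
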