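import Vale.Agent.P028.Defs

namespace Vale.Agent.P028

open Finset MeasureTheory

variable {γ : ℝ}

theorem cen_spec (γ : ℝ) (n : ℕ) : 0 < (cen γ n).2 ∧ IsCoprime (cen γ n).1 ((cen γ n).2 : ℤ) := by
  unfold cen
  split_ifs with h
  · exact ⟨h.choose_spec.1, h.choose_spec.2.1⟩
  · exact ⟨one_pos, by simpa using isCoprime_one_right⟩

lemma good_unique {n : ℕ} (hn : 256 < n) {p p' : ℤ × ℕ} (h : Good γ n p) (h' : Good γ n p') :
    p = p' := by
  obtain ⟨A, B⟩ := p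
  obtain ⟨A', B'⟩ := p'
  obtain ⟨hB, hc, h1, h2⟩ := h
  obtain ⟨hB', hc', h1', h2'⟩ := h'
  simp only at hB hc h1 h2 hB' hc' h1' h2'
  have hBr : (0 : ℝ) < B := by exact_mod_cast hB
  have hBr' : (0 : ℝ) < B' := by exact_mod_cast hB'
  have hn' : (256 : ℝ) < n := by exact_mod_cast hn
  have key : A * B' = A' * B := by
    by_contra hne
    have h3 : (1 : ℝ) ≤ |((A * B' : ℤ) : ℝ) - ((A' * B : ℤ) : ℝ)| := one_le_abs_sub hne
    set e := max |γ - A / B| |γ - A' / B'| with he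
    have he0 : 0 ≤ e := le_max_of_le_left (abs_nonneg _)
    have he4 : e ^ 4 * n ≤ 1 := by
      rcases le_total |γ - A / B| |γ - A' / B'| with h | h
      · rw [he, max_eq_right h]; exact h2'
      · rw [he, max_eq_left h]; exact h2
    have e1 : ((A * B' : ℤ) : ℝ) - ((A' * B : ℤ) : ℝ) =
        ((γ - A' / B') - (γ - A / B)) * (B * B') := by
      push_cast; field_simp; ring
    have h4 : (1 : ℝ) ≤ 2 * e * (B * B') := by
      refine h3.trans ?_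
      rw [e1, abs_mul, abs_of_pos (mul_pos hBr hBr')]
      refine mul_le_mul_of_nonneg_right ((abs_sub _ _).trans ?_) (by positivity)
      have := le_max_left |γ - A / B| |γ - A' / B'|
      have := le_max_right |γ - A / B| |γ - A' / B'|
      linarith
    have h5 : (1 : ℝ) ≤ (2 * e * (B * B')) ^ 16 := one_le_pow₀ h4
    have h6 : (2 * e * (B * B')) ^ 16 = 2 ^ 16 * (e ^ 4) ^ 4 * ((B : ℝ) ^ 16 * (B' : ℝ) ^ 16) := by
      ring
    have h7 : (B : ℝ) ^ 16 * (B' : ℝ) ^ 16 ≤ n * n :=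
      mul_le_mul h1 h1' (by positivity) (by positivity)
    have h8 : (e ^ 4 * n) ^ 4 ≤ 1 := pow_le_one₀ (by positivity) he4
    have h9 : (1 : ℝ) ≤ 2 ^ 16 * (e ^ 4) ^ 4 * (n * n) := by
      refine h5.trans ?_
      rw [h6]
      exact mul_le_mul_of_nonneg_left h7 (by positivity)
    have h10 : (n : ℝ) * n ≤ 2 ^ 16 := by
      calc (n : ℝ) * n = (n * n) * 1 := by ring
        _ ≤ (n * n) * (2 ^ 16 * (e ^ 4) ^ 4 * (n * n)) :=
          mul_le_mul_of_nonneg_left h9 (by positivity)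
        _ = 2 ^ 16 * (e ^ 4 * n) ^ 4 := by ring
        _ ≤ 2 ^ 16 * 1 := mul_le_mul_of_nonneg_left h8 (by positivity)
        _ = 2 ^ 16 := by ring
    nlinarith
  have d1 : (B : ℤ) ∣ B' := hc.symm.dvd_of_dvd_mul_left ⟨A', by rw [key]; ring⟩
  have d2 : (B' : ℤ) ∣ B := hc'.symm.dvd_of_dvd_mul_left ⟨A, by rw [← key]; ring⟩
  have hBB : B = B' := Nat.dvd_antisymm (by exact_mod_cast d1) (by exact_mod_cast d2)
  subst hBB
  have hB0 : (B : ℤ) ≠ 0 := by exact_mod_cast hB.ne'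
  rw [mul_right_cancel₀ hB0 key]

theorem cen_eq {n : ℕ} (hn : 256 < n) {p : ℤ × ℕ} (h : Good γ n p) : cen γ n = p := by
  have hex : ∃ p, Good γ n p := ⟨p, h⟩
  unfold cen
  rw [dif_pos hex]
  exact good_unique hn hex.choose_spec h

lemma prime_of_mem_PP {q l : ℕ} (h : l ∈ PP γ q) : l.Prime :=
  Nat.prime_of_mem_primeFactors (Finset.mem_filter.1 h).1

lemma prod_anti {P P' : Finset ℕ} (h : P ⊆ P') (hp : ∀ l ∈ P', l.Prime) :
    ∏ l ∈ P', (1 - (l : ℝ)⁻¹) ≤ ∏ l ∈ P, (1 - (l : ℝ)⁻¹) :=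
  Finset.prod_le_prod_of_subset_of_le_one h
    (fun l hl => by linarith [(one_sub_inv_mem (hp l hl)).1])
    (fun l hl _ => (one_sub_inv_mem (hp l hl)).2)

theorem tot_le_ff (γ : ℝ) {q : ℕ} (hq : q ≠ 0) : (q.totient : ℝ) / q ≤ ff γ q := by
  rw [totient_div q hq]
  exact prod_anti (Finset.filter_subset _ _) fun l hl => Nat.prime_of_mem_primeFactors hl

theorem ff_pos (γ : ℝ) (q : ℕ) : 0 < ff γ q :=
  Finset.prod_pos fun l hl => by linarith [(one_sub_inv_mem (prime_of_mem_PP hl)).1]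

theorem ff_le_one (γ : ℝ) (q : ℕ) : ff γ q ≤ 1 :=
  Finset.prod_le_one (fun l hl => by linarith [(one_sub_inv_mem (prime_of_mem_PP hl)).1])
    fun l hl => (one_sub_inv_mem (prime_of_mem_PP hl)).2

/-- Legendre count of the sieved numerators in a window -/
theorem RR_window (γ : ℝ) (q : ℕ) {P : Finset ℕ} (hP : P ⊆ PP γ q) {u v : ℝ} (hu : 0 ≤ u)
    (huv : u ≤ v) (hv : v ≤ q) :
    |(((RR γ q P).filter fun a : ℤ => u ≤ a ∧ (a : ℝ) < v).card : ℝ) -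
      (v - u) * ∏ l ∈ P, (1 - (l : ℝ)⁻¹)| ≤ 2 ^ q.primeFactors.card := by
  have e : ((RR γ q P).filter fun a : ℤ => u ≤ a ∧ (a : ℝ) < v) =
      (Finset.Ico ⌈u⌉ ⌈v⌉).filter (Ok P (fun _ => ((cen γ q).2 : ℤ)) (fun _ => (cen γ q).1)) := by
    ext a
    simp only [RR, Finset.mem_filter, mem_Ico_ceil]
    rw [Finset.mem_Ico]
    constructor
    · rintro ⟨⟨_, h2⟩, h3⟩; exact ⟨h3, h2⟩
    · rintro ⟨h3, h2⟩
      refine ⟨⟨⟨?_, ?_⟩, h2⟩, h3⟩
      · exact_mod_cast hu.trans h3.1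
      · exact_mod_cast h3.2.trans_le hv
  rw [e]
  refine (legendre P (fun l hl => prime_of_mem_PP (hP hl)) _ _ (fun l hl => ?_) u v huv).trans ?_
  · have := (Finset.mem_filter.1 (hP hl)).2
    exact_mod_cast this
  · exact pow_le_pow_right₀ (by norm_num)
      (Finset.card_le_card (hP.trans (Finset.filter_subset _ _)))

theorem exists_sieveOK : ∃ Q : ℕ, ∀ (γ : ℝ) (q : ℕ), Q ≤ q → SieveOK γ q := by
  obtain ⟨Q, hQ⟩ := two_pow_omega_le 1 one_pos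
  refine ⟨Q + 1, fun γ q hq P hP => ?_⟩
  have hq0 : q ≠ 0 := by omega
  have hq' : (0 : ℝ) < q := by exact_mod_cast Nat.pos_of_ne_zero hq0
  have h1 := RR_window γ q hP (u := 0) (v := q) le_rfl hq'.le le_rfl
  have e : ((RR γ q P).filter fun a : ℤ => (0 : ℝ) ≤ a ∧ (a : ℝ) < q) = RR γ q P := by
    refine Finset.filter_true_of_mem fun a ha => ?_
    have := Finset.mem_Ico.1 (Finset.mem_filter.1 ha).1
    exact ⟨by exact_mod_cast this.1, by exact_mod_cast this.2⟩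
  rw [e, sub_zero] at h1
  have h2 := hQ q (by omega)
  have h3 : (q.totient : ℝ) / q ≤ ∏ l ∈ P, (1 - (l : ℝ)⁻¹) :=
    (tot_le_ff γ hq0).trans (prod_anti hP fun l hl => prime_of_mem_PP hl)
  rw [div_le_iff₀ hq'] at h3
  have := (abs_le.1 h1).2
  nlinarith

theorem prod_trunc (γ : ℝ) (q z : ℕ) :
    ∏ l ∈ (PP γ q).filter (· ≤ z), (1 - (l : ℝ)⁻¹) ≤ ff γ q * Real.exp (2 * Lz z q) := by
  have e := Finset.prod_filter_mul_prod_filter_not (PP γ q) (· ≤ z) fun l => (1 - (l : ℝ)⁻¹)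
  have h1 : (1 : ℝ) ≤ (∏ l ∈ (PP γ q).filter (fun l => ¬ l ≤ z), (1 - (l : ℝ)⁻¹)) *
      Real.exp (2 * Lz z q) := by
    have h2 : ∑ l ∈ (PP γ q).filter (fun l => ¬ l ≤ z), 2 * (l : ℝ)⁻¹ ≤ 2 * Lz z q := by
      rw [← Finset.mul_sum, Lz, ← Finset.sum_filter]
      refine mul_le_mul_of_nonneg_left (Finset.sum_le_sum_of_subset_of_nonneg ?_
        fun _ _ _ => by positivity) (by norm_num)
      intro l hl
      rw [Finset.mem_filter] at hl ⊢
      exact ⟨(Finset.mem_filter.1 hl.1).1, not_le.1 hl.2⟩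
    refine le_trans ?_ (mul_le_mul_of_nonneg_left (Real.exp_le_exp.2 h2) (Finset.prod_nonneg
      fun l hl => by linarith [(one_sub_inv_mem (prime_of_mem_PP (Finset.mem_filter.1 hl).1)).1]))
    rw [Real.exp_sum, ← Finset.prod_mul_distrib]
    refine le_of_eq_of_le (Finset.prod_const_one).symm
      (Finset.prod_le_prod (fun _ _ => zero_le_one) fun l hl => ?_)
    have hm := one_sub_inv_mem (prime_of_mem_PP (Finset.mem_filter.1 hl).1)
    have hp : 0 < 1 - (l : ℝ)⁻¹ := by linarith [hm.1]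
    have h3 : (1 - (l : ℝ)⁻¹)⁻¹ ≤ 2 := by
      rw [inv_le_comm₀ hp (by norm_num)]; linarith [hm.1]
    have h4 := inv_one_sub_le_exp (x := (l : ℝ)⁻¹) (by positivity) (by linarith) h3
    calc (1 : ℝ) = (1 - (l : ℝ)⁻¹) * (1 - (l : ℝ)⁻¹)⁻¹ := (mul_inv_cancel₀ hp.ne').symm
      _ ≤ _ := mul_le_mul_of_nonneg_left h4 hp.le
  have h0 : 0 ≤ ∏ l ∈ (PP γ q).filter (· ≤ z), (1 - (l : ℝ)⁻¹) := Finset.prod_nonneg
      fun l hl => by linarith [(one_sub_inv_mem (prime_of_mem_PP (Finset.mem_filter.1 hl).1)).1]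
  calc _ ≤ (∏ l ∈ (PP γ q).filter (· ≤ z), (1 - (l : ℝ)⁻¹)) * _ := le_mul_of_one_le_right h0 h1
    _ = _ := by rw [← mul_assoc, e]; rfl

theorem RR_anti (γ : ℝ) (q : ℕ) {P P' : Finset ℕ} (h : P ⊆ P') : RR γ q P' ⊆ RR γ q P := by
  intro a ha
  simp only [RR, Finset.mem_filter] at ha ⊢
  exact ⟨ha.1, fun l hl => ha.2 l (h hl)⟩

theorem Pairs_mono {R₁ R₂ R₁' R₂' : Finset ℤ} (h : R₁ ⊆ R₂) (h' : R₁' ⊆ R₂') (q' r' : ℕ) (γ : ℝ)
    {D D' : ℝ} (hD : D ≤ D') : Pairs R₁ R₁' q' r' γ D ⊆ Pairs R₂ R₂' q' r' γ D' := by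
  intro p hp
  simp only [Pairs, Finset.mem_filter, Finset.mem_product] at hp ⊢
  exact ⟨⟨h hp.1.1, h' hp.1.2⟩, by linarith [hp.2]⟩

theorem dens_nonneg (N : ℕ) (V : Finset ℕ) (g : ℕ) : 0 ≤ dens N V g := by
  unfold dens; positivity

theorem Blk.sub {N : ℕ} {δ : ℝ} {V : Finset ℕ} (h : Blk γ N δ V) : V ⊆ Finset.Ioc 0 N := by
  intro q hq
  have := h.lo q hq
  exact Finset.mem_Ioc.2 ⟨by omega, h.hi q hq⟩

theorem Blk.dens_le {N : ℕ} {δ : ℝ} {V : Finset ℕ} (h : Blk γ N δ V) (g : ℕ) :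
    dens N V g ≤ 1 := by
  have hN : (0 : ℝ) < N := by have := h.big; exact_mod_cast (by omega : 0 < N)
  unfold dens
  rw [div_le_one hN]
  have h1 := nm_le_div V N g h.sub
  have h2 : g * nm V g ≤ N := (Nat.mul_le_mul_left g h1).trans (Nat.mul_div_le N g)
  exact_mod_cast h2

theorem Blk.pos {N : ℕ} {δ : ℝ} {V : Finset ℕ} (h : Blk γ N δ V) : 0 < δ := by
  have hN : (0 : ℝ) < N := by have := h.big; exact_mod_cast (by omega : 0 < N)
  exact lt_of_lt_of_le (by positivity) h.d1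

end Vale.Agent.P028
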