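import Vale.Agent.P028.BasA

namespace Vale.Agent.P028

open Finset MeasureTheory

variable {γ : ℝ}

theorem isOpen_EE (γ δ : ℝ) (q : ℕ) : IsOpen (EE γ δ q) := by
  unfold EE
  exact isOpen_biUnion fun a _ => isOpen_Ioo

theorem EE_ne_top (γ δ : ℝ) (q : ℕ) : volume (EE γ δ q) ≠ ⊤ := by
  unfold EE
  refine ne_top_of_le_ne_top ?_ (measure_biUnion_finset_le _ _)
  exact ENNReal.sum_ne_top.2 fun a _ => by simp

lemma abs_lt_of_mem_Ioo {δ x : ℝ} {q : ℕ} (hq : 0 < q) {a : ℤ}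
    (h : x ∈ Set.Ioo (((a : ℝ) + γ - δ) / q) (((a : ℝ) + γ + δ) / q)) :
    |(q : ℝ) * x - a - γ| < δ := by
  have hq' : (0 : ℝ) < q := by exact_mod_cast hq
  obtain ⟨h1, h2⟩ := h
  rw [div_lt_iff₀ hq'] at h1
  rw [lt_div_iff₀ hq'] at h2
  rw [abs_lt]; constructor <;> nlinarith

theorem mem_EE {δ x : ℝ} {q : ℕ} (hq : 0 < q) (h : x ∈ EE γ δ q) :
    ∃ a : ℤ, |(q : ℝ) * x - a - γ| < δ := by
  unfold EE at h
  simp only [Set.mem_iUnion] at h
  obtain ⟨a, _, ha⟩ := h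
  exact ⟨a, abs_lt_of_mem_Ioo hq ha⟩

theorem ov_nonneg (γ δ δ' : ℝ) (q r : ℕ) : 0 ≤ ov γ δ δ' q r := measureReal_nonneg

theorem ov_comm (γ δ δ' : ℝ) (q r : ℕ) : ov γ δ δ' q r = ov γ δ' δ r q := by
  unfold ov; rw [Set.inter_comm]

lemma real_Ioo_cell {δ : ℝ} (hδ : 0 ≤ δ) {q : ℕ} (hq : 0 < q) (a : ℤ) :
    volume.real (Set.Ioo (((a : ℝ) + γ - δ) / q) (((a : ℝ) + γ + δ) / q)) = 2 * (δ / q) := by
  have hq' : (0 : ℝ) < q := by exact_mod_cast hq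
  rw [Real.volume_real_Ioo_of_le (div_le_div_of_nonneg_right (by linarith) hq'.le)]
  ring

theorem ov_diag {δ : ℝ} (hδ : 0 ≤ δ) {q : ℕ} (hq : 0 < q) (h : SieveOK γ q) :
    ov γ δ δ q q ≤ 4 * (δ * ff γ q) := by
  have hq' : (0 : ℝ) < q := by exact_mod_cast hq
  unfold ov
  rw [Set.inter_self]
  unfold EE
  refine (measureReal_biUnion_finset_le _ _).trans ?_
  rw [Finset.sum_congr rfl fun a _ => real_Ioo_cell (γ := γ) hδ hq a, Finset.sum_const,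
    nsmul_eq_mul]
  have h1 := h (PP γ q) subset_rfl
  calc ((RR γ q (PP γ q)).card : ℝ) * (2 * (δ / q)) ≤ (2 * q * ff γ q) * (2 * (δ / q)) :=
        mul_le_mul_of_nonneg_right h1 (by positivity)
    _ = 4 * (δ * ff γ q) := by field_simp; ring

/-- overlap in terms of close pairs of numerators -/
theorem ov_le {δ δ' D : ℝ} (hδ : 0 ≤ δ) (hδ' : 0 ≤ δ') {g q' r' : ℕ} (hg : 0 < g) (hq : 0 < q')
    (hr : 0 < r') (h1 : δ * r' ≤ D) (h2 : δ' * q' ≤ D) :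
    ov γ δ δ' (g * q') (g * r') ≤ 2 * min (δ / (g * q' : ℕ)) (δ' / (g * r' : ℕ)) *
      (Pairs (RR γ (g * q') (PP γ (g * q'))) (RR γ (g * r') (PP γ (g * r'))) q' r' γ D).card := by
  have hgq : 0 < g * q' := Nat.mul_pos hg hq
  have hgr : 0 < g * r' := Nat.mul_pos hg hr
  have hq' : (0 : ℝ) < q' := by exact_mod_cast hq
  have hr' : (0 : ℝ) < r' := by exact_mod_cast hr
  set S := Pairs (RR γ (g * q') (PP γ (g * q'))) (RR γ (g * r') (PP γ (g * r'))) q' r' γ D with hS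
  set I : ℤ × ℤ → Set ℝ := fun p =>
    Set.Ioo (((p.1 : ℝ) + γ - δ) / (g * q' : ℕ)) (((p.1 : ℝ) + γ + δ) / (g * q' : ℕ)) ∩
      Set.Ioo (((p.2 : ℝ) + γ - δ') / (g * r' : ℕ)) (((p.2 : ℝ) + γ + δ') / (g * r' : ℕ)) with hI
  have hsub : EE γ δ (g * q') ∩ EE γ δ' (g * r') ⊆ ⋃ p ∈ S, I p := by
    rintro x ⟨hx, hx'⟩
    unfold EE at hx hx'
    simp only [Set.mem_iUnion] at hx hx' ⊢
    obtain ⟨a, ha, hxa⟩ := hx
    obtain ⟨b, hb, hxb⟩ := hx'
    refine ⟨(a, b), ?_, hxa, hxb⟩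
    rw [hS, Pairs, Finset.mem_filter, Finset.mem_product]
    refine ⟨⟨ha, hb⟩, ?_⟩
    have e1 := abs_lt_of_mem_Ioo hgq hxa
    have e2 := abs_lt_of_mem_Ioo hgr hxb
    have e : ((a * (r' : ℤ) - b * (q' : ℤ) : ℤ) : ℝ) + γ * ((r' : ℝ) - q') =
        (((g * r' : ℕ) : ℝ) * x - b - γ) * q' - (((g * q' : ℕ) : ℝ) * x - a - γ) * r' := by
      push_cast; ring
    show |((a * (r' : ℤ) - b * (q' : ℤ) : ℤ) : ℝ) + γ * ((r' : ℝ) - q')| < 2 * D
    rw [e]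
    refine (abs_sub _ _).trans_lt ?_
    rw [abs_mul, abs_mul, abs_of_pos hq', abs_of_pos hr']
    have := mul_lt_mul_of_pos_right e1 hr'
    have := mul_lt_mul_of_pos_right e2 hq'
    linarith
  have hfin : ∀ p ∈ S, volume (I p) ≠ ⊤ := fun p _ =>
    ne_top_of_le_ne_top (by simp) (measure_mono Set.inter_subset_left)
  have hle : ∀ p ∈ S, volume.real (I p) ≤ 2 * min (δ / (g * q' : ℕ)) (δ' / (g * r' : ℕ)) := by
    intro p _
    have a1 : volume.real (I p) ≤ 2 * (δ / (g * q' : ℕ)) := by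
      rw [← real_Ioo_cell (γ := γ) hδ hgq p.1]
      exact measureReal_mono Set.inter_subset_left (by simp)
    have a2 : volume.real (I p) ≤ 2 * (δ' / (g * r' : ℕ)) := by
      rw [← real_Ioo_cell (γ := γ) hδ' hgr p.2]
      exact measureReal_mono Set.inter_subset_right (by simp)
    rw [mul_min_of_nonneg _ _ (by norm_num : (0 : ℝ) ≤ 2)]
    exact le_min a1 a2
  unfold ov
  refine (measureReal_mono hsub ?_).trans ((measureReal_biUnion_finset_le _ _).trans ?_)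
  · exact ne_top_of_le_ne_top (ENNReal.sum_ne_top.2 hfin) (measure_biUnion_finset_le _ _)
  · refine (Finset.sum_le_sum hle).trans ?_
    rw [Finset.sum_const, nsmul_eq_mul, mul_comm]

/-- the form used for two blocks -/
theorem ov_le_blk {N M : ℕ} {δ δ' : ℝ} {V V' : Finset ℕ} (hb : Blk γ N δ V) (hb' : Blk γ M δ' V')
    {g q' r' : ℕ} (hg : 0 < g) (hq : g * q' ∈ V) (hr : g * r' ∈ V') :
    ov γ δ δ' (g * q') (g * r') ≤ 4 * min (M * δ) (N * δ') / ((N : ℝ) * M) *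
      (Pairs (RR γ (g * q') (PP γ (g * q'))) (RR γ (g * r') (PP γ (g * r'))) q' r' γ
        (max (M * δ) (N * δ') / g)).card := by
  have hδ := hb.pos
  have hδ' := hb'.pos
  have hN : (0 : ℝ) < N := by have := hb.big; exact_mod_cast (by omega : 0 < N)
  have hM : (0 : ℝ) < M := by have := hb'.big; exact_mod_cast (by omega : 0 < M)
  have hg' : (0 : ℝ) < g := by exact_mod_cast hg
  have l1 := hb.lo _ hq
  have l2 := hb'.lo _ hr
  have u1 := hb.hi _ hq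
  have u2 := hb'.hi _ hr
  have hq0 : 0 < q' := Nat.pos_of_ne_zero (by rintro rfl; simp at l1)
  have hr0 : 0 < r' := Nat.pos_of_ne_zero (by rintro rfl; simp at l2)
  have l1' : (N : ℝ) < 2 * ((g * q' : ℕ) : ℝ) := by exact_mod_cast l1
  have l2' : (M : ℝ) < 2 * ((g * r' : ℕ) : ℝ) := by exact_mod_cast l2
  have u1' : (g : ℝ) * q' ≤ N := by exact_mod_cast u1
  have u2' : (g : ℝ) * r' ≤ M := by exact_mod_cast u2
  have hgq : (0 : ℝ) < ((g * q' : ℕ) : ℝ) := by linarith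
  have hgr : (0 : ℝ) < ((g * r' : ℕ) : ℝ) := by linarith
  refine (ov_le hδ.le hδ'.le hg hq0 hr0 (D := max (M * δ) (N * δ') / g) ?_ ?_).trans ?_
  · rw [le_div_iff₀ hg']
    refine le_trans ?_ (le_max_left _ _)
    nlinarith
  · rw [le_div_iff₀ hg']
    refine le_trans ?_ (le_max_right _ _)
    nlinarith
  · refine mul_le_mul_of_nonneg_right ?_ (by positivity)
    rw [le_div_iff₀ (by positivity)]
    have a1 : δ / ((g * q' : ℕ) : ℝ) * (N * M) ≤ 2 * (M * δ) := by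
      rw [div_mul_eq_mul_div, div_le_iff₀ hgq]
      have : δ * M * N ≤ δ * M * (2 * ((g * q' : ℕ) : ℝ)) :=
        mul_le_mul_of_nonneg_left l1'.le (by positivity)
      nlinarith
    have a2 : δ' / ((g * r' : ℕ) : ℝ) * (N * M) ≤ 2 * (N * δ') := by
      rw [div_mul_eq_mul_div, div_le_iff₀ hgr]
      have : δ' * N * M ≤ δ' * N * (2 * ((g * r' : ℕ) : ℝ)) :=
        mul_le_mul_of_nonneg_left l2'.le (by positivity)
      nlinarith
    have b1 := mul_le_mul_of_nonneg_right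
      (min_le_left (δ / ((g * q' : ℕ) : ℝ)) (δ' / ((g * r' : ℕ) : ℝ)))
      (by positivity : (0 : ℝ) ≤ N * M)
    have b2 := mul_le_mul_of_nonneg_right
      (min_le_right (δ / ((g * q' : ℕ) : ℝ)) (δ' / ((g * r' : ℕ) : ℝ)))
      (by positivity : (0 : ℝ) ≤ N * M)
    rcases le_total (M * δ) (N * δ') with h | h
    · rw [min_eq_left h]; nlinarith
    · rw [min_eq_right h]; nlinarith

theorem mem_PG {V V' : Finset ℕ} {g : ℕ} (hg : 0 < g) {p : ℕ × ℕ} (hp : p ∈ PG V V' g) :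
    ∃ q' r' : ℕ, p = (g * q', g * r') ∧ Nat.Coprime q' r' ∧ q' ≠ r' ∧ g * q' ∈ V ∧ g * r' ∈ V' := by
  obtain ⟨q, r⟩ := p
  simp only [PG, Finset.mem_filter, Finset.mem_product] at hp
  obtain ⟨⟨h1, h2⟩, hne, hgcd⟩ := hp
  obtain ⟨q', rfl⟩ : g ∣ q := hgcd ▸ Nat.gcd_dvd_left q r
  obtain ⟨r', rfl⟩ : g ∣ r := hgcd ▸ Nat.gcd_dvd_right _ r
  refine ⟨q', r', rfl, ?_, fun h => hne (by rw [h]), h1, h2⟩
  rw [Nat.gcd_mul_left] at hgcd
  exact Nat.eq_of_mul_eq_mul_left hg (by rw [hgcd, mul_one])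

end Vale.Agent.P028
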