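import Vale.Agent.P028.LargeA

namespace Vale.Agent.P028

open Finset MeasureTheory

theorem large_aux {a b m : ℝ} (ha : 0 < a) (hab : a ≤ b) (hm : 0 ≤ m) :
    a * (m / a) ^ (3 / 4 : ℝ) ≤ b * (m / b) ^ (3 / 4 : ℝ) := by
  have e : ∀ c : ℝ, 0 < c → c * (m / c) ^ (3 / 4 : ℝ) = c ^ (1 / 4 : ℝ) * m ^ (3 / 4 : ℝ) := by
    intro c hc
    have h1 : c = c ^ (1 / 4 : ℝ) * c ^ (3 / 4 : ℝ) := by
      rw [← Real.rpow_add hc]; norm_num
    have h2 : 0 < c ^ (3 / 4 : ℝ) := Real.rpow_pos_of_pos hc _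
    rw [Real.div_rpow hm hc.le]
    nth_rewrite 1 [h1]
    field_simp
  rw [e a ha, e b (ha.trans_le hab)]
  exact mul_le_mul_of_nonneg_right (Real.rpow_le_rpow ha.le hab (by norm_num))
    (Real.rpow_nonneg hm _)

theorem Gz_sum : ∃ C : ℝ, 0 < C ∧ ∀ (z N g : ℕ) (V : Finset ℕ), 0 < g → 0 < N →
    V ⊆ Finset.Ioc 0 N → ∑ q ∈ V.filter (g ∣ ·), Gz z q ≤
      C * (g : ℝ) ^ (1 / 8 : ℝ) * ((N : ℝ) / g) * dens N V g ^ (3 / 4 : ℝ) := by
  obtain ⟨C1, hC1, h1⟩ := exp_omega_le (1 / 8) (by norm_num)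
  obtain ⟨C2, hC2, h2⟩ := Gz_moment 4
  refine ⟨C1 * C2 ^ (1 / (4 : ℕ) : ℝ), by positivity, fun z N g V hg hN hV => ?_⟩
  have hg' : (0 : ℝ) < g := by exact_mod_cast hg
  have hN' : (0 : ℝ) < N := by exact_mod_cast hN
  have hinj : Set.InjOn (fun q => q / g) (V.filter (g ∣ ·) : Set ℕ) := by
    intro a ha b hb h
    have ha' := (mem_filter.1 (mem_coe.1 ha)).2
    have hb' := (mem_filter.1 (mem_coe.1 hb)).2
    rw [← Nat.mul_div_cancel' ha', ← Nat.mul_div_cancel' hb']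
    exact congrArg _ h
  have hA : (V.filter (g ∣ ·)).image (fun q => q / g) ⊆ Finset.Ioc 0 (N / g) := by
    intro a ha
    obtain ⟨q, hq, rfl⟩ := mem_image.1 ha
    obtain ⟨hq1, hq2⟩ := mem_filter.1 hq
    have := mem_Ioc.1 (hV hq1)
    exact mem_Ioc.2 ⟨Nat.div_pos (Nat.le_of_dvd this.1 hq2) hg, Nat.div_le_div_right this.2⟩
  have hd : 0 ≤ dens N V g := dens_nonneg N V g
  rcases Nat.eq_zero_or_pos (N / g) with h0 | h0
  · rw [h0, Finset.Ioc_self, subset_empty, image_eq_empty] at hA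
    rw [hA, sum_empty]
    positivity
  have h3 := holder _ (N / g) h0 hA (Gz z) (fun q => (Gz_pos z q).le) 4 (by norm_num) C2 hC2.le
    (h2 z _)
  rw [sum_image hinj, card_image_of_injOn hinj] at h3
  have h4 : ((N / g : ℕ) : ℝ) * (((V.filter (g ∣ ·)).card : ℝ) / (N / g : ℕ)) ^ (3 / 4 : ℝ) ≤
      ((N : ℝ) / g) * dens N V g ^ (3 / 4 : ℝ) := by
    have e : dens N V g = ((V.filter (g ∣ ·)).card : ℝ) / ((N : ℝ) / g) := by
      unfold dens nm; field_simp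
    rw [e]
    exact large_aux (by exact_mod_cast h0) Nat.cast_div_le (by positivity)
  have e34 : (1 - 1 / ((4 : ℕ) : ℝ)) = 3 / 4 := by norm_num
  rw [e34, mul_assoc] at h3
  calc ∑ q ∈ V.filter (g ∣ ·), Gz z q
      ≤ ∑ q ∈ V.filter (g ∣ ·), C1 * (g : ℝ) ^ (1 / 8 : ℝ) * Gz z (q / g) := by
        refine sum_le_sum fun q hq => ?_
        obtain ⟨hq1, hq2⟩ := mem_filter.1 hq
        have h5 := (mem_Ioc.1 (hA (mem_image_of_mem _ hq))).1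
        have h6 := Gz_mul_le z g (q / g) hg.ne' h5.ne'
        rw [Nat.mul_div_cancel' hq2] at h6
        exact h6.trans (mul_le_mul_of_nonneg_right (h1 g hg.ne') (Gz_pos _ _).le)
    _ = C1 * (g : ℝ) ^ (1 / 8 : ℝ) * ∑ q ∈ V.filter (g ∣ ·), Gz z (q / g) := by rw [mul_sum]
    _ ≤ C1 * (g : ℝ) ^ (1 / 8 : ℝ) *
        (C2 ^ (1 / (4 : ℕ) : ℝ) * (((N : ℝ) / g) * dens N V g ^ (3 / 4 : ℝ))) := by
        refine mul_le_mul_of_nonneg_left (h3.trans ?_) (by positivity)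
        exact mul_le_mul_of_nonneg_left h4 (by positivity)
    _ = _ := by ring

theorem large_g : ∃ C : ℝ, 0 < C ∧ ∀ (γ : ℝ) (N M : ℕ) (δ δ' : ℝ) (V V' : Finset ℕ),
    Blk γ N δ V → Blk γ M δ' V' → N ≤ M → ∀ g : ℕ, 0 < g → 1 / 5 < max (M * δ) (N * δ') / g →
    ∑ p ∈ PG V V' g, ov γ δ δ' p.1 p.2 ≤
      1200 * Real.exp 4 * ∑ p ∈ PG V V' g, (δ * ff γ p.1) * (δ' * ff γ p.2) +
        C * ((N * δ) * (M * δ') * (M * δ) ^ (-(1 / 2) : ℝ)) *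
          ((g : ℝ) ^ (-1 - sg) * (dens N V g ^ (3 / 4 : ℝ) * dens M V' g ^ (3 / 4 : ℝ))) := by
  obtain ⟨C, hC, hG⟩ := Gz_sum
  refine ⟨144 * C, by positivity, fun γ N M δ δ' V V' hb hb' hNM g hg ht => ?_⟩
  have hg' : (0 : ℝ) < g := by exact_mod_cast hg
  have hg1 : (1 : ℝ) ≤ g := by exact_mod_cast hg
  have hN : 0 < N := by have := hb.big; omega
  have hM : 0 < M := by omega
  have hN' : (0 : ℝ) < N := by exact_mod_cast hN
  have hM' : (0 : ℝ) < M := by exact_mod_cast hM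
  have hδ := hb.pos
  have hδ' := hb'.pos
  have hv : N * δ' ≤ 1 / 8 := by
    have h1 := hb'.d2
    rw [le_div_iff₀ (by positivity)] at h1
    have h2 : (N : ℝ) ≤ M := by exact_mod_cast hNM
    nlinarith
  have hU : max (M * δ) (N * δ') = M * δ := by
    rcases le_total (N * δ') (M * δ) with h | h
    · exact max_eq_left h
    · rw [max_eq_right h] at ht
      have : N * δ' / g ≤ N * δ' := div_le_self (by positivity) hg1
      linarith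
  obtain ⟨z, hz, hz'⟩ := exists_z ht
  obtain ⟨x, hx⟩ : ∃ x, x = dens N V g := ⟨_, rfl⟩
  obtain ⟨y, hy⟩ : ∃ y, y = dens M V' g := ⟨_, rfl⟩
  have hx0 : 0 ≤ x := hx ▸ dens_nonneg _ _ _
  have hy0 : 0 ≤ y := hy ▸ dens_nonneg _ _ _
  have hx1 : x ≤ x ^ (3 / 4 : ℝ) := by
    have := Real.rpow_le_rpow_of_exponent_ge' hx0 (hx ▸ hb.dens_le g) (by norm_num)
      (show (3 / 4 : ℝ) ≤ 1 by norm_num)
    rwa [Real.rpow_one] at this
  have hy1 : y ≤ y ^ (3 / 4 : ℝ) := by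
    have := Real.rpow_le_rpow_of_exponent_ge' hy0 (hy ▸ hb'.dens_le g) (by norm_num)
      (show (3 / 4 : ℝ) ≤ 1 by norm_num)
    rwa [Real.rpow_one] at this
  have g1 := hG z N g V hg hN hb.sub
  have g2 := hG z M g V' hg hM hb'.sub
  rw [← hx] at g1
  rw [← hy] at g2
  have c1 : ((V.filter (g ∣ ·)).card : ℝ) = x * (N / g) := by
    rw [hx]; unfold dens nm; field_simp
  have c2 : ((V'.filter (g ∣ ·)).card : ℝ) = y * (M / g) := by
    rw [hy]; unfold dens nm; field_simp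
  have hsub : PG V V' g ⊆ (V.filter (g ∣ ·)) ×ˢ (V'.filter (g ∣ ·)) := by
    intro p hp
    obtain ⟨h1, -, h3⟩ := mem_filter.1 hp
    obtain ⟨h4, h5⟩ := mem_product.1 h1
    exact mem_product.2 ⟨mem_filter.2 ⟨h4, h3 ▸ Nat.gcd_dvd_left _ _⟩,
      mem_filter.2 ⟨h5, h3 ▸ Nat.gcd_dvd_right _ _⟩⟩
  have hS : ∑ p ∈ PG V V' g, (Gz z p.1 + Gz z p.2) ≤
      2 * C * (g : ℝ) ^ (1 / 8 : ℝ) * ((N : ℝ) / g) * ((M : ℝ) / g) *
        (x ^ (3 / 4 : ℝ) * y ^ (3 / 4 : ℝ)) := by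
    refine (sum_le_sum_of_subset_of_nonneg hsub fun p _ _ =>
      (add_pos (Gz_pos _ _) (Gz_pos _ _)).le).trans ?_
    rw [sum_add_distrib, sum_product, sum_product_right]
    simp only [sum_const, nsmul_eq_mul]
    rw [← mul_sum, ← mul_sum, c1, c2]
    have k1 : y * (M / g) * ∑ q ∈ V.filter (g ∣ ·), Gz z q ≤ y ^ (3 / 4 : ℝ) * (M / g) *
        (C * (g : ℝ) ^ (1 / 8 : ℝ) * ((N : ℝ) / g) * x ^ (3 / 4 : ℝ)) :=
      mul_le_mul (mul_le_mul_of_nonneg_right hy1 (by positivity)) g1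
        (sum_nonneg fun q _ => (Gz_pos _ _).le) (by positivity)
    have k2 : x * (N / g) * ∑ q ∈ V'.filter (g ∣ ·), Gz z q ≤ x ^ (3 / 4 : ℝ) * (N / g) *
        (C * (g : ℝ) ^ (1 / 8 : ℝ) * ((M : ℝ) / g) * y ^ (3 / 4 : ℝ)) :=
      mul_le_mul (mul_le_mul_of_nonneg_right hx1 (by positivity)) g2
        (sum_nonneg fun q _ => (Gz_pos _ _).le) (by positivity)
    refine (add_le_add k1 k2).trans (le_of_eq ?_)
    ring
  have hp := sum_le_sum fun p (hp : p ∈ PG V V' g) =>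
    large_pair hb hb' hNM hg rfl ht hz hz' hp
  rw [sum_add_distrib, ← mul_sum, ← mul_sum, hU] at hp
  refine hp.trans (add_le_add le_rfl ?_)
  rw [← hx, ← hy]
  have e1 : (M * δ / g) ^ (-(1 / 2) : ℝ) = (M * δ) ^ (-(1 / 2) : ℝ) * (g : ℝ) ^ (1 / 2 : ℝ) := by
    rw [Real.div_rpow (by positivity) hg'.le, Real.rpow_neg hg'.le, div_inv_eq_mul]
  have e2 : (g : ℝ) ^ (1 / 2 : ℝ) * (g : ℝ) ^ (1 / 8 : ℝ) / g / g ≤ (g : ℝ) ^ (-1 - sg) := by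
    rw [← Real.rpow_add hg', ← Real.rpow_sub_one hg'.ne', ← Real.rpow_sub_one hg'.ne']
    exact Real.rpow_le_rpow_of_exponent_le hg1 (by unfold sg; norm_num)
  calc 72 * (δ * δ') * (M * δ / g) ^ (-(1 / 2) : ℝ) * ∑ p ∈ PG V V' g, (Gz z p.1 + Gz z p.2)
      ≤ 72 * (δ * δ') * (M * δ / g) ^ (-(1 / 2) : ℝ) * (2 * C * (g : ℝ) ^ (1 / 8 : ℝ) *
        ((N : ℝ) / g) * ((M : ℝ) / g) * (x ^ (3 / 4 : ℝ) * y ^ (3 / 4 : ℝ))) :=
        mul_le_mul_of_nonneg_left hS (by positivity)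
    _ = 144 * C * ((N * δ) * (M * δ') * (M * δ) ^ (-(1 / 2) : ℝ)) *
        (((g : ℝ) ^ (1 / 2 : ℝ) * (g : ℝ) ^ (1 / 8 : ℝ) / g / g) *
          (x ^ (3 / 4 : ℝ) * y ^ (3 / 4 : ℝ))) := by rw [e1]; ring
    _ ≤ _ := by gcongr

end Vale.Agent.P028
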