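import Vale.Agent.P028.Small
import Vale.Agent.P028.Large

namespace Vale.Agent.P028

open Finset MeasureTheory

theorem young1 {x y ρ : ℝ} (hx0 : 0 ≤ x) (hx1 : x ≤ 1) (hy0 : 0 ≤ y) (hρ : 1 ≤ ρ) :
    x * y ^ (9 / 10 : ℝ) ≤
      ρ ^ (-2 : ℝ) * x ^ (9 / 8 : ℝ) + ρ ^ (1 / 2 : ℝ) * y ^ (9 / 8 : ℝ) := by
  have hρ0 : 0 < ρ := by linarith
  have p1 : 0 ≤ ρ ^ (-2 : ℝ) * x ^ (9 / 8 : ℝ) := by positivity
  have p2 : 0 ≤ ρ ^ (1 / 2 : ℝ) * y ^ (9 / 8 : ℝ) := by positivity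
  rcases le_total (y ^ (9 / 10 : ℝ)) (ρ ^ (-2 : ℝ) * x ^ (1 / 8 : ℝ)) with h | h
  · have e : x ^ (9 / 8 : ℝ) = x * x ^ (1 / 8 : ℝ) := by
      rw [show (9 / 8 : ℝ) = 1 + 1 / 8 by norm_num, Real.rpow_add' hx0 (by norm_num),
        Real.rpow_one]
    have : x * y ^ (9 / 10 : ℝ) ≤ ρ ^ (-2 : ℝ) * x ^ (9 / 8 : ℝ) := by
      rw [e]; nlinarith
    linarith
  · have h1 : x ^ (1 / 8 : ℝ) ≤ ρ ^ (2 : ℝ) * y ^ (9 / 10 : ℝ) := by
      have e : ρ ^ (2 : ℝ) * ρ ^ (-2 : ℝ) = 1 := by rw [← Real.rpow_add hρ0]; norm_num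
      calc x ^ (1 / 8 : ℝ) = ρ ^ (2 : ℝ) * (ρ ^ (-2 : ℝ) * x ^ (1 / 8 : ℝ)) := by
            rw [← mul_assoc, e, one_mul]
        _ ≤ _ := by gcongr
    have h2 : x ≤ (x ^ (1 / 8 : ℝ)) ^ (1 / 4 : ℝ) := by
      rw [← Real.rpow_mul hx0]
      conv_lhs => rw [← Real.rpow_one x]
      exact Real.rpow_le_rpow_of_exponent_ge' hx0 hx1 (by norm_num) (by norm_num)
    have h3 : (x ^ (1 / 8 : ℝ)) ^ (1 / 4 : ℝ) ≤ (ρ ^ (2 : ℝ) * y ^ (9 / 10 : ℝ)) ^ (1 / 4 : ℝ) :=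
      Real.rpow_le_rpow (by positivity) h1 (by norm_num)
    rw [Real.mul_rpow (by positivity) (by positivity), ← Real.rpow_mul hρ0.le,
      ← Real.rpow_mul hy0] at h3
    have e : y ^ (9 / 8 : ℝ) = y ^ (9 / 10 * (1 / 4) : ℝ) * y ^ (9 / 10 : ℝ) := by
      rw [← Real.rpow_add' hy0 (by norm_num)]; norm_num
    have : x * y ^ (9 / 10 : ℝ) ≤ ρ ^ (1 / 2 : ℝ) * y ^ (9 / 8 : ℝ) := by
      rw [e, ← mul_assoc, show (1 / 2 : ℝ) = 2 * (1 / 4) by norm_num]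
      exact mul_le_mul_of_nonneg_right (h2.trans h3) (by positivity)
    linarith

theorem young2 {x y ρ : ℝ} (hx0 : 0 ≤ x) (hx1 : x ≤ 1) (hy0 : 0 ≤ y) (hy1 : y ≤ 1) (hρ : 1 ≤ ρ) :
    x ^ (3 / 4 : ℝ) * y ^ (3 / 4 : ℝ) ≤
      ρ ^ (-(1 / 4) : ℝ) * x ^ (9 / 8 : ℝ) + ρ ^ (1 / 4 : ℝ) * y ^ (9 / 8 : ℝ) := by
  have hρ0 : 0 < ρ := by linarith
  have sq : ∀ z : ℝ, 0 ≤ z → z ≤ 1 → z ^ (3 / 4 : ℝ) * z ^ (3 / 4 : ℝ) ≤ z ^ (9 / 8 : ℝ) := by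
    intro z h0 h1
    rw [← Real.rpow_add' h0 (by norm_num)]
    exact Real.rpow_le_rpow_of_exponent_ge' h0 h1 (by norm_num) (by norm_num)
  have e : ρ ^ (-(1 / 4) : ℝ) * ρ ^ (1 / 4 : ℝ) = 1 := by rw [← Real.rpow_add hρ0]; norm_num
  have h1 := sq x hx0 hx1
  have h2 := sq y hy0 hy1
  set a := x ^ (3 / 4 : ℝ)
  set b := y ^ (3 / 4 : ℝ)
  set l := ρ ^ (-(1 / 4) : ℝ)
  set k := ρ ^ (1 / 4 : ℝ)
  have hl : 0 < l := by positivity
  have hk : 0 < k := by positivity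
  have ha : 0 ≤ a := by positivity
  have hb : 0 ≤ b := by positivity
  have h3 : a * b ≤ l * (a * a) + k * (b * b) := by
    rcases le_total b (l * a) with h | h
    · have : a * b ≤ l * (a * a) := by nlinarith
      have : 0 ≤ k * (b * b) := by positivity
      linarith
    · have h4 : a ≤ k * b := by
        calc a = k * (l * a) := by rw [← mul_assoc, mul_comm k, e, one_mul]
          _ ≤ k * b := by gcongr
      have : a * b ≤ k * (b * b) := by nlinarith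
      have : 0 ≤ l * (a * a) := by positivity
      linarith
  refine h3.trans ?_
  gcongr

theorem key_mass : ∃ C : ℝ, 0 < C ∧ ∀ (γ : ℝ) (N L : ℕ) (δ : ℝ) (V : Finset ℕ), Blk γ N δ V →
    L ≤ N → (N * δ) * ∑ g ∈ Finset.Ioc 0 L, (g : ℝ) ^ (-1 - sg) * dens N V g ^ (9 / 8 : ℝ) ≤
      C * mass γ δ V := by
  obtain ⟨C, hC, hk⟩ := keyK sg (by norm_num [sg]) (by norm_num [sg])
  refine ⟨C, hC, fun γ N L δ V hb hL => ?_⟩
  have hN0 : 0 < N := by have := hb.big; omega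
  have hN : (0 : ℝ) < N := by exact_mod_cast hN0
  have hδ := hb.pos
  have h1 : ∑ g ∈ Finset.Ioc 0 L, (g : ℝ) ^ (-1 - sg) * dens N V g ^ (9 / 8 : ℝ) ≤
      ∑ g ∈ Finset.Ioc 0 N, (g : ℝ) ^ (-1 - sg) * dens N V g ^ (9 / 8 : ℝ) :=
    Finset.sum_le_sum_of_subset_of_nonneg (Finset.Ioc_subset_Ioc_right hL) fun g _ _ => by
      have := dens_nonneg N V g
      positivity
  have h2 := h1.trans (hk N V hN0 hb.sub)
  have h3 : ∑ q ∈ V, (q.totient : ℝ) / q ≤ ∑ q ∈ V, ff γ q :=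
    Finset.sum_le_sum fun q hq => tot_le_ff γ (Finset.mem_Ioc.1 (hb.sub hq)).1.ne'
  calc _ ≤ (N * δ) * (C * ((∑ q ∈ V, ff γ q) / N)) := by
        refine mul_le_mul_of_nonneg_left (h2.trans ?_) (by positivity)
        gcongr
    _ = C * mass γ δ V := by rw [mass, ← Finset.mul_sum]; field_simp

theorem BlockAux.small {s s' ρ : ℝ} (hs : 0 < s) (hs' : 0 < s') (hρ : 1 ≤ ρ) :
    min (s * ρ) (s' / ρ) * max (s * ρ) (s' / ρ) ^ sg * ρ ^ (-2 : ℝ) ≤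
        ρ ^ (-(1 / 4) : ℝ) * (s' ^ sg * s) ∧
      min (s * ρ) (s' / ρ) * max (s * ρ) (s' / ρ) ^ sg * ρ ^ (1 / 2 : ℝ) ≤
        ρ ^ (-(1 / 4) : ℝ) * (s ^ sg * s') := by
  have hρ0 : 0 < ρ := by linarith
  have hsg0 : 0 ≤ sg := by norm_num [sg]
  have hsg1 : sg ≤ 1 / 4 := by norm_num [sg]
  have key : ∀ u v : ℝ, 0 < u → 0 < v → min u v * max u v ^ sg ≤ u * v ^ sg := by
    intro u v hu hv
    rcases le_total u v with h | h
    · rw [min_eq_left h, max_eq_right h]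
    · rw [min_eq_right h, max_eq_left h]
      have e1 : v = v ^ (1 - sg) * v ^ sg := by rw [← Real.rpow_add hv]; simp
      have e2 : u = u ^ (1 - sg) * u ^ sg := by rw [← Real.rpow_add hu]; simp
      have h3 : v ^ (1 - sg) ≤ u ^ (1 - sg) := Real.rpow_le_rpow hv.le h (by linarith)
      calc v * u ^ sg = v ^ (1 - sg) * v ^ sg * u ^ sg := by rw [← e1]
        _ ≤ u ^ (1 - sg) * v ^ sg * u ^ sg := by gcongr
        _ = (u ^ (1 - sg) * u ^ sg) * v ^ sg := by ring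
        _ = u * v ^ sg := by rw [← e2]
  constructor
  · have h1 := key (s * ρ) (s' / ρ) (by positivity) (by positivity)
    have h2 : (s' / ρ) ^ sg ≤ s' ^ sg :=
      Real.rpow_le_rpow (by positivity) (div_le_self hs'.le hρ) hsg0
    have h3 : ρ * ρ ^ (-2 : ℝ) ≤ ρ ^ (-(1 / 4) : ℝ) := by
      rw [mul_comm, ← Real.rpow_add_one hρ0.ne']
      exact Real.rpow_le_rpow_of_exponent_le hρ (by norm_num)
    calc _ ≤ s * ρ * s' ^ sg * ρ ^ (-2 : ℝ) := by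
          refine mul_le_mul_of_nonneg_right (h1.trans ?_) (by positivity)
          gcongr
      _ = (ρ * ρ ^ (-2 : ℝ)) * (s' ^ sg * s) := by ring
      _ ≤ _ := by gcongr
  · have h1 := key (s' / ρ) (s * ρ) (by positivity) (by positivity)
    rw [min_comm, max_comm, Real.mul_rpow hs.le hρ0.le] at h1
    have h3 : ρ⁻¹ * ρ ^ sg * ρ ^ (1 / 2 : ℝ) ≤ ρ ^ (-(1 / 4) : ℝ) := by
      rw [← Real.rpow_neg_one, ← Real.rpow_add hρ0, ← Real.rpow_add hρ0]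
      exact Real.rpow_le_rpow_of_exponent_le hρ (by linarith)
    calc _ ≤ s' / ρ * (s ^ sg * ρ ^ sg) * ρ ^ (1 / 2 : ℝ) :=
          mul_le_mul_of_nonneg_right h1 (by positivity)
      _ = (ρ⁻¹ * ρ ^ sg * ρ ^ (1 / 2 : ℝ)) * (s ^ sg * s') := by ring
      _ ≤ _ := by gcongr

theorem BlockAux.large {s s' ρ : ℝ} (hs : 0 < s) (hs1 : s ≤ 1) (hs' : 0 < s') (hs1' : s' ≤ 1)
    (hρ : 1 ≤ ρ) (hu : 1 / 9 ≤ s * ρ) :
    s * s' * (s * ρ) ^ (-(1 / 2) : ℝ) * ρ ^ (-(1 / 4) : ℝ) ≤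
        3 * (ρ ^ (-(1 / 4) : ℝ) * (s' ^ sg * s)) ∧
      s * s' * (s * ρ) ^ (-(1 / 2) : ℝ) * ρ ^ (1 / 4 : ℝ) ≤
        3 * (ρ ^ (-(1 / 4) : ℝ) * (s ^ sg * s')) := by
  have hρ0 : 0 < ρ := by linarith
  have hsg0 : 0 ≤ sg := by norm_num [sg]
  have hsg1 : sg ≤ 1 / 4 := by norm_num [sg]
  constructor
  · have h1 : (s * ρ) ^ (-(1 / 2) : ℝ) ≤ 3 := by
      have h2 : (s * ρ) ^ (-(1 / 2) : ℝ) ≤ (1 / 9 : ℝ) ^ (-(1 / 2) : ℝ) :=
        Real.rpow_le_rpow_of_nonpos (by norm_num) hu (by norm_num)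
      have h3 : (1 / 9 : ℝ) ^ (-(1 / 2) : ℝ) = 3 := by
        rw [show (1 / 9 : ℝ) = 3 ^ (-2 : ℝ) by norm_num, ← Real.rpow_mul (by norm_num)]
        norm_num
      linarith
    have h4 : s' ≤ s' ^ sg := by
      conv_lhs => rw [← Real.rpow_one s']
      exact Real.rpow_le_rpow_of_exponent_ge hs' hs1' (by linarith)
    calc _ ≤ s * s' ^ sg * 3 * ρ ^ (-(1 / 4) : ℝ) := by gcongr
      _ = _ := by ring
  · rw [Real.mul_rpow hs.le hρ0.le]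
    have h1 : s * s ^ (-(1 / 2) : ℝ) ≤ s ^ sg := by
      rw [mul_comm, ← Real.rpow_add_one hs.ne']
      exact Real.rpow_le_rpow_of_exponent_ge hs hs1 (by linarith)
    have h2 : ρ ^ (-(1 / 2) : ℝ) * ρ ^ (1 / 4 : ℝ) = ρ ^ (-(1 / 4) : ℝ) := by
      rw [← Real.rpow_add hρ0]; norm_num
    have h3 : 0 ≤ ρ ^ (-(1 / 4) : ℝ) * (s ^ sg * s') := by positivity
    calc _ = (ρ ^ (-(1 / 2) : ℝ) * ρ ^ (1 / 4 : ℝ)) * ((s * s ^ (-(1 / 2) : ℝ)) * s') := by ring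
      _ ≤ ρ ^ (-(1 / 4) : ℝ) * (s ^ sg * s') := by rw [h2]; gcongr
      _ ≤ _ := by linarith

theorem BlockAux.sm {s s' ρ G x y : ℝ} (hs : 0 < s) (hs' : 0 < s') (hρ : 1 ≤ ρ) (hG : 0 ≤ G)
    (hx : 0 ≤ x) (hx1 : x ≤ 1) (hy : 0 ≤ y) :
    min (s * ρ) (s' / ρ) * max (s * ρ) (s' / ρ) ^ sg * (G * (x * y ^ (9 / 10 : ℝ))) ≤
      ρ ^ (-(1 / 4) : ℝ) * (s' ^ sg * (s * (G * x ^ (9 / 8 : ℝ))) +
        s ^ sg * (s' * (G * y ^ (9 / 8 : ℝ)))) := by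
  have hρ0 : 0 < ρ := by linarith
  obtain ⟨a1, a2⟩ := BlockAux.small hs hs' hρ
  have h2 := young1 hx hx1 hy hρ
  have hW : 0 ≤ min (s * ρ) (s' / ρ) * max (s * ρ) (s' / ρ) ^ sg :=
    mul_nonneg (le_min (by positivity) (by positivity))
      (Real.rpow_nonneg (le_max_of_le_left (by positivity)) _)
  have hX : 0 ≤ G * x ^ (9 / 8 : ℝ) := by positivity
  have hX' : 0 ≤ G * y ^ (9 / 8 : ℝ) := by positivity
  generalize min (s * ρ) (s' / ρ) * max (s * ρ) (s' / ρ) ^ sg = W at *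
  have b1 := mul_le_mul_of_nonneg_left (mul_le_mul_of_nonneg_left h2 hG) hW
  have b2 := mul_le_mul_of_nonneg_right a1 hX
  have b3 := mul_le_mul_of_nonneg_right a2 hX'
  linarith

theorem BlockAux.lg {s s' ρ G x y : ℝ} (hs : 0 < s) (hs1 : s ≤ 1) (hs' : 0 < s') (hs1' : s' ≤ 1)
    (hρ : 1 ≤ ρ) (hu : 1 / 9 ≤ s * ρ) (hG : 0 ≤ G) (hx : 0 ≤ x) (hx1 : x ≤ 1) (hy : 0 ≤ y)
    (hy1 : y ≤ 1) :
    s * s' * (s * ρ) ^ (-(1 / 2) : ℝ) * (G * (x ^ (3 / 4 : ℝ) * y ^ (3 / 4 : ℝ))) ≤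
      3 * (ρ ^ (-(1 / 4) : ℝ) * (s' ^ sg * (s * (G * x ^ (9 / 8 : ℝ))) +
        s ^ sg * (s' * (G * y ^ (9 / 8 : ℝ))))) := by
  have hρ0 : 0 < ρ := by linarith
  obtain ⟨a1, a2⟩ := BlockAux.large hs hs1 hs' hs1' hρ hu
  have h2 := young2 hx hx1 hy hy1 hρ
  have hW : 0 ≤ s * s' * (s * ρ) ^ (-(1 / 2) : ℝ) := by positivity
  have hX : 0 ≤ G * x ^ (9 / 8 : ℝ) := by positivity
  have hX' : 0 ≤ G * y ^ (9 / 8 : ℝ) := by positivity
  generalize s * s' * (s * ρ) ^ (-(1 / 2) : ℝ) = W at *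
  have b1 := mul_le_mul_of_nonneg_left (mul_le_mul_of_nonneg_left h2 hG) hW
  have b2 := mul_le_mul_of_nonneg_right a1 hX
  have b3 := mul_le_mul_of_nonneg_right a2 hX'
  linarith

theorem BlockAux.per_g : ∃ C : ℝ, 0 < C ∧ ∀ (γ : ℝ) (N M : ℕ) (δ δ' : ℝ) (V V' : Finset ℕ),
    Blk γ N δ V → Blk γ M δ' V' → N ≤ M → ∀ g : ℕ, 0 < g →
    ∑ p ∈ PG V V' g, ov γ δ δ' p.1 p.2 ≤
      1200 * Real.exp 4 * ∑ p ∈ PG V V' g, (δ * ff γ p.1) * (δ' * ff γ p.2) +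
        C * (((M : ℝ) / N) ^ (-(1 / 4) : ℝ) *
          ((M * δ') ^ sg * (N * δ * ((g : ℝ) ^ (-1 - sg) * dens N V g ^ (9 / 8 : ℝ))) +
          (N * δ) ^ sg * (M * δ' * ((g : ℝ) ^ (-1 - sg) * dens M V' g ^ (9 / 8 : ℝ))))) := by
  obtain ⟨CL, hCL, hL⟩ := large_g
  refine ⟨640 + 3 * CL, by positivity, fun γ N M δ δ' V V' hb hb' hNM g hg0 => ?_⟩
  have hN : (0 : ℝ) < N := by have := hb.big; exact_mod_cast (by omega : 0 < N)
  have hM : (0 : ℝ) < M := by have := hb'.big; exact_mod_cast (by omega : 0 < M)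
  have hNM' : (N : ℝ) ≤ M := by exact_mod_cast hNM
  have hδ := hb.pos
  have hδ' := hb'.pos
  have hρ : 1 ≤ (M : ℝ) / N := (one_le_div hN).2 hNM'
  have hs : 0 < (N : ℝ) * δ := by positivity
  have hs' : 0 < (M : ℝ) * δ' := by positivity
  have hs1 : (N : ℝ) * δ ≤ 1 / 8 := by
    have := hb.d2
    rw [le_div_iff₀ (by positivity)] at this
    linarith
  have hs1' : (M : ℝ) * δ' ≤ 1 / 8 := by
    have := hb'.d2
    rw [le_div_iff₀ (by positivity)] at this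
    linarith
  have eu : (M : ℝ) * δ = N * δ * ((M : ℝ) / N) := by field_simp
  have ev : (N : ℝ) * δ' = M * δ' / ((M : ℝ) / N) := by field_simp
  have hgr : (1 : ℝ) ≤ g := by exact_mod_cast hg0
  have hx := dens_nonneg N V g
  have hx' := dens_nonneg M V' g
  have hx1 := hb.dens_le g
  have hx1' := hb'.dens_le g
  have hsum : 0 ≤ ∑ p ∈ PG V V' g, (δ * ff γ p.1) * (δ' * ff γ p.2) :=
    Finset.sum_nonneg fun p _ => by
      have := ff_pos γ p.1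
      have := ff_pos γ p.2
      positivity
  have hG : 0 ≤ (g : ℝ) ^ (-1 - sg) := by positivity
  have hZ : 0 ≤ ((M : ℝ) / N) ^ (-(1 / 4) : ℝ) *
      ((M * δ') ^ sg * (N * δ * ((g : ℝ) ^ (-1 - sg) * dens N V g ^ (9 / 8 : ℝ))) +
        (N * δ) ^ sg * (M * δ' * ((g : ℝ) ^ (-1 - sg) * dens M V' g ^ (9 / 8 : ℝ)))) := by
    positivity
  rcases le_or_gt (max (M * δ) (N * δ') / g : ℝ) (1 / 5) with h | h
  · have h1 := small_g hb hb' hNM hg0 h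
    have h3 := BlockAux.sm hs hs' hρ hG hx hx1 hx'
    rw [← eu, ← ev] at h3
    have h4 := mul_nonneg hCL.le hZ
    have h5 := mul_nonneg (by positivity : (0 : ℝ) ≤ 1200 * Real.exp 4) hsum
    linarith
  · have h1 := hL γ N M δ δ' V V' hb hb' hNM g hg0 h
    have hu : 1 / 9 ≤ (M : ℝ) * δ := by
      have h2 : (1 / 5 : ℝ) < max (M * δ) (N * δ') :=
        h.trans_le (div_le_self (le_max_of_le_left (by positivity)) hgr)
      have h3 : (N : ℝ) * δ' ≤ 1 / 8 := (mul_le_mul_of_nonneg_right hNM' hδ'.le).trans hs1'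
      rcases lt_max_iff.1 h2 with h4 | h4 <;> linarith
    have h3 := BlockAux.lg hs (by linarith) hs' (by linarith) hρ (by rw [← eu]; exact hu) hG hx hx1
      hx' hx1'
    rw [← eu] at h3
    have h4 := mul_le_mul_of_nonneg_left h3 hCL.le
    linarith

theorem block : ∃ C : ℝ, 0 < C ∧ ∀ (γ : ℝ) (N M : ℕ) (δ δ' : ℝ) (V V' : Finset ℕ),
    Blk γ N δ V → Blk γ M δ' V' → N ≤ M →
    ∑ p ∈ (V ×ˢ V').filter (fun p => p.1 ≠ p.2), ov γ δ δ' p.1 p.2 ≤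
      C * (((M : ℝ) / N) ^ (-(1 / 4) : ℝ) *
        ((M * δ') ^ sg * mass γ δ V + (N * δ) ^ sg * mass γ δ' V') +
          mass γ δ V * mass γ δ' V') := by
  obtain ⟨C2, hC2, hg⟩ := BlockAux.per_g
  obtain ⟨CK, hCK, hK⟩ := key_mass
  have hC00 : 0 < 1200 * Real.exp 4 := by positivity
  generalize 1200 * Real.exp 4 = C0 at hg hC00
  refine ⟨C0 + C2 * CK, by positivity, fun γ N M δ δ' V V' hb hb' hNM => ?_⟩
  have hδ := hb.pos
  have hδ' := hb'.pos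
  have hmm : ∀ p : ℕ × ℕ, 0 ≤ (δ * ff γ p.1) * (δ' * ff γ p.2) := fun p => by
    have := ff_pos γ p.1
    have := ff_pos γ p.2
    positivity
  have hfib : ∀ f : ℕ × ℕ → ℝ, ∑ p ∈ (V ×ˢ V').filter (fun p => p.1 ≠ p.2), f p =
      ∑ g ∈ Finset.Ioc 0 N, ∑ p ∈ PG V V' g, f p := by
    intro f
    rw [← Finset.sum_fiberwise_of_maps_to (s := (V ×ˢ V').filter fun p => p.1 ≠ p.2)
      (t := Finset.Ioc 0 N) (g := fun p => Nat.gcd p.1 p.2)]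
    · refine Finset.sum_congr rfl fun g _ => ?_
      rw [PG, Finset.filter_filter]
    · intro p hp
      have h1 := Finset.mem_Ioc.1 (hb.sub (Finset.mem_product.1 (Finset.mem_filter.1 hp).1).1)
      exact Finset.mem_Ioc.2 ⟨Nat.gcd_pos_of_pos_left _ h1.1,
        (Nat.gcd_le_left _ h1.1).trans h1.2⟩
  have hm1 : ∑ p ∈ (V ×ˢ V').filter (fun p => p.1 ≠ p.2), (δ * ff γ p.1) * (δ' * ff γ p.2) ≤
      mass γ δ V * mass γ δ' V' := by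
    rw [mass, mass, Finset.sum_mul_sum, ← Finset.sum_product']
    exact Finset.sum_le_sum_of_subset_of_nonneg (Finset.filter_subset _ _) fun p _ _ => hmm p
  have k1 := hK γ N N δ V hb le_rfl
  have k2 := hK γ M N δ' V' hb' hNM
  have hm0 : 0 ≤ mass γ δ V := Finset.sum_nonneg fun q _ => by
    have := ff_pos γ q
    positivity
  have hm0' : 0 ≤ mass γ δ' V' := Finset.sum_nonneg fun q _ => by
    have := ff_pos γ q
    positivity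
  rw [hfib]
  refine (Finset.sum_le_sum fun g hg' =>
    hg γ N M δ δ' V V' hb hb' hNM g (Finset.mem_Ioc.1 hg').1).trans ?_
  rw [Finset.sum_add_distrib, ← Finset.mul_sum, ← hfib, ← Finset.mul_sum, ← Finset.mul_sum,
    Finset.sum_add_distrib, ← Finset.mul_sum, ← Finset.mul_sum, ← Finset.mul_sum,
    ← Finset.mul_sum]
  have hR : 0 ≤ ((M : ℝ) / N) ^ (-(1 / 4) : ℝ) := by positivity
  have ha : 0 ≤ ((M : ℝ) * δ') ^ sg := by positivity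
  have ha' : 0 ≤ ((N : ℝ) * δ) ^ sg := by positivity
  generalize ((M : ℝ) / N) ^ (-(1 / 4) : ℝ) = R at *
  generalize ((M : ℝ) * δ') ^ sg = a at *
  generalize ((N : ℝ) * δ) ^ sg = a' at *
  have hT : 0 ≤ R * (a * mass γ δ V + a' * mass γ δ' V') := by positivity
  have hP : 0 ≤ mass γ δ V * mass γ δ' V' := by positivity
  have b1 := mul_le_mul_of_nonneg_left hm1 hC00.le
  have b2 := mul_le_mul_of_nonneg_left (mul_le_mul_of_nonneg_left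
    (add_le_add (mul_le_mul_of_nonneg_left k1 ha) (mul_le_mul_of_nonneg_left k2 ha')) hR) hC2.le
  have b3 := mul_nonneg hC00.le hT
  have b4 := mul_nonneg (mul_nonneg hC2.le hCK.le) hP
  linarith

end Vale.Agent.P028
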