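import Mathlib

namespace Vale.Agent.P028

open Finset Real

lemma card_le_of_sep (M : Finset ℤ) (h Y : ℝ) (hh : 0 < h) (hY : 0 ≤ Y)
    (hsep : ∀ m ∈ M, ∀ m' ∈ M, m ≠ m' → h ≤ |(m : ℝ) - m'|)
    (hdiam : ∀ m ∈ M, ∀ m' ∈ M, |(m : ℝ) - m'| ≤ Y) : (M.card : ℝ) ≤ Y / h + 1 := by
  classical
  rcases M.eq_empty_or_nonempty with rfl | hne
  · simp; positivity
  set m0 := M.min' hne
  have hm0 : m0 ∈ M := M.min'_mem hne
  have hmap : ∀ m ∈ M, ⌊((m : ℝ) - m0) / h⌋₊ ∈ Finset.range (⌊Y / h⌋₊ + 1) := by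
    intro m hm
    rw [Finset.mem_range, Nat.lt_succ_iff]
    apply Nat.floor_mono
    gcongr
    exact (le_abs_self _).trans (hdiam m hm m0 hm0)
  have hinj : Set.InjOn (fun m : ℤ => ⌊((m : ℝ) - m0) / h⌋₊) M := by
    intro m hm m' hm' he
    by_contra hne'
    have h1 := hsep m hm m' hm' hne'
    have p1 : (0 : ℝ) ≤ ((m : ℝ) - m0) / h := by
      have : (m0 : ℝ) ≤ m := by exact_mod_cast M.min'_le m hm
      exact div_nonneg (by linarith) hh.le
    have p2 : (0 : ℝ) ≤ ((m' : ℝ) - m0) / h := by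
      have : (m0 : ℝ) ≤ m' := by exact_mod_cast M.min'_le m' hm'
      exact div_nonneg (by linarith) hh.le
    have a1 := Nat.floor_le p1
    have a2 := Nat.lt_floor_add_one (((m : ℝ) - m0) / h)
    have a3 := Nat.floor_le p2
    have a4 := Nat.lt_floor_add_one (((m' : ℝ) - m0) / h)
    simp only at he
    rw [he] at a1 a2
    have : |((m : ℝ) - m0) / h - ((m' : ℝ) - m0) / h| < 1 := by rw [abs_lt]; constructor <;> linarith
    rw [← sub_div, abs_div, abs_of_pos hh, div_lt_one hh] at this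
    have e : (m : ℝ) - m0 - (m' - m0) = m - m' := by ring
    rw [e] at this; linarith
  have := Finset.card_le_card_of_injOn _ hmap hinj
  rw [Finset.card_range] at this
  have h2 : (M.card : ℝ) ≤ (⌊Y / h⌋₊ : ℝ) + 1 := by exact_mod_cast this
  linarith [Nat.floor_le (div_nonneg hY hh.le)]

theorem bohr (γ η t Y : ℝ) (hη : 0 < η) (hη1 : η ≤ 1 / 8) (ht : 0 < t) (ht1 : t ≤ 1 / 5)
    (hY : 0 < Y) :
    (∀ M : Finset ℤ, (∀ m ∈ M, m ≠ 0 ∧ |(m : ℝ)| ≤ Y ∧ ∃ c : ℤ, |c + γ * m| < 2 * t) →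
      (∀ m ∈ M, ∀ m' ∈ M, |(m : ℝ) - m'| ≤ Y) → (M.card : ℝ) ≤ 40 * t ^ η * Y) ∨
    (∃ (A : ℤ) (B : ℕ), 0 < B ∧ IsCoprime A (B : ℤ) ∧ (B : ℝ) * t ^ η < 1 ∧
      |γ - A / B| * Y ≤ t ^ (1 - η) ∧
      ∀ m c : ℤ, |(m : ℝ)| ≤ Y → |c + γ * m| < 2 * t → c * B + A * m = 0) := by
  classical
  have htη : 0 < t ^ η := Real.rpow_pos_of_pos ht η
  have htle : t ≤ t ^ η := by
    conv_lhs => rw [← Real.rpow_one t]
    exact Real.rpow_le_rpow_of_exponent_ge ht (by linarith) (by linarith)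
  have habs : ∀ m : ℤ, m ≠ 0 → (∃ c : ℤ, |c + γ * m| < 4 * t) →
      (0 < m.natAbs ∧ ∃ c : ℤ, |c + γ * (m.natAbs : ℕ)| < 4 * t) := by
    rintro m hm ⟨c, hc⟩
    refine ⟨Int.natAbs_pos.mpr hm, ?_⟩
    rcases Int.natAbs_eq m with h | h
    · refine ⟨c, ?_⟩
      have : ((m.natAbs : ℕ) : ℝ) = m := by
        conv_rhs => rw [h]
        simp
      rw [this]; exact hc
    · refine ⟨-c, ?_⟩
      have : ((m.natAbs : ℕ) : ℝ) = -m := by
        conv_rhs => rw [h]
        simp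
      rw [this, ← abs_neg]; push_cast; convert hc using 2; ring
  by_cases hex : ∃ h : ℕ, 0 < h ∧ ∃ c : ℤ, |c + γ * h| < 4 * t
  swap
  · left
    intro M hM _
    rcases M.eq_empty_or_nonempty with rfl | ⟨m, hm⟩
    · simp; positivity
    · obtain ⟨h0, -, c, hc⟩ := hM m hm
      exact absurd ⟨_, habs m h0 ⟨c, by linarith⟩⟩ hex
  set B := Nat.find hex with hB
  obtain ⟨hBpos, c0, hc0⟩ : 0 < B ∧ ∃ c : ℤ, |c + γ * B| < 4 * t := Nat.find_spec hex
  have hmin : ∀ m : ℤ, m ≠ 0 → (∃ c : ℤ, |c + γ * m| < 4 * t) → (B : ℝ) ≤ |(m : ℝ)| := by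
    intro m hm hc
    have := Nat.find_min' hex (habs m hm hc)
    rw [← hB] at this
    have h2 : ((m.natAbs : ℕ) : ℝ) = |(m : ℝ)| := by simp
    rw [← h2]; exact_mod_cast this
  have hBr : (0 : ℝ) < B := by exact_mod_cast hBpos
  have hB1 : (1 : ℝ) ≤ B := by exact_mod_cast hBpos
  by_cases hα : 1 ≤ (B : ℝ) * t ^ η
  · left
    intro M hM hdiam
    rcases M.eq_empty_or_nonempty with rfl | ⟨m1, hm1⟩
    · simp; positivity
    have hBY : (B : ℝ) ≤ Y := by
      obtain ⟨h0, h1, c, hc⟩ := hM m1 hm1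
      exact (hmin m1 h0 ⟨c, by linarith⟩).trans h1
    have := card_le_of_sep M B Y hBr hY.le (by
      intro m hm m' hm' hne
      obtain ⟨-, -, c, hc⟩ := hM m hm
      obtain ⟨-, -, c', hc'⟩ := hM m' hm'
      have := hmin (m - m') (sub_ne_zero.mpr hne) ⟨c - c', by
        push_cast
        have e : (c : ℝ) - c' + γ * (m - m') = (c + γ * m) - (c' + γ * m') := by ring
        rw [e]; exact (abs_sub _ _).trans_lt (by linarith)⟩
      push_cast at this; exact this) hdiam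
    have h1 : Y / B ≤ t ^ η * Y := by
      rw [div_le_iff₀ hBr]; nlinarith
    have h2 : 1 ≤ Y / B := by rw [le_div_iff₀ hBr]; linarith
    have : 0 ≤ t ^ η * Y := by positivity
    linarith
  push Not at hα
  -- case β
  have hcop : IsCoprime (-c0) (B : ℤ) := by
    rw [Int.isCoprime_iff_gcd_eq_one]
    by_contra hne
    set d := Int.gcd (-c0) (B : ℤ) with hd
    have hd0 : d ≠ 0 := by
      intro h; rw [hd, Int.gcd_eq_zero_iff] at h
      have : B = 0 := by exact_mod_cast h.2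
      omega
    have hd2 : 2 ≤ d := by omega
    obtain ⟨a, ha⟩ : (d : ℤ) ∣ -c0 := Int.gcd_dvd_left _ _
    obtain ⟨b, hb⟩ : (d : ℤ) ∣ (B : ℤ) := Int.gcd_dvd_right _ _
    have hdr : (2 : ℝ) ≤ d := by exact_mod_cast hd2
    have har : (c0 : ℝ) = -(d * a) := by
      have : ((-c0 : ℤ) : ℝ) = ((d * a : ℤ) : ℝ) := by rw [ha]
      push_cast at this; linarith
    have hbr : (B : ℝ) = d * b := by exact_mod_cast congrArg (fun z : ℤ => (z : ℝ)) hb
    have hb0 : b ≠ 0 := by rintro rfl; simp at hbr; omega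
    have h1 := hmin b hb0 ⟨-a, by
      have e : (c0 : ℝ) + γ * B = d * (((-a : ℤ) : ℝ) + γ * b) := by rw [har, hbr]; push_cast; ring
      rw [e, abs_mul, abs_of_pos (by linarith : (0 : ℝ) < d)] at hc0
      nlinarith [abs_nonneg (((-a : ℤ) : ℝ) + γ * b)]⟩
    have hbpos : (0 : ℝ) < b := by
      by_contra hneg; push Not at hneg; nlinarith
    rw [abs_of_pos hbpos] at h1
    nlinarith
  set δ := γ - ((-c0 : ℤ) : ℝ) / B with hδ
  have hδB : |δ| * B < 4 * t := by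
    have e : (c0 : ℝ) + γ * B = δ * B := by rw [hδ]; push_cast; field_simp; ring
    rw [e, abs_mul, abs_of_pos hBr] at hc0; exact hc0
  have hkey : ∀ m c : ℤ, (c : ℝ) + γ * m = ((c * B + (-c0) * m : ℤ) : ℝ) / B + δ * m := by
    intro m c; rw [hδ]; push_cast; field_simp; ring
  have hn : ∀ m c : ℤ, |(m : ℝ)| ≤ Y → |c + γ * m| < 2 * t →
      |((c * B + (-c0) * m : ℤ) : ℝ)| < B * (2 * t + |δ| * Y) := by
    intro m c hm hc
    rw [hkey] at hc
    set n : ℝ := ((c * B + (-c0) * m : ℤ) : ℝ)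
    have h1 : |n / B| ≤ |n / B + δ * m| + |δ * m| := by
      have : n / B = (n / B + δ * m) - δ * m := by ring
      conv_lhs => rw [this]
      exact abs_sub _ _
    have h2 : |δ * m| ≤ |δ| * Y := by rw [abs_mul]; gcongr
    rw [abs_div, abs_of_pos hBr, div_le_iff₀ hBr] at h1
    nlinarith
  by_cases hβ : |δ| * Y ≤ t ^ (1 - η)
  · right
    refine ⟨-c0, B, hBpos, hcop, hα, hβ, fun m c hm hc => ?_⟩
    have h1 := hn m c hm hc
    have h2 : t ≤ t ^ (1 - η) := by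
      conv_lhs => rw [← Real.rpow_one t]
      exact Real.rpow_le_rpow_of_exponent_ge ht (by linarith) (by linarith)
    have h3 : t ^ (1 - η) = t ^ η * t ^ (1 - 2 * η) := by
      rw [← Real.rpow_add ht]; congr 1; ring
    have h4 : t ^ (1 - 2 * η) ≤ 1 / 3 := by
      have a1 : t ^ (1 - 2 * η) ≤ t ^ (3 / 4 : ℝ) :=
        Real.rpow_le_rpow_of_exponent_ge ht (by linarith) (by linarith)
      have a2 : t ^ (3 / 4 : ℝ) ≤ (1 / 5 : ℝ) ^ (3 / 4 : ℝ) :=
        Real.rpow_le_rpow ht.le ht1 (by norm_num)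
      have a3 : (1 / 5 : ℝ) ^ (3 / 4 : ℝ) ≤ 1 / 3 := by
        have : ((1 / 5 : ℝ) ^ (3 / 4 : ℝ)) ^ 4 = (1 / 5) ^ 3 := by
          rw [← Real.rpow_natCast, ← Real.rpow_mul (by norm_num), ← Real.rpow_natCast]; norm_num
        refine (pow_le_pow_iff_left₀ (by positivity) (by norm_num) (by norm_num : (4 : ℕ) ≠ 0)).mp ?_
        rw [this]; norm_num
      linarith
    have h5 : (B : ℝ) * (2 * t + |δ| * Y) ≤ 1 := by
      calc (B : ℝ) * (2 * t + |δ| * Y) ≤ B * (3 * t ^ (1 - η)) := by gcongr; linarith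
        _ = 3 * (B * t ^ η) * t ^ (1 - 2 * η) := by rw [h3]; ring
        _ ≤ 3 * 1 * (1 / 3) := by gcongr
        _ = 1 := by norm_num
    have h6 : |((c * B + (-c0) * m : ℤ) : ℝ)| < 1 := h1.trans_le h5
    have h7 : |c * B + (-c0) * m| < 1 := by exact_mod_cast h6
    exact Int.abs_lt_one_iff.mp h7
  left
  push Not at hβ
  intro M hM hdiam
  have hδpos : 0 < |δ| := by
    by_contra h; push Not at h
    have : |δ| = 0 := le_antisymm h (abs_nonneg _)
    rw [this, zero_mul] at hβ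
    linarith [Real.rpow_pos_of_pos ht (1 - η)]
  choose! cc hcc using fun m hm => (hM m hm).2.2
  set R : ℝ := B * (2 * t + |δ| * Y) with hR
  have hR0 : 0 ≤ R := by positivity
  set nn : ℤ → ℤ := fun m => cc m * B + (-c0) * m with hnn
  have hmaps : ∀ m ∈ M, nn m ∈ Finset.Icc (-⌊R⌋) ⌊R⌋ := by
    intro m hm
    have := hn m (cc m) (hM m hm).2.1 (hcc m hm)
    rw [abs_lt] at this
    rw [Finset.mem_Icc, Int.le_floor, neg_le, Int.le_floor]
    simp only [hnn]; push_cast at this ⊢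
    constructor <;> linarith [this.1, this.2]
  have hfib : ∀ n ∈ Finset.Icc (-⌊R⌋) ⌊R⌋,
      ((M.filter (fun m => nn m = n)).card : ℝ) ≤ 8 * t / (|δ| * B) := by
    intro n _
    have := card_le_of_sep (M.filter (fun m => nn m = n)) B (4 * t / |δ|) hBr (by positivity)
      (by
        intro m hm m' hm' hne
        simp only [Finset.mem_filter, hnn] at hm hm'
        have hdv : (B : ℤ) ∣ (-c0) * (m - m') := by
          refine ⟨cc m' - cc m, ?_⟩
          linear_combination hm.2 - hm'.2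
        have hdv2 : (B : ℤ) ∣ m - m' := hcop.symm.dvd_of_dvd_mul_left hdv
        have := Int.le_of_dvd (abs_pos.mpr (sub_ne_zero.mpr hne)) ((dvd_abs _ _).mpr hdv2)
        exact_mod_cast this)
      (by
        intro m hm m' hm'
        simp only [Finset.mem_filter, hnn] at hm hm'
        have h1 := hcc m hm.1
        have h2 := hcc m' hm'.1
        rw [hkey, hm.2] at h1
        rw [hkey, hm'.2] at h2
        rw [le_div_iff₀ hδpos, ← abs_mul]
        have e : ((m : ℝ) - m') * δ = ((n : ℝ) / B + δ * m) - ((n : ℝ) / B + δ * m') := by ring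
        rw [e]
        exact (abs_sub _ _).trans (by linarith))
    have h1 : 1 ≤ 4 * t / (|δ| * B) := by rw [le_div_iff₀ (by positivity)]; linarith
    have h2 : 4 * t / |δ| / B = 4 * t / (|δ| * B) := by rw [div_div]
    have h3 : 8 * t / (|δ| * B) = 2 * (4 * t / (|δ| * B)) := by ring
    linarith
  have hcard : ((Finset.Icc (-⌊R⌋) ⌊R⌋).card : ℝ) ≤ 2 * R + 1 := by
    rw [Int.card_Icc]
    have h0 : 0 ≤ ⌊R⌋ := Int.floor_nonneg.mpr hR0
    have : (((⌊R⌋ + 1 - -⌊R⌋).toNat : ℕ) : ℤ) = ⌊R⌋ + 1 - -⌊R⌋ := Int.toNat_of_nonneg (by omega)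
    have h2 : (((⌊R⌋ + 1 - -⌊R⌋).toNat : ℕ) : ℝ) = (⌊R⌋ : ℝ) + 1 - -⌊R⌋ := by
      exact_mod_cast congrArg (fun z : ℤ => (z : ℝ)) this
    rw [h2]; linarith [Int.floor_le R]
  have htot : (M.card : ℝ) ≤ (2 * R + 1) * (8 * t / (|δ| * B)) := by
    rw [Finset.card_eq_sum_card_fiberwise hmaps]
    push_cast
    calc _ ≤ ∑ _n ∈ Finset.Icc (-⌊R⌋) ⌊R⌋, 8 * t / (|δ| * B) := Finset.sum_le_sum hfib
      _ = _ * (8 * t / (|δ| * B)) := by rw [Finset.sum_const, nsmul_eq_mul]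
      _ ≤ _ := by gcongr
  have hq : t / |δ| ≤ t ^ η * Y := by
    rw [div_le_iff₀ hδpos]
    have e : t = t ^ η * t ^ (1 - η) := by rw [← Real.rpow_add ht]; simp
    calc t = t ^ η * t ^ (1 - η) := e
      _ ≤ t ^ η * (|δ| * Y) := by gcongr
      _ = _ := by ring
  have e : (2 * R + 1) * (8 * t / (|δ| * B)) =
      32 * t * (t / |δ|) + 16 * (t * Y) + 8 * (t / |δ|) / B := by
    rw [hR]; field_simp; ring
  have h1 : 8 * (t / |δ|) / B ≤ 8 * (t / |δ|) := div_le_self (by positivity) hB1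
  have h2 : t * Y ≤ t ^ η * Y := by gcongr
  have h3 : 0 ≤ t / |δ| := by positivity
  have h4 : 32 * t * (t / |δ|) ≤ 32 * (1 / 5) * (t / |δ|) := by gcongr
  have h5 : 0 ≤ t ^ η * Y := by positivity
  rw [e] at htot
  linarith

end Vale.Agent.P028
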