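import Mathlib

namespace Vale.Agent.P028

open Finset

/-- `a` avoids one residue class modulo each prime of `P`. -/
def Ok (P : Finset ℕ) (β α : ℕ → ℤ) (a : ℤ) : Prop := ∀ l ∈ P, ¬ (l : ℤ) ∣ β l * a + α l

instance (P : Finset ℕ) (β α : ℕ → ℤ) : DecidablePred (Ok P β α) := fun a => by
  unfold Ok; infer_instance

lemma mem_Ico_ceil {u v : ℝ} {a : ℤ} : a ∈ Finset.Ico ⌈u⌉ ⌈v⌉ ↔ u ≤ a ∧ (a : ℝ) < v := by
  rw [Finset.mem_Ico, Int.ceil_le, Int.lt_ceil]

lemma exists_root {l : ℕ} (hl : l.Prime) {b : ℤ} (hb : ¬ (l : ℤ) ∣ b) (c : ℤ) :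
    ∃ a0 : ℤ, ∀ a : ℤ, (l : ℤ) ∣ b * a + c ↔ (l : ℤ) ∣ a - a0 := by
  have hp : Prime (l : ℤ) := Nat.prime_iff_prime_int.mp hl
  have hcop : IsCoprime (l : ℤ) b := (Prime.coprime_iff_not_dvd hp).mpr hb
  obtain ⟨x, y, hxy⟩ := hcop
  refine ⟨-(y * c), fun a => ⟨fun h => ?_, fun h => ?_⟩⟩
  · have : a - -(y * c) = y * (b * a + c) + x * l * a := by linear_combination (-a) * hxy
    rw [this]
    exact dvd_add (dvd_mul_of_dvd_right h _) (Dvd.intro_left (x * a) (by ring))
  · have : b * a + c = b * (a - -(y * c)) + x * l * c := by linear_combination (-c) * hxy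
    rw [this]
    exact dvd_add (dvd_mul_of_dvd_right h _) (Dvd.intro_left (x * c) (by ring))

theorem legendre (P : Finset ℕ) : (∀ l ∈ P, l.Prime) → ∀ (β α : ℕ → ℤ),
    (∀ l ∈ P, ¬ (l : ℤ) ∣ β l) → ∀ u v : ℝ, u ≤ v →
    |(((Finset.Ico ⌈u⌉ ⌈v⌉).filter (Ok P β α)).card : ℝ)
      - (v - u) * ∏ l ∈ P, (1 - (l : ℝ)⁻¹)| ≤ 2 ^ P.card := by
  classical
  induction P using Finset.induction_on with
  | empty =>
    intro _ β α _ u v huv
    have h1 : (Finset.Ico ⌈u⌉ ⌈v⌉).filter (Ok ∅ β α) = Finset.Ico ⌈u⌉ ⌈v⌉ := by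
      apply Finset.filter_true_of_mem; intro a _ l hl; simp at hl
    rw [h1, Int.card_Ico]
    have hle : ⌈u⌉ ≤ ⌈v⌉ := Int.ceil_mono huv
    have h2 : (((⌈v⌉ - ⌈u⌉).toNat : ℕ) : ℝ) = (⌈v⌉ : ℝ) - ⌈u⌉ := by
      have : (((⌈v⌉ - ⌈u⌉).toNat : ℕ) : ℤ) = ⌈v⌉ - ⌈u⌉ := Int.toNat_of_nonneg (by omega)
      exact_mod_cast congrArg (fun z : ℤ => (z : ℝ)) this
    rw [h2]
    have a1 := Int.le_ceil u
    have a2 := Int.ceil_lt_add_one u
    have a3 := Int.le_ceil v
    have a4 := Int.ceil_lt_add_one v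
    simp only [Finset.prod_empty, Finset.card_empty, pow_zero, mul_one]
    rw [abs_le]; constructor <;> linarith
  | insert p P hp ih =>
    intro hP β α hβ u v huv
    have hpp : p.Prime := hP p (Finset.mem_insert_self _ _)
    have hP' : ∀ l ∈ P, l.Prime := fun l hl => hP l (Finset.mem_insert_of_mem hl)
    have hβ' : ∀ l ∈ P, ¬ (l : ℤ) ∣ β l := fun l hl => hβ l (Finset.mem_insert_of_mem hl)
    obtain ⟨a0, ha0⟩ := exists_root hpp (hβ p (Finset.mem_insert_self _ _)) (α p)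
    have hp0 : (0 : ℝ) < p := by exact_mod_cast hpp.pos
    have i1 := ih hP' β α hβ' u v huv
    have hβ2 : ∀ l ∈ P, ¬ (l : ℤ) ∣ β l * p := by
      intro l hl h
      have hlp : Prime (l : ℤ) := Nat.prime_iff_prime_int.mp (hP' l hl)
      rcases hlp.dvd_or_dvd h with h | h
      · exact hβ' l hl h
      · have : l ∣ p := by exact_mod_cast h
        have := (Nat.prime_dvd_prime_iff_eq (hP' l hl) hpp).mp this
        exact hp (this ▸ hl)
    have i2 := ih hP' (fun l => β l * p) (fun l => β l * a0 + α l) hβ2 ((u - a0) / p) ((v - a0) / p)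
      (by gcongr)
    have hsplit : ((Finset.Ico ⌈u⌉ ⌈v⌉).filter (Ok P β α)).card =
        ((Finset.Ico ⌈u⌉ ⌈v⌉).filter (Ok (insert p P) β α)).card +
        ((Finset.Ico ⌈(u - a0) / p⌉ ⌈(v - a0) / p⌉).filter
          (Ok P (fun l => β l * p) (fun l => β l * a0 + α l))).card := by
      rw [← Finset.card_filter_add_card_filter_not (s := (Finset.Ico ⌈u⌉ ⌈v⌉).filter (Ok P β α))
        (fun a => ¬ (p : ℤ) ∣ β p * a + α p)]
      congr 1
      · congr 1
        ext a
        simp only [Finset.mem_filter, Ok, Finset.forall_mem_insert]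
        tauto
      · symm
        apply Finset.card_bij (fun k _ => a0 + p * k)
        · intro k hk
          simp only [Finset.mem_filter, mem_Ico_ceil, not_not] at hk ⊢
          obtain ⟨⟨h1, h2⟩, h3⟩ := hk
          refine ⟨⟨⟨?_, ?_⟩, ?_⟩, ?_⟩
          · push_cast; rw [div_le_iff₀ hp0] at h1; linarith
          · push_cast; rw [lt_div_iff₀ hp0] at h2; linarith
          · intro l hl h; apply h3 l hl; convert h using 1; ring
          · rw [ha0]; exact Dvd.intro k (by ring)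
        · intro k _ k' _ h
          have hp1 : (p : ℤ) ≠ 0 := by exact_mod_cast hpp.ne_zero
          have : (p : ℤ) * k = p * k' := by linarith
          exact mul_left_cancel₀ hp1 this
        · intro a ha
          simp only [Finset.mem_filter, mem_Ico_ceil, not_not] at ha
          obtain ⟨⟨⟨h1, h2⟩, h3⟩, h4⟩ := ha
          rw [ha0] at h4
          obtain ⟨k, hk⟩ := h4
          have hak : a = a0 + p * k := by linarith
          refine ⟨k, ?_, hak.symm⟩
          simp only [Finset.mem_filter, mem_Ico_ceil]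
          have hr : (a : ℝ) = a0 + p * k := by exact_mod_cast congrArg (fun z : ℤ => (z : ℝ)) hak
          refine ⟨⟨?_, ?_⟩, ?_⟩
          · rw [div_le_iff₀ hp0]; linarith
          · rw [lt_div_iff₀ hp0]; linarith
          · intro l hl h; apply h3 l hl; rw [hak]; convert h using 1; ring
    rw [Finset.prod_insert hp, Finset.card_insert_of_notMem hp]
    rw [hsplit] at i1
    push_cast at i1
    set x := (((Finset.Ico ⌈u⌉ ⌈v⌉).filter (Ok (insert p P) β α)).card : ℝ)
    set y := (((Finset.Ico ⌈(u - a0) / p⌉ ⌈(v - a0) / p⌉).filter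
          (Ok P (fun l => β l * p) (fun l => β l * a0 + α l))).card : ℝ)
    set Q := ∏ l ∈ P, (1 - (l : ℝ)⁻¹)
    have e : x - (v - u) * ((1 - (p : ℝ)⁻¹) * Q) =
        (x + y - (v - u) * Q) - (y - ((v - a0) / p - (u - a0) / p) * Q) := by
      field_simp; ring
    rw [e, pow_succ]
    rw [abs_le] at i1 i2 ⊢
    constructor <;> linarith [i1.1, i1.2, i2.1, i2.2]

end Vale.Agent.P028
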