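import Mathlib
import Vale.Agent.P028.Legendre
import Vale.Agent.P028.Bohr

namespace Vale.Agent.P028

open Finset Real

lemma card_le_mul_of_fibers {ι : Type*} (s : Finset ι) (f : ι → ℤ) (X Y : ℝ) (hY : 0 ≤ Y)
    (hX : ((s.image f).card : ℝ) ≤ X)
    (hf : ∀ n ∈ s.image f, ((s.filter (fun a => f a = n)).card : ℝ) ≤ Y) :
    (s.card : ℝ) ≤ X * Y := by
  classical
  rw [Finset.card_eq_sum_card_fiberwise (f := f) (t := s.image f)
    (fun a ha => Finset.mem_coe.mpr (Finset.mem_image_of_mem f ha))]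
  push_cast
  calc _ ≤ ∑ _n ∈ s.image f, Y := Finset.sum_le_sum hf
    _ = (s.image f).card * Y := by rw [Finset.sum_const, nsmul_eq_mul]
    _ ≤ X * Y := by gcongr

lemma one_le_abs_sub {m m' : ℤ} (h : m ≠ m') : (1 : ℝ) ≤ |(m : ℝ) - m'| := by
  have : (1 : ℤ) ≤ |m - m'| := Int.one_le_abs (sub_ne_zero.mpr h)
  exact_mod_cast this

lemma le_abs_sub_of_dvd {d : ℕ} {m m' : ℤ} (h : m ≠ m') (hd : (d : ℤ) ∣ m - m') :
    (d : ℝ) ≤ |(m : ℝ) - m'| := by
  have := Int.le_of_dvd (abs_pos.mpr (sub_ne_zero.mpr h)) ((dvd_abs _ _).mpr hd)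
  exact_mod_cast this

/-- near-coincident pairs of numerators -/
noncomputable def Pairs (R R' : Finset ℤ) (q' r' : ℕ) (γ D : ℝ) : Finset (ℤ × ℤ) :=
  (R ×ˢ R').filter (fun ab => |((ab.1 * r' - ab.2 * q' : ℤ) : ℝ) + γ * ((r' : ℝ) - q')| < 2 * D)

lemma image_c_card (R R' : Finset ℤ) (q' r' : ℕ) (γ D : ℝ) (hD : 0 ≤ D) :
    (((Pairs R R' q' r' γ D).image (fun ab : ℤ × ℤ => ab.1 * (r' : ℤ) - ab.2 * (q' : ℤ))).card : ℝ) ≤ 4 * D + 1 := by
  have := card_le_of_sep ((Pairs R R' q' r' γ D).image (fun ab : ℤ × ℤ => ab.1 * (r' : ℤ) - ab.2 * (q' : ℤ))) 1 (4 * D)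
    one_pos (by linarith) (fun m _ m' _ h => one_le_abs_sub h) (by
      intro m hm m' hm'
      simp only [Finset.mem_image, Pairs, Finset.mem_filter] at hm hm'
      obtain ⟨a, ⟨-, ha⟩, rfl⟩ := hm
      obtain ⟨b, ⟨-, hb⟩, rfl⟩ := hm'
      rw [abs_lt] at ha hb
      rw [abs_le]; constructor <;> linarith [ha.1, ha.2, hb.1, hb.2])
  simpa using this

lemma cnt_crude (g q' r' : ℕ) (hg : 0 < g) (hq : 0 < q') (hcop : Nat.Coprime q' r')
    (R R' : Finset ℤ) (hR : R ⊆ Finset.Ico 0 ((g * q' : ℕ) : ℤ)) (γ D : ℝ) (hD : 0 ≤ D) :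
    ((Pairs R R' q' r' γ D).card : ℝ) ≤ (4 * D + 1) * (2 * g) := by
  classical
  apply card_le_mul_of_fibers _ (fun ab : ℤ × ℤ => ab.1 * (r' : ℤ) - ab.2 * (q' : ℤ)) _ _ (by positivity)
    (image_c_card R R' q' r' γ D hD)
  intro n _
  have hqr : (0 : ℝ) < q' := by exact_mod_cast hq
  have hinj : Set.InjOn (fun ab : ℤ × ℤ => ab.1)
      ((Pairs R R' q' r' γ D).filter (fun ab : ℤ × ℤ => ab.1 * (r' : ℤ) - ab.2 * (q' : ℤ) = n) : Finset (ℤ × ℤ)) := by
    intro x hx y hy h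
    simp only [Finset.coe_filter, Set.mem_ofPred_eq] at hx hy h
    have h2 : x.2 * q' = y.2 * q' := by have := hx.2; have := hy.2; rw [h] at *; linarith
    have hq0 : (q' : ℤ) ≠ 0 := by exact_mod_cast hq.ne'
    exact Prod.ext h (mul_right_cancel₀ hq0 h2)
  rw [← Finset.card_image_of_injOn hinj]
  have := card_le_of_sep (((Pairs R R' q' r' γ D).filter
      (fun ab : ℤ × ℤ => ab.1 * (r' : ℤ) - ab.2 * (q' : ℤ) = n)).image (fun ab : ℤ × ℤ => ab.1)) q' (g * q') hqr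
    (by positivity) (by
      intro m hm m' hm' hne
      simp only [Finset.mem_image, Finset.mem_filter] at hm hm'
      obtain ⟨x, hx, rfl⟩ := hm
      obtain ⟨y, hy, rfl⟩ := hm'
      apply le_abs_sub_of_dvd hne
      have h1 : (q' : ℤ) ∣ (x.1 - y.1) * r' := ⟨x.2 - y.2, by linear_combination hx.2 - hy.2⟩
      exact (Nat.isCoprime_iff_coprime.mpr hcop).dvd_of_dvd_mul_right h1)
    (by
      intro m hm m' hm'
      simp only [Finset.mem_image, Finset.mem_filter, Pairs, Finset.mem_product] at hm hm'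
      obtain ⟨x, hx, rfl⟩ := hm
      obtain ⟨y, hy, rfl⟩ := hm'
      have h1 := Finset.mem_Ico.mp (hR hx.1.1.1)
      have h2 := Finset.mem_Ico.mp (hR hy.1.1.1)
      have : |x.1 - y.1| ≤ ((g * q' : ℕ) : ℤ) := by rw [abs_le]; constructor <;> omega
      exact_mod_cast this)
  have e : (g : ℝ) * q' / q' = g := by field_simp
  have hg1 : (1 : ℝ) ≤ g := by exact_mod_cast hg
  rw [e] at this; linarith

lemma Ok_shift {P : Finset ℕ} {β α : ℕ → ℤ} {a a' : ℤ} (h : ∀ l ∈ P, (l : ℤ) ∣ a' - a)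
    (ha : Ok P β α a) : Ok P β α a' := by
  intro l hl hd
  apply ha l hl
  have : β l * a + α l = (β l * a' + α l) - β l * (a' - a) := by ring
  rw [this]
  exact dvd_sub hd (dvd_mul_of_dvd_right (h l hl) _)

lemma emod_shift_inj {q : ℤ} {a a' k : ℤ} (ha : a ∈ Finset.Ico 0 q) (ha' : a' ∈ Finset.Ico 0 q)
    (h : (a + k) % q = (a' + k) % q) : a = a' := by
  rw [Finset.mem_Ico] at ha ha'
  have h1 : a + k ≡ a' + k [ZMOD q] := h
  have h2 : a ≡ a' [ZMOD q] := Int.ModEq.add_right_cancel' k h1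
  have h3 : a % q = a' % q := h2
  rwa [Int.emod_eq_of_lt ha.1 ha.2, Int.emod_eq_of_lt ha'.1 ha'.2] at h3

lemma rho_shift (g q' r' : ℕ) (hg : 0 < g) (hq : 0 < q') (hr : 0 < r') (hcop : Nat.Coprime q' r')
    (P P' : Finset ℕ) (β α β' α' : ℕ → ℤ)
    (hP : ∀ l ∈ P, l ∣ g * q') (hP' : ∀ l ∈ P', l ∣ g * r') (k : ℤ)
    (hk : ∀ l ∈ P, (l : ℤ) ∣ k) (hk' : ∀ l ∈ P', (l : ℤ) ∣ k) (s : ℤ) :
    ((((Finset.Ico 0 ((g * q' : ℕ) : ℤ)).filter (Ok P β α)) ×ˢ
        ((Finset.Ico 0 ((g * r' : ℕ) : ℤ)).filter (Ok P' β' α'))).filter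
        (fun ab => ((g * q' * r' : ℕ) : ℤ) ∣ ab.1 * r' - ab.2 * q' - s)).card ≤
    ((((Finset.Ico 0 ((g * q' : ℕ) : ℤ)).filter (Ok P β α)) ×ˢ
        ((Finset.Ico 0 ((g * r' : ℕ) : ℤ)).filter (Ok P' β' α'))).filter
        (fun ab => ((g * q' * r' : ℕ) : ℤ) ∣ ab.1 * r' - ab.2 * q' - (s + k))).card := by
  obtain ⟨v, u, huv⟩ := Nat.isCoprime_iff_coprime.mpr hcop
  have hq0 : (0 : ℤ) < ((g * q' : ℕ) : ℤ) := by exact_mod_cast Nat.mul_pos hg hq
  have hr0 : (0 : ℤ) < ((g * r' : ℕ) : ℤ) := by exact_mod_cast Nat.mul_pos hg hr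
  apply Finset.card_le_card_of_injOn
    (fun ab => ((ab.1 + k * u) % ((g * q' : ℕ) : ℤ), (ab.2 + -(k * v)) % ((g * r' : ℕ) : ℤ)))
  · intro ab hab
    simp only [Finset.coe_filter, Set.mem_ofPred_eq, Finset.mem_product, Finset.mem_filter] at hab ⊢
    obtain ⟨⟨⟨_, h1⟩, ⟨_, h2⟩⟩, h3⟩ := hab
    have e1 := Int.mul_ediv_add_emod (ab.1 + k * u) ((g * q' : ℕ) : ℤ)
    have e2 := Int.mul_ediv_add_emod (ab.2 + -(k * v)) ((g * r' : ℕ) : ℤ)
    set x := (ab.1 + k * u) / ((g * q' : ℕ) : ℤ)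
    set y := (ab.2 + -(k * v)) / ((g * r' : ℕ) : ℤ)
    set a' := (ab.1 + k * u) % ((g * q' : ℕ) : ℤ) with ha'
    set b' := (ab.2 + -(k * v)) % ((g * r' : ℕ) : ℤ) with hb'
    refine ⟨⟨⟨?_, ?_⟩, ⟨?_, ?_⟩⟩, ?_⟩
    · exact Finset.mem_Ico.mpr ⟨Int.emod_nonneg _ hq0.ne', Int.emod_lt_of_pos _ hq0⟩
    · apply Ok_shift _ h1
      intro l hl
      have : a' - ab.1 = k * u - ((g * q' : ℕ) : ℤ) * x := by linarith
      rw [this]
      exact dvd_sub (dvd_mul_of_dvd_left (hk l hl) _)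
        (dvd_mul_of_dvd_left (by exact_mod_cast hP l hl) _)
    · exact Finset.mem_Ico.mpr ⟨Int.emod_nonneg _ hr0.ne', Int.emod_lt_of_pos _ hr0⟩
    · apply Ok_shift _ h2
      intro l hl
      have : b' - ab.2 = -(k * v) - ((g * r' : ℕ) : ℤ) * y := by linarith
      rw [this]
      exact dvd_sub ((dvd_neg).mpr (dvd_mul_of_dvd_left (hk' l hl) _))
        (dvd_mul_of_dvd_left (by exact_mod_cast hP' l hl) _)
    · have : a' * r' - b' * q' - (s + k) =
          (ab.1 * r' - ab.2 * q' - s) + ((g * q' * r' : ℕ) : ℤ) * (y - x) := by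
        push_cast at e1 e2 ⊢
        linear_combination (r' : ℤ) * e1 - (q' : ℤ) * e2 + k * huv
      rw [this]
      exact dvd_add h3 (Dvd.intro _ rfl)
  · intro x hx y hy h
    simp only [Finset.coe_filter, Set.mem_ofPred_eq, Finset.mem_product, Finset.mem_filter,
      Prod.mk.injEq] at hx hy h
    exact Prod.ext (emod_shift_inj hx.1.1.1 hy.1.1.1 h.1) (emod_shift_inj hx.1.2.1 hy.1.2.1 h.2)

lemma cnt_sieve (g q' r' : ℕ) (hg : 0 < g) (hq : 0 < q') (hr : 0 < r') (hcop : Nat.Coprime q' r')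
    (P P' : Finset ℕ) (β α β' α' : ℕ → ℤ)
    (hP : ∀ l ∈ P, l ∣ g * q') (hP' : ∀ l ∈ P', l ∣ g * r') (W : ℕ) (hW : 0 < W)
    (hk : ∀ l ∈ P, l ∣ W) (hk' : ∀ l ∈ P', l ∣ W) (γ D : ℝ) (hD : 0 ≤ D)
    (hWD : (W : ℝ) ≤ 2 * D) (hDL : 2 * D ≤ (g * q' * r' : ℕ)) :
    ((Pairs ((Finset.Ico 0 ((g * q' : ℕ) : ℤ)).filter (Ok P β α))
        ((Finset.Ico 0 ((g * r' : ℕ) : ℤ)).filter (Ok P' β' α')) q' r' γ D).card : ℝ) ≤
      30 * D * (((Finset.Ico 0 ((g * q' : ℕ) : ℤ)).filter (Ok P β α)).card *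
        ((Finset.Ico 0 ((g * r' : ℕ) : ℤ)).filter (Ok P' β' α')).card) / (g * q' * r' : ℕ) := by
  classical
  set R := (Finset.Ico 0 ((g * q' : ℕ) : ℤ)).filter (Ok P β α) with hR
  set R' := (Finset.Ico 0 ((g * r' : ℕ) : ℤ)).filter (Ok P' β' α') with hR'
  set L : ℕ := g * q' * r' with hL
  have hLpos : 0 < L := Nat.mul_pos (Nat.mul_pos hg hq) hr
  have hLr : (0 : ℝ) < L := by exact_mod_cast hLpos
  have hWr : (0 : ℝ) < W := by exact_mod_cast hW
  set I := (Pairs R R' q' r' γ D).image (fun ab : ℤ × ℤ => ab.1 * (r' : ℤ) - ab.2 * (q' : ℤ)) with hI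
  have hIdiam : ∀ m ∈ I, ∀ m' ∈ I, |(m : ℝ) - m'| ≤ 4 * D := by
    intro m hm m' hm'
    simp only [hI, Finset.mem_image, Pairs, Finset.mem_filter] at hm hm'
    obtain ⟨a, ⟨-, ha⟩, rfl⟩ := hm
    obtain ⟨b, ⟨-, hb⟩, rfl⟩ := hm'
    rw [abs_lt] at ha hb
    rw [abs_le]; constructor <;> linarith [ha.1, ha.2, hb.1, hb.2]
  set ρ : ℤ → ℕ := fun s => ((R ×ˢ R').filter
    (fun ab => (L : ℤ) ∣ ab.1 * r' - ab.2 * q' - s)).card with hρ
  set J : ℕ := L / W + 1 with hJ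
  have hJW : (L : ℝ) ≤ J * W := by
    have := Nat.lt_div_mul_add (a := L) hW
    have h2 : L ≤ J * W := by rw [hJ]; nlinarith
    exact_mod_cast h2
  have hJW2 : ((J : ℝ) - 1) * W ≤ L := by
    have h2 : L / W * W ≤ L := Nat.div_mul_le_self L W
    have h3 : ((L / W : ℕ) : ℝ) * W ≤ L := by exact_mod_cast h2
    rw [hJ]; push_cast; linarith
  have h1 : (Pairs R R' q' r' γ D).card ≤ ∑ s ∈ I, ρ s := by
    rw [Finset.card_eq_sum_card_fiberwise (f := fun ab : ℤ × ℤ => ab.1 * (r' : ℤ) - ab.2 * (q' : ℤ)) (t := I)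
      (fun a ha => Finset.mem_coe.mpr (Finset.mem_image_of_mem _ ha))]
    apply Finset.sum_le_sum
    intro s _
    apply Finset.card_le_card
    intro ab hab
    simp only [Finset.mem_filter, Pairs] at hab ⊢
    exact ⟨hab.1.1, by rw [hab.2]; simp⟩
  have h2 : ∀ s : ℤ, J * ρ s ≤ ∑ j ∈ Finset.range J, ρ (s + j * W) := by
    intro s
    calc J * ρ s = ∑ _j ∈ Finset.range J, ρ s := by simp
      _ ≤ _ := by
        apply Finset.sum_le_sum
        intro j _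
        exact rho_shift g q' r' hg hq hr hcop P P' β α β' α' hP hP' (j * W)
          (fun l hl => dvd_mul_of_dvd_right (by exact_mod_cast hk l hl) _)
          (fun l hl => dvd_mul_of_dvd_right (by exact_mod_cast hk' l hl) _) s
  have h3 : ∑ s ∈ I, ∑ j ∈ Finset.range J, ρ (s + j * W) =
      ∑ ab ∈ R ×ˢ R', ((I ×ˢ Finset.range J).filter
        (fun sj : ℤ × ℕ => (L : ℤ) ∣ ab.1 * r' - ab.2 * q' - (sj.1 + (sj.2 : ℤ) * (W : ℤ)))).card := by
    rw [← Finset.sum_product' (f := fun s j => ρ (s + (j : ℕ) * W))]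
    simp only [hρ, Finset.card_filter]
    exact Finset.sum_comm
  have h4 : ∀ c : ℤ, (((I ×ˢ Finset.range J).filter
        (fun sj : ℤ × ℕ => (L : ℤ) ∣ c - (sj.1 + (sj.2 : ℤ) * (W : ℤ)))).card : ℝ) ≤ 4 * (4 * D / W + 1) := by
    intro c
    apply card_le_mul_of_fibers _ (fun sj : ℤ × ℕ => sj.1 + (sj.2 : ℤ) * (W : ℤ)) _ _ (by positivity)
    · have := card_le_of_sep (((I ×ˢ Finset.range J).filter
        (fun sj : ℤ × ℕ => (L : ℤ) ∣ c - (sj.1 + (sj.2 : ℤ) * (W : ℤ)))).image (fun sj : ℤ × ℕ => sj.1 + (sj.2 : ℤ) * (W : ℤ))) L (3 * L)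
        hLr (by positivity) (by
          intro m hm m' hm' hne
          simp only [Finset.mem_image, Finset.mem_filter] at hm hm'
          obtain ⟨x, hx, rfl⟩ := hm
          obtain ⟨y, hy, rfl⟩ := hm'
          apply le_abs_sub_of_dvd hne
          have := dvd_sub hy.2 hx.2
          have e : c - (y.1 + (y.2 : ℤ) * W) - (c - (x.1 + (x.2 : ℤ) * W)) =
            x.1 + (x.2 : ℤ) * W - (y.1 + (y.2 : ℤ) * W) := by ring
          rwa [e] at this)
        (by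
          intro m hm m' hm'
          simp only [Finset.mem_image, Finset.mem_filter, Finset.mem_product, Finset.mem_range] at hm hm'
          obtain ⟨x, hx, rfl⟩ := hm
          obtain ⟨y, hy, rfl⟩ := hm'
          have a1 := hIdiam _ hx.1.1 _ hy.1.1
          have a2 : (x.2 : ℝ) ≤ J - 1 := by
            have : x.2 + 1 ≤ J := hx.1.2
            have : (x.2 : ℝ) + 1 ≤ J := by exact_mod_cast this
            linarith
          have a3 : (y.2 : ℝ) ≤ J - 1 := by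
            have : y.2 + 1 ≤ J := hy.1.2
            have : (y.2 : ℝ) + 1 ≤ J := by exact_mod_cast this
            linarith
          have a4 : (x.2 : ℝ) * W ≤ L := le_trans (by gcongr) hJW2
          have a5 : (y.2 : ℝ) * W ≤ L := le_trans (by gcongr) hJW2
          have a6 : 0 ≤ (x.2 : ℝ) * W := by positivity
          have a7 : 0 ≤ (y.2 : ℝ) * W := by positivity
          push_cast
          rw [abs_le] at a1 ⊢
          constructor <;> linarith [a1.1, a1.2])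
      have e : 3 * (L : ℝ) / L = 3 := by field_simp
      rw [e] at this; linarith
    · intro n _
      have hinj : Set.InjOn (fun sj : ℤ × ℕ => sj.1)
          ((((I ×ˢ Finset.range J).filter (fun sj : ℤ × ℕ => (L : ℤ) ∣ c - (sj.1 + (sj.2 : ℤ) * (W : ℤ)))).filter
            (fun sj : ℤ × ℕ => sj.1 + (sj.2 : ℤ) * (W : ℤ) = n) : Finset (ℤ × ℕ))) := by
        intro x hx y hy h
        simp only [Finset.coe_filter, Set.mem_ofPred_eq] at hx hy h
        have h2 : (x.2 : ℤ) * W = y.2 * W := by have := hx.2; have := hy.2; rw [h] at *; linarith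
        have hW0 : (W : ℤ) ≠ 0 := by exact_mod_cast hW.ne'
        have h3 := mul_right_cancel₀ hW0 h2
        exact Prod.ext h (by exact_mod_cast h3)
      rw [← Finset.card_image_of_injOn hinj]
      apply card_le_of_sep _ W (4 * D) hWr (by linarith)
      · intro m hm m' hm' hne
        simp only [Finset.mem_image, Finset.mem_filter] at hm hm'
        obtain ⟨x, hx, rfl⟩ := hm
        obtain ⟨y, hy, rfl⟩ := hm'
        apply le_abs_sub_of_dvd hne
        exact ⟨(y.2 : ℤ) - x.2, by linear_combination hx.2 - hy.2⟩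
      · intro m hm m' hm'
        simp only [Finset.mem_image, Finset.mem_filter, Finset.mem_product] at hm hm'
        obtain ⟨x, hx, rfl⟩ := hm
        obtain ⟨y, hy, rfl⟩ := hm'
        exact hIdiam _ hx.1.1.1 _ hy.1.1.1
  have h5 : (J : ℝ) * (Pairs R R' q' r' γ D).card ≤ (R.card * R'.card) * (4 * (4 * D / W + 1)) := by
    have a1 : J * (Pairs R R' q' r' γ D).card ≤ ∑ s ∈ I, ∑ j ∈ Finset.range J, ρ (s + j * W) := by
      calc J * (Pairs R R' q' r' γ D).card ≤ J * ∑ s ∈ I, ρ s := Nat.mul_le_mul_left _ h1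
        _ = ∑ s ∈ I, J * ρ s := Finset.mul_sum _ _ _
        _ ≤ _ := Finset.sum_le_sum fun s _ => h2 s
    rw [h3] at a1
    have a2 : (J : ℝ) * (Pairs R R' q' r' γ D).card ≤
        ∑ ab ∈ R ×ˢ R', (((I ×ˢ Finset.range J).filter
          (fun sj : ℤ × ℕ => (L : ℤ) ∣ ab.1 * r' - ab.2 * q' - (sj.1 + (sj.2 : ℤ) * (W : ℤ)))).card : ℝ) := by
      exact_mod_cast a1
    refine a2.trans ?_
    calc _ ≤ ∑ _ab ∈ R ×ˢ R', 4 * (4 * D / W + 1) := Finset.sum_le_sum fun ab _ => h4 _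
      _ = _ := by rw [Finset.sum_const, nsmul_eq_mul, Finset.card_product]; push_cast; ring
  rw [le_div_iff₀ hLr]
  have hN0 : (0 : ℝ) ≤ (Pairs R R' q' r' γ D).card := Nat.cast_nonneg _
  have hRR : (0 : ℝ) ≤ (R.card : ℝ) * R'.card := by positivity
  have e : W * (4 * (4 * D / W + 1)) = 16 * D + 4 * W := by field_simp; ring
  calc ((Pairs R R' q' r' γ D).card : ℝ) * L ≤ (Pairs R R' q' r' γ D).card * (J * W) := by gcongr
    _ = W * (J * (Pairs R R' q' r' γ D).card) := by ring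
    _ ≤ W * ((R.card * R'.card) * (4 * (4 * D / W + 1))) := by gcongr
    _ = (R.card * R'.card) * (16 * D + 4 * W) := by rw [← e]; ring
    _ ≤ (R.card * R'.card) * (30 * D) := by gcongr; linarith
    _ = _ := by ring

end Vale.Agent.P028
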