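import Vale.Agent.P028.KeyK
import Vale.Agent.P028.Pairs

namespace Vale.Agent.P028

open Finset MeasureTheory

/-- `p.1 / p.2` is a very good rational approximation of `γ` at scale `n` -/
def Good (γ : ℝ) (n : ℕ) (p : ℤ × ℕ) : Prop :=
  0 < p.2 ∧ IsCoprime p.1 (p.2 : ℤ) ∧ (p.2 : ℝ) ^ 16 ≤ n ∧ |γ - p.1 / p.2| ^ 4 * n ≤ 1

open Classical in
/-- the sieve centre at scale `n` -/
noncomputable def cen (γ : ℝ) (n : ℕ) : ℤ × ℕ := if h : ∃ p, Good γ n p then h.choose else (0, 1)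

/-- sieving primes -/
noncomputable def PP (γ : ℝ) (q : ℕ) : Finset ℕ :=
  q.primeFactors.filter fun l => ¬ l ∣ (cen γ q).2

/-- sieved numerators -/
noncomputable def RR (γ : ℝ) (q : ℕ) (P : Finset ℕ) : Finset ℤ :=
  (Finset.Ico 0 (q : ℤ)).filter (Ok P (fun _ => ((cen γ q).2 : ℤ)) (fun _ => (cen γ q).1))

noncomputable def ff (γ : ℝ) (q : ℕ) : ℝ := ∏ l ∈ PP γ q, (1 - (l : ℝ)⁻¹)

def EE (γ δ : ℝ) (q : ℕ) : Set ℝ :=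
  ⋃ a ∈ RR γ q (PP γ q), Set.Ioo (((a : ℝ) + γ - δ) / q) (((a : ℝ) + γ + δ) / q)

noncomputable def ov (γ δ δ' : ℝ) (q r : ℕ) : ℝ := volume.real (EE γ δ q ∩ EE γ δ' r)

def SieveOK (γ : ℝ) (q : ℕ) : Prop :=
  ∀ P ⊆ PP γ q, ((RR γ q P).card : ℝ) ≤ 2 * q * ∏ l ∈ P, (1 - (l : ℝ)⁻¹)

/-- a block of denominators of size about `N` with common radius `δ` -/
structure Blk (γ : ℝ) (N : ℕ) (δ : ℝ) (V : Finset ℕ) : Prop where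
  big : 512 ≤ N
  lo : ∀ q ∈ V, N < 2 * q
  hi : ∀ q ∈ V, q ≤ N
  ok : ∀ q ∈ V, SieveOK γ q
  d1 : 1 / (N : ℝ) ^ 2 ≤ δ
  d2 : δ ≤ 1 / (8 * (N : ℝ))

noncomputable def dens (N : ℕ) (V : Finset ℕ) (g : ℕ) : ℝ := (g : ℝ) * nm V g / N

/-- off-diagonal pairs with greatest common divisor `g` -/
def PG (V V' : Finset ℕ) (g : ℕ) : Finset (ℕ × ℕ) :=
  (V ×ˢ V').filter fun p => p.1 ≠ p.2 ∧ Nat.gcd p.1 p.2 = g

noncomputable def mass (γ δ : ℝ) (V : Finset ℕ) : ℝ := ∑ q ∈ V, δ * ff γ q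

/-- the small exponent -/
noncomputable def sg : ℝ := 1 / 640

/-- the reduced approximating function is `2⁻¹ ^ e q` on `T` -/
structure Sys (γ : ℝ) (T : Set ℕ) (e : ℕ → ℕ) : Prop where
  big : ∀ q ∈ T, 512 ≤ q
  ok : ∀ q ∈ T, SieveOK γ q
  lo : ∀ q ∈ T, Nat.clog 2 q + 3 ≤ e q
  hi : ∀ q ∈ T, e q ≤ 2 * Nat.clog 2 q

end Vale.Agent.P028
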