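import Vale.Agent.P028.BasB

namespace Vale.Agent.P028

open Finset MeasureTheory

/-- equidistribution of the approximating sets -/
theorem equi (γ : ℝ) {u v : ℝ} (hu : 0 ≤ u) (huv : u < v) (hv : v ≤ 1) :
    ∃ Q : ℕ, ∀ q : ℕ, Q ≤ q → ∀ δ : ℝ, 0 < δ → δ ≤ 1 / 2 →
      (v - u) / 2 * (δ * ff γ q) ≤ volume.real (EE γ δ q ∩ Set.Ioo u v) := by
  classical
  have hw : 0 < v - u := sub_pos.2 huv
  obtain ⟨Q1, hQ1⟩ := two_pow_omega_le ((v - u) / 2) (by positivity)
  obtain ⟨Q2, hQ2⟩ := exists_nat_ge (8 * (|γ| + 1) / (v - u))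
  refine ⟨max (max Q1 Q2) 1, fun q hq δ hδ hδ' => ?_⟩
  have hq1 : Q1 ≤ q := le_trans ((le_max_left _ _).trans (le_max_left _ _)) hq
  have hq2 : Q2 ≤ q := le_trans ((le_max_right _ _).trans (le_max_left _ _)) hq
  have hq0 : 0 < q := le_trans (le_max_right _ _) hq
  have hqr : (0 : ℝ) < q := by exact_mod_cast hq0
  have hγ := abs_nonneg γ
  have hbig : 8 * (|γ| + 1) ≤ (v - u) * q := by
    have : (Q2 : ℝ) ≤ q := by exact_mod_cast hq2
    rw [div_le_iff₀ hw] at hQ2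
    nlinarith
  have hff := ff_pos γ q
  have hW := RR_window γ q (P := PP γ q) subset_rfl (u := u * q + (|γ| + 1))
    (v := v * q - (|γ| + 1)) (by positivity) (by nlinarith) (by nlinarith)
  set W := (RR γ q (PP γ q)).filter
    fun a : ℤ => u * q + (|γ| + 1) ≤ a ∧ (a : ℝ) < v * q - (|γ| + 1) with hWdef
  have h2 : (2 : ℝ) ^ q.primeFactors.card ≤ (v - u) / 2 * (q * ff γ q) := by
    refine (hQ1 q hq1).trans (mul_le_mul_of_nonneg_left ?_ (by positivity))
    have := tot_le_ff γ hq0.ne'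
    rw [div_le_iff₀ hqr] at this
    linarith
  have hcard : (v - u) * q * ff γ q / 4 ≤ W.card := by
    have h3 := (abs_le.1 hW).1
    change -(2 : ℝ) ^ q.primeFactors.card ≤ W.card -
      (v * q - (|γ| + 1) - (u * q + (|γ| + 1))) * ff γ q at h3
    have h4 : 8 * (|γ| + 1) * ff γ q ≤ (v - u) * q * ff γ q :=
      mul_le_mul_of_nonneg_right hbig hff.le
    nlinarith
  have hsub : (⋃ a ∈ W, Set.Ioo (((a : ℝ) + γ - δ) / q) (((a : ℝ) + γ + δ) / q)) ⊆
      EE γ δ q ∩ Set.Ioo u v := by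
    intro x hx
    simp only [Set.mem_iUnion] at hx
    obtain ⟨a, ha, hx⟩ := hx
    obtain ⟨ha1, ha2, ha3⟩ := Finset.mem_filter.1 ha
    refine ⟨Set.mem_iUnion₂.2 ⟨a, ha1, hx⟩, ?_, ?_⟩
    · refine lt_of_le_of_lt ?_ hx.1
      rw [le_div_iff₀ hqr]
      linarith [neg_abs_le γ]
    · refine lt_of_lt_of_le hx.2 ?_
      rw [div_le_iff₀ hqr]
      linarith [le_abs_self γ]
  have hdisj : Set.PairwiseDisjoint (W : Set ℤ)
      fun a : ℤ => Set.Ioo (((a : ℝ) + γ - δ) / q) (((a : ℝ) + γ + δ) / q) := by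
    intro a _ b _ hab
    refine Set.disjoint_left.2 fun x hx hy => ?_
    have h5 := one_le_abs_sub hab
    obtain ⟨x1, x2⟩ := hx
    obtain ⟨y1, y2⟩ := hy
    rw [div_lt_iff₀ hqr] at x1 y1
    rw [lt_div_iff₀ hqr] at x2 y2
    have : |(a : ℝ) - b| < 1 := abs_lt.2 ⟨by linarith, by linarith⟩
    linarith
  have hvol := measureReal_biUnion_finset (μ := volume) hdisj (fun _ _ => measurableSet_Ioo)
    (fun _ _ => measure_Ioo_lt_top.ne)
  have hone : ∀ a ∈ W, volume.real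
      (Set.Ioo (((a : ℝ) + γ - δ) / q) (((a : ℝ) + γ + δ) / q)) = 2 * δ / q := by
    intro a _
    rw [Real.volume_real_Ioo_of_le (div_le_div_of_nonneg_right (by linarith) hqr.le)]
    ring
  rw [Finset.sum_congr rfl hone, Finset.sum_const, nsmul_eq_mul] at hvol
  have hfin : volume (EE γ δ q ∩ Set.Ioo u v) ≠ ⊤ :=
    ne_top_of_le_ne_top measure_Ioo_lt_top.ne (measure_mono Set.inter_subset_right)
  refine le_trans ?_ (measureReal_mono hsub hfin)
  rw [hvol]
  calc (v - u) / 2 * (δ * ff γ q) = (v - u) * q * ff γ q / 4 * (2 * δ / q) := by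
        field_simp; ring
    _ ≤ _ := mul_le_mul_of_nonneg_right hcard (by positivity)

end Vale.Agent.P028
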