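import Mathlib

namespace Vale.Agent.P028

open Finset MeasureTheory

theorem chung_erdos (S : Finset ℕ) (F : ℕ → Set ℝ) (G : Set ℝ) (hF : ∀ q, MeasurableSet (F q))
    (hG : MeasurableSet G) (hG' : volume G ≠ ⊤) (hFG : ∀ q ∈ S, F q ⊆ G) :
    (∑ q ∈ S, volume.real (F q)) ^ 2 ≤
      volume.real G * ∑ q ∈ S, ∑ r ∈ S, volume.real (F q ∩ F r) := by
  have hi : ∀ A : Set ℝ, MeasurableSet A → A ⊆ G →
      Integrable (A.indicator (1 : ℝ → ℝ)) volume := fun A hA hAG =>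
    (integrable_indicator_iff hA).2
      (integrableOn_const (ne_top_of_le_ne_top hG' (measure_mono hAG)))
  have i1 : ∀ q ∈ S, Integrable ((F q).indicator (1 : ℝ → ℝ)) volume := fun q hq =>
    hi _ (hF q) (hFG q hq)
  have i2 : ∀ q ∈ S, ∀ r ∈ S, Integrable ((F q ∩ F r).indicator (1 : ℝ → ℝ)) volume :=
    fun q hq r _ => hi _ ((hF q).inter (hF r)) (Set.inter_subset_left.trans (hFG q hq))
  have j1 : Integrable (fun x => ∑ q ∈ S, (F q).indicator (1 : ℝ → ℝ) x) volume :=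
    integrable_finset_sum _ i1
  have j2 : ∀ q ∈ S, Integrable (fun x => ∑ r ∈ S, (F q ∩ F r).indicator (1 : ℝ → ℝ) x) volume :=
    fun q hq => integrable_finset_sum _ (i2 q hq)
  have j3 : Integrable (fun x => ∑ q ∈ S, ∑ r ∈ S, (F q ∩ F r).indicator (1 : ℝ → ℝ) x) volume :=
    integrable_finset_sum _ j2
  have j0 := hi G hG subset_rfl
  have e1 : ∫ x, ∑ q ∈ S, (F q).indicator (1 : ℝ → ℝ) x = ∑ q ∈ S, volume.real (F q) := by
    rw [integral_finset_sum _ i1]
    exact Finset.sum_congr rfl fun q _ => integral_indicator_one (hF q)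
  have e2 : ∫ x, ∑ q ∈ S, ∑ r ∈ S, (F q ∩ F r).indicator (1 : ℝ → ℝ) x =
      ∑ q ∈ S, ∑ r ∈ S, volume.real (F q ∩ F r) := by
    rw [integral_finset_sum _ j2]
    refine Finset.sum_congr rfl fun q hq => ?_
    rw [integral_finset_sum _ (i2 q hq)]
    exact Finset.sum_congr rfl fun r _ => integral_indicator_one ((hF q).inter (hF r))
  have key : ∀ c : ℝ, 0 ≤ volume.real G * (c * c) + (-2 * ∑ q ∈ S, volume.real (F q)) * c +
      ∑ q ∈ S, ∑ r ∈ S, volume.real (F q ∩ F r) := by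
    intro c
    have h0 : 0 ≤ ∫ x, (G.indicator (1 : ℝ → ℝ) x * (c * c) +
        (∑ q ∈ S, (F q).indicator (1 : ℝ → ℝ) x) * (-2 * c) +
        ∑ q ∈ S, ∑ r ∈ S, (F q ∩ F r).indicator (1 : ℝ → ℝ) x) := by
      refine integral_nonneg fun x => ?_
      have e3 : ∑ q ∈ S, ∑ r ∈ S, (F q ∩ F r).indicator (1 : ℝ → ℝ) x =
          (∑ q ∈ S, (F q).indicator (1 : ℝ → ℝ) x) * ∑ q ∈ S, (F q).indicator (1 : ℝ → ℝ) x := by
        rw [Finset.sum_mul_sum]
        refine Finset.sum_congr rfl fun q _ => Finset.sum_congr rfl fun r _ => ?_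
        rw [Set.inter_indicator_one, Pi.mul_apply]
      simp only [Pi.zero_apply]
      rw [e3]
      by_cases hx : x ∈ G
      · rw [Set.indicator_of_mem hx, Pi.one_apply]
        nlinarith [sq_nonneg (c - ∑ q ∈ S, (F q).indicator (1 : ℝ → ℝ) x)]
      · have : ∑ q ∈ S, (F q).indicator (1 : ℝ → ℝ) x = 0 :=
          Finset.sum_eq_zero fun q hq => Set.indicator_of_notMem (fun h => hx (hFG q hq h)) _
        rw [this, Set.indicator_of_notMem hx]
        simp
    have j4 : Integrable (fun x => G.indicator (1 : ℝ → ℝ) x * (c * c) +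
        (∑ q ∈ S, (F q).indicator (1 : ℝ → ℝ) x) * (-2 * c)) volume :=
      (j0.mul_const _).add (j1.mul_const _)
    rw [integral_add j4 j3,
      integral_add (j0.mul_const _) (j1.mul_const _), integral_mul_const, integral_mul_const,
      e1, e2, integral_indicator_one hG] at h0
    linarith
  have := discrim_le_zero key
  rw [discrim] at this
  nlinarith

theorem exists_grid {Z : Set ℝ} (hZ : MeasurableSet Z) (hZ1 : Z ⊆ Set.Ioo 0 1) {ε : ℝ}
    (hε : 0 < ε) : ∃ (n : ℕ) (J : Finset ℕ), 0 < n ∧ (∀ j ∈ J, j < n) ∧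
      volume.real Z / 2 ≤ (J.card : ℝ) / n ∧
      volume.real ((⋃ j ∈ J, Set.Ioo ((j : ℝ) / n) (((j : ℝ) + 1) / n)) \ Z) ≤ ε := by
  classical
  have hfin : volume Z ≠ ⊤ := ne_top_of_le_ne_top measure_Ioo_lt_top.ne (measure_mono hZ1)
  rcases (measureReal_nonneg (μ := volume) (s := Z)).eq_or_lt with h0 | h0
  · refine ⟨1, ∅, one_pos, by simp, by rw [← h0]; simp, by simpa using hε.le⟩
  obtain ⟨U, hZU, hU, -, hUZ⟩ := hZ.exists_isOpen_diff_lt hfin
    (ε := ENNReal.ofReal ε) (by simpa using hε)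
  obtain ⟨K, hKZ, hK, hKv⟩ := hZ.exists_lt_isCompact_of_ne_top hfin
    (r := ENNReal.ofReal (volume.real Z / 2))
    (by
      have := (ENNReal.ofReal_lt_ofReal_iff h0).2 (half_lt_self h0)
      rwa [ofReal_measureReal hfin] at this)
  obtain ⟨d, hd, hdU⟩ := hK.exists_cthickening_subset_open hU (hKZ.trans hZU)
  obtain ⟨m, hm⟩ := exists_nat_one_div_lt hd
  have hn : (0 : ℝ) < ((m + 1 : ℕ) : ℝ) := by positivity
  have hm' : 1 / ((m + 1 : ℕ) : ℝ) < d := by push_cast; exact hm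
  set n := m + 1 with hndef
  set J := (range n).filter fun j : ℕ =>
    ∃ x ∈ K, x ∈ Set.Icc ((j : ℝ) / n) (((j : ℝ) + 1) / n) with hJ
  refine ⟨n, J, Nat.succ_pos m, fun j hj => mem_range.1 (mem_filter.1 hj).1, ?_, ?_⟩
  · have hsub : K ⊆ ⋃ j ∈ J, Set.Icc ((j : ℝ) / n) (((j : ℝ) + 1) / n) := by
      intro x hx
      obtain ⟨x0, x1⟩ := hZ1 (hKZ hx)
      have hmem : x ∈ Set.Icc ((⌊x * n⌋₊ : ℝ) / n) (((⌊x * n⌋₊ : ℝ) + 1) / n) := by
        constructor
        · rw [div_le_iff₀ hn]; exact Nat.floor_le (by positivity)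
        · rw [le_div_iff₀ hn]; exact (Nat.lt_floor_add_one _).le
      refine Set.mem_iUnion₂.2 ⟨⌊x * n⌋₊, mem_filter.2 ⟨mem_range.2 ?_, x, hx, hmem⟩, hmem⟩
      rw [Nat.floor_lt (by positivity)]
      nlinarith
    have h1 : volume.real Z / 2 ≤ volume.real K := by
      have := ENNReal.toReal_mono hK.measure_lt_top.ne hKv.le
      rwa [ENNReal.toReal_ofReal (by positivity)] at this
    have h2 := measureReal_mono (μ := volume) hsub
      (measure_biUnion_lt_top J.finite_toSet fun _ _ => measure_Icc_lt_top).ne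
    have h3 := measureReal_biUnion_finset_le (μ := volume) J
      fun j : ℕ => Set.Icc ((j : ℝ) / n) (((j : ℝ) + 1) / n)
    have h4 : ∀ j ∈ J, volume.real (Set.Icc ((j : ℝ) / n) (((j : ℝ) + 1) / n)) = 1 / n := by
      intro j _
      rw [Real.volume_real_Icc_of_le (div_le_div_of_nonneg_right (by linarith) hn.le)]
      ring
    rw [Finset.sum_congr rfl h4, Finset.sum_const, nsmul_eq_mul, mul_one_div] at h3
    linarith
  · have hsub : (⋃ j ∈ J, Set.Ioo ((j : ℝ) / n) (((j : ℝ) + 1) / n)) \ Z ⊆ U \ Z := by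
      refine Set.sdiff_subset_sdiff_left fun y hy => ?_
      obtain ⟨j, hj, hy⟩ := Set.mem_iUnion₂.1 hy
      obtain ⟨x, hx, hxj⟩ := (mem_filter.1 hj).2
      refine hdU (Metric.mem_cthickening_of_dist_le y x d K hx ?_)
      have e : ((j : ℝ) + 1) / n = (j : ℝ) / n + 1 / n := by ring
      rw [e] at hy hxj
      rw [Real.dist_eq, abs_le]
      constructor <;> linarith [hy.1, hy.2, hxj.1, hxj.2]
    have := ENNReal.toReal_mono ENNReal.ofReal_ne_top ((measure_mono hsub).trans hUZ.le)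
    rwa [ENNReal.toReal_ofReal hε.le] at this

theorem ae_of_periodic {P : ℝ → Prop} (h : ∀ (x : ℝ) (k : ℤ), P x → P (x + k))
    (h1 : ∀ᵐ x : ℝ, x ∈ Set.Ioo (0 : ℝ) 1 → P x) : ∀ᵐ x : ℝ, P x := by
  have h2 : ∀ᵐ x : ℝ, ∀ k : ℤ, x - k ∈ Set.Ioo (0 : ℝ) 1 → P (x - k) :=
    ae_all_iff.2 fun k =>
      (measurePreserving_sub_right volume (k : ℝ)).quasiMeasurePreserving.ae h1
  have h3 : ∀ᵐ x : ℝ, x ∉ Set.range (Int.cast : ℤ → ℝ) :=
    (Set.countable_range _).ae_notMem volume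
  filter_upwards [h2, h3] with x hx hx'
  have h4 : (⌊x⌋ : ℝ) < x := lt_of_le_of_ne (Int.floor_le x) fun e => hx' ⟨_, e⟩
  have := h _ ⌊x⌋ (hx ⌊x⌋ ⟨by linarith, by linarith [Int.lt_floor_add_one x]⟩)
  rwa [sub_add_cancel] at this

end Vale.Agent.P028
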