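import Mathlib
import Vale.Agent.P028.Arith

namespace Vale.Agent.P028

open Finset Real

/-- tail prime weight -/
noncomputable def Lz (z q : ℕ) : ℝ := ∑ p ∈ q.primeFactors, if z < p then (p : ℝ)⁻¹ else 0

noncomputable def Gz (z q : ℕ) : ℝ := Real.exp ((z + 1) * Lz z q)

lemma Lz_nonneg (z q : ℕ) : 0 ≤ Lz z q :=
  Finset.sum_nonneg fun p _ => by split_ifs <;> positivity

lemma Gz_pos (z q : ℕ) : 0 < Gz z q := Real.exp_pos _

lemma Gz_moment (k : ℕ) : ∃ C : ℝ, 0 < C ∧ ∀ z N : ℕ,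
    ∑ q ∈ Finset.Ioc 0 N, Gz z q ^ k ≤ N * C := by
  refine ⟨Real.exp (Real.exp k * (2 * k)), Real.exp_pos _, fun z N => ?_⟩
  have h := moment_exp (fun p => k * ((z + 1) * if z < p then (p : ℝ)⁻¹ else 0)) k (2 * k)
    (fun p => by split_ifs <;> positivity)
    (fun p => by
      split_ifs with h
      · have h1 : ((z : ℝ) + 1) ≤ p := by exact_mod_cast h
        have h2 : (0 : ℝ) < p := by linarith [(Nat.cast_nonneg z : (0 : ℝ) ≤ z)]
        have : ((z : ℝ) + 1) * (p : ℝ)⁻¹ ≤ 1 := by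
          rw [← div_eq_mul_inv, div_le_one h2]; exact h1
        nlinarith [(Nat.cast_nonneg k : (0 : ℝ) ≤ k)]
      · simp) N
    (by
      have h1 : ∑ p ∈ Finset.Ioc 0 N, (k : ℝ) * ((z + 1) * if z < p then (p : ℝ)⁻¹ else 0) / p
          = k * (z + 1) * ∑ p ∈ (Finset.Ioc 0 N).filter (z < ·), ((p : ℝ) ^ 2)⁻¹ := by
        rw [Finset.sum_filter, Finset.mul_sum]
        apply Finset.sum_congr rfl
        intro p _
        split_ifs
        · rw [sq, mul_inv, div_eq_mul_inv]; ring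
        · simp
      have h2 : ∑ p ∈ (Finset.Ioc 0 N).filter (z < ·), ((p : ℝ) ^ 2)⁻¹ ≤
          ∑ p ∈ Finset.Ioo z (N + 1), ((p : ℝ) ^ 2)⁻¹ := by
        apply Finset.sum_le_sum_of_subset_of_nonneg
        · intro p hp
          simp only [Finset.mem_filter, Finset.mem_Ioc, Finset.mem_Ioo] at hp ⊢
          omega
        · intro p _ _; positivity
      have h3 := sum_Ioo_inv_sq_le (α := ℝ) z (N + 1)
      rw [h1]
      have hz : (0 : ℝ) < z + 1 := by positivity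
      calc (k : ℝ) * (z + 1) * ∑ p ∈ (Finset.Ioc 0 N).filter (z < ·), ((p : ℝ) ^ 2)⁻¹
          ≤ k * (z + 1) * (2 / (z + 1)) := by gcongr; exact h2.trans h3
        _ = 2 * k := by field_simp)
  refine le_trans (le_of_eq ?_) h
  apply Finset.sum_congr rfl
  intro q _
  rw [Gz, ← Real.exp_nat_mul, Lz, Finset.mul_sum, Finset.mul_sum]

lemma Gz_mul_le (z g q : ℕ) (hg : g ≠ 0) (hq : q ≠ 0) :
    Gz z (g * q) ≤ Real.exp (g.primeFactors.card) * Gz z q := by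
  classical
  unfold Gz
  rw [← Real.exp_add, Real.exp_le_exp]
  have h1 : Lz z (g * q) ≤ Lz z g + Lz z q := by
    unfold Lz
    rw [Nat.primeFactors_mul hg hq, ← Finset.sum_union_inter]
    have : 0 ≤ ∑ p ∈ g.primeFactors ∩ q.primeFactors, if z < p then (p : ℝ)⁻¹ else 0 :=
      Finset.sum_nonneg fun p _ => by split_ifs <;> positivity
    linarith
  have h2 : ((z : ℝ) + 1) * Lz z g ≤ g.primeFactors.card := by
    unfold Lz
    rw [Finset.mul_sum]
    calc _ ≤ ∑ _p ∈ g.primeFactors, (1 : ℝ) := by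
          apply Finset.sum_le_sum
          intro p _
          split_ifs with h
          · have h1 : ((z : ℝ) + 1) ≤ p := by exact_mod_cast h
            have h2 : (0 : ℝ) < p := by linarith [(Nat.cast_nonneg z : (0 : ℝ) ≤ z)]
            rw [← div_eq_mul_inv, div_le_one h2]; exact h1
          · simp
      _ = _ := by simp
  have hz : (0 : ℝ) ≤ z + 1 := by positivity
  nlinarith

lemma sum_rpow_le (s : ℝ) (hs : 0 < s) : ∃ Z : ℝ, 0 ≤ Z ∧ ∀ N : ℕ,
    ∑ p ∈ Finset.Ioc 0 N, (p : ℝ) ^ (-s) / p ≤ Z := by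
  have hsum : Summable (fun n : ℕ => (n : ℝ) ^ (-(1 + s))) :=
    Real.summable_nat_rpow.mpr (by linarith)
  refine ⟨∑' n : ℕ, (n : ℝ) ^ (-(1 + s)), tsum_nonneg fun n => by positivity, fun N => ?_⟩
  refine le_trans (le_of_eq ?_) (hsum.sum_le_tsum (Finset.Ioc 0 N) fun n _ => by positivity)
  apply Finset.sum_congr rfl
  intro p hp
  have hp0 : (0 : ℝ) < p := by exact_mod_cast (Finset.mem_Ioc.mp hp).1
  rw [show -(1 + s) = -s - 1 by ring, Real.rpow_sub_one hp0.ne']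

lemma h_moment (lam : ℝ) (hl : 0 < lam) (k : ℕ) : ∃ C : ℝ, 0 < C ∧ ∀ N : ℕ,
    ∑ q ∈ Finset.Ioc 0 N, (∑ g ∈ q.divisors, (g : ℝ) ^ (-lam)) ^ k ≤ N * C := by
  obtain ⟨Z, hZ0, hZ⟩ := sum_rpow_le lam hl
  set c := (1 - (2 : ℝ) ^ (-lam))⁻¹ with hc
  have h2lt : (2 : ℝ) ^ (-lam) < 1 := Real.rpow_lt_one_of_one_lt_of_neg (by norm_num) (by linarith)
  have hc0 : 0 ≤ c := inv_nonneg.mpr (by linarith)
  refine ⟨Real.exp (Real.exp (k * c) * (k * c * Z)), Real.exp_pos _, fun N => ?_⟩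
  have h := moment_exp (fun p => k * (c * (p : ℝ) ^ (-lam))) (k * c) (k * c * Z)
    (fun p => by positivity)
    (fun p => by
      have : (p : ℝ) ^ (-lam) ≤ 1 := by
        rcases Nat.eq_zero_or_pos p with rfl | hp
        · simp [Real.zero_rpow (by linarith : -lam ≠ 0)]
        · exact Real.rpow_le_one_of_one_le_of_nonpos (by exact_mod_cast hp) (by linarith)
      have h3 : c * (p : ℝ) ^ (-lam) ≤ c := by nlinarith
      gcongr) N
    (by
      calc ∑ p ∈ Finset.Ioc 0 N, (k : ℝ) * (c * (p : ℝ) ^ (-lam)) / p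
          = k * c * ∑ p ∈ Finset.Ioc 0 N, (p : ℝ) ^ (-lam) / p := by
            rw [Finset.mul_sum]; apply Finset.sum_congr rfl; intro p _; ring
        _ ≤ k * c * Z := by gcongr; exact hZ N)
  refine le_trans ?_ h
  apply Finset.sum_le_sum
  intro q hq
  have hq0 : q ≠ 0 := (Finset.mem_Ioc.mp hq).1.ne'
  rw [← Finset.mul_sum, Real.exp_nat_mul]
  exact pow_le_pow_left₀ (Finset.sum_nonneg fun g _ => by positivity)
    (sum_divisors_rpow_le lam hl q hq0) k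

lemma tot_moment (k : ℕ) : ∃ C : ℝ, 0 < C ∧ ∀ N : ℕ,
    ∑ q ∈ Finset.Ioc 0 N, (((q.totient : ℝ) / q)⁻¹) ^ k ≤ N * C := by
  obtain ⟨Z, hZ0, hZ⟩ := sum_rpow_le 1 one_pos
  refine ⟨Real.exp (Real.exp (k * 2) * (k * 2 * Z)), Real.exp_pos _, fun N => ?_⟩
  have h := moment_exp (fun p => k * (2 * (p : ℝ)⁻¹)) (k * 2) (k * 2 * Z)
    (fun p => by positivity)
    (fun p => by
      have : (p : ℝ)⁻¹ ≤ 1 := Nat.cast_inv_le_one p
      have h3 : 2 * (p : ℝ)⁻¹ ≤ 2 := by linarith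
      gcongr) N
    (by
      calc ∑ p ∈ Finset.Ioc 0 N, (k : ℝ) * (2 * (p : ℝ)⁻¹) / p
          = k * 2 * ∑ p ∈ Finset.Ioc 0 N, (p : ℝ) ^ (-(1 : ℝ)) / p := by
            rw [Finset.mul_sum]; apply Finset.sum_congr rfl; intro p _
            rw [Real.rpow_neg_one]; ring
        _ ≤ k * 2 * Z := by gcongr; exact hZ N)
  refine le_trans ?_ h
  apply Finset.sum_le_sum
  intro q hq
  have hq0 : q ≠ 0 := (Finset.mem_Ioc.mp hq).1.ne'
  rw [← Finset.mul_sum, Real.exp_nat_mul]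
  exact pow_le_pow_left₀ (by positivity) (div_totient_le q hq0) k

/-- number of multiples of `g` in `V` -/
def nm (V : Finset ℕ) (g : ℕ) : ℕ := (V.filter (g ∣ ·)).card

lemma nm_le_card (V : Finset ℕ) (g : ℕ) : nm V g ≤ V.card := Finset.card_filter_le _ _

lemma nm_le_div (V : Finset ℕ) (N g : ℕ) (hV : V ⊆ Finset.Ioc 0 N) : nm V g ≤ N / g := by
  rw [← Nat.Ioc_filter_dvd_card_eq_div]
  exact Finset.card_le_card (Finset.filter_subset_filter _ hV)

lemma dens_le_one (V : Finset ℕ) (N g : ℕ) (hN : 0 < N) (hV : V ⊆ Finset.Ioc 0 N) :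
    (g : ℝ) * nm V g / N ≤ 1 := by
  have h1 := nm_le_div V N g hV
  have h2 : g * nm V g ≤ N := (Nat.mul_le_mul_left g h1).trans (Nat.mul_div_le N g)
  have hNr : (0 : ℝ) < N := by exact_mod_cast hN
  rw [div_le_one hNr]; exact_mod_cast h2

theorem keyK (σ : ℝ) (hσ : 0 < σ) (hσ1 : σ ≤ 1 / 4) : ∃ C : ℝ, 0 < C ∧ ∀ (N : ℕ) (V : Finset ℕ),
    0 < N → V ⊆ Finset.Ioc 0 N →
    ∑ g ∈ Finset.Ioc 0 N, (g : ℝ) ^ (-1 - σ) * ((g : ℝ) * nm V g / N) ^ (9 / 8 : ℝ) ≤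
      C * ((∑ q ∈ V, (q.totient : ℝ) / q) / N) := by
  classical
  set lam := σ / 2 with hlam
  have hl : 0 < lam := by positivity
  obtain ⟨k, hk⟩ := exists_nat_ge (2 / lam)
  have hk0 : (0 : ℝ) < k := lt_of_lt_of_le (by positivity) hk
  have hk1 : k ≠ 0 := by exact_mod_cast hk0.ne'
  have hk2 : 2 * (1 / k : ℝ) ≤ lam := by
    rw [div_le_iff₀ hl] at hk
    rw [mul_one_div, div_le_iff₀ hk0]; linarith
  obtain ⟨C1, hC1, h1⟩ := h_moment lam hl k
  obtain ⟨C2, hC2, h2⟩ := tot_moment k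
  refine ⟨C1 ^ (1 / k : ℝ) * C2 ^ (1 / k : ℝ), by positivity, fun N V hN hV => ?_⟩
  have hNr : (0 : ℝ) < N := by exact_mod_cast hN
  set α : ℝ := (V.card : ℝ) / N with hα
  have hα0 : 0 ≤ α := by positivity
  have hα1 : α ≤ 1 := by
    rw [hα, div_le_one hNr]
    have := Finset.card_le_card hV
    simp at this; exact_mod_cast this
  rcases hα0.eq_or_lt with hα0' | hαp
  · have : V.card = 0 := by
      have : (V.card : ℝ) = 0 := by
        have h := hα0'.symm; rw [hα, div_eq_zero_iff] at h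
        rcases h with h | h
        · exact h
        · exact absurd h hNr.ne'
      exact_mod_cast this
    have hVe : V = ∅ := Finset.card_eq_zero.mp this
    subst hVe
    simp [nm]
  -- step 1
  have s1 : ∀ g ∈ Finset.Ioc 0 N, (g : ℝ) ^ (-1 - σ) * ((g : ℝ) * nm V g / N) ^ (9 / 8 : ℝ) ≤
      α ^ lam / N * ((g : ℝ) ^ (-lam) * nm V g) := by
    intro g hg
    have hg0 : (0 : ℝ) < g := by exact_mod_cast (Finset.mem_Ioc.mp hg).1
    set x : ℝ := (g : ℝ) * nm V g / N with hx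
    have hx0 : 0 ≤ x := by positivity
    have hx1 : x ≤ 1 := dens_le_one V N g hN hV
    have hx2 : x ≤ g * α := by
      rw [hx, hα, mul_div_assoc]; gcongr; exact_mod_cast nm_le_card V g
    have e1 : x ^ (9 / 8 : ℝ) = x * x ^ (1 / 8 : ℝ) := by
      rw [show (9 / 8 : ℝ) = 1 + 1 / 8 by norm_num, Real.rpow_add' hx0 (by norm_num),
        Real.rpow_one]
    have e2 : x ^ (1 / 8 : ℝ) ≤ x ^ lam :=
      Real.rpow_le_rpow_of_exponent_ge' hx0 hx1 hl.le (by linarith)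
    have e3 : x ^ lam ≤ (g : ℝ) ^ lam * α ^ lam := by
      rw [← Real.mul_rpow hg0.le hα0]; exact Real.rpow_le_rpow hx0 hx2 hl.le
    have e4 : (g : ℝ) ^ (-1 - σ) * g * (g : ℝ) ^ lam = (g : ℝ) ^ (-lam) := by
      rw [← Real.rpow_add_one hg0.ne', ← Real.rpow_add hg0]; congr 1; rw [hlam]; ring
    calc (g : ℝ) ^ (-1 - σ) * x ^ (9 / 8 : ℝ) ≤ (g : ℝ) ^ (-1 - σ) * (x * ((g : ℝ) ^ lam * α ^ lam)) := by
          rw [e1]; gcongr; exact e2.trans e3
      _ = α ^ lam / N * (((g : ℝ) ^ (-1 - σ) * g * (g : ℝ) ^ lam) * nm V g) := by rw [hx]; ring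
      _ = _ := by rw [e4]
  have s2 : ∑ g ∈ Finset.Ioc 0 N, (g : ℝ) ^ (-lam) * nm V g =
      ∑ q ∈ V, ∑ g ∈ q.divisors, (g : ℝ) ^ (-lam) := by
    have : ∀ g ∈ Finset.Ioc 0 N, (g : ℝ) ^ (-lam) * nm V g =
        ∑ q ∈ V, if g ∣ q then (g : ℝ) ^ (-lam) else 0 := by
      intro g _
      rw [← Finset.sum_filter, Finset.sum_const, nsmul_eq_mul, nm, mul_comm]
    rw [Finset.sum_congr rfl this, Finset.sum_comm]
    apply Finset.sum_congr rfl
    intro q hq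
    have hq' := Finset.mem_Ioc.mp (hV hq)
    rw [← Finset.sum_filter]
    apply Finset.sum_congr _ (fun _ _ => rfl)
    ext g
    simp only [Finset.mem_filter, Finset.mem_Ioc, Nat.mem_divisors]
    constructor
    · rintro ⟨_, h⟩; exact ⟨h, hq'.1.ne'⟩
    · rintro ⟨h, h0⟩
      exact ⟨⟨Nat.pos_of_dvd_of_pos h hq'.1, (Nat.le_of_dvd hq'.1 h).trans hq'.2⟩, h⟩
  have s3 := holder V N hN hV (fun q => ∑ g ∈ q.divisors, (g : ℝ) ^ (-lam))
    (fun q => Finset.sum_nonneg fun g _ => by positivity) k hk1 C1 hC1.le (h1 N)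
  have s4 := holder V N hN hV (fun q => ((q.totient : ℝ) / q)⁻¹)
    (fun q => by positivity) k hk1 C2 hC2.le (h2 N)
  have s5 : ((V.card : ℝ)) ^ 2 ≤ (∑ q ∈ V, (q.totient : ℝ) / q) * ∑ q ∈ V, ((q.totient : ℝ) / q)⁻¹ := by
    have := Finset.sum_sq_le_sum_mul_sum_of_sq_le_mul V (r := fun _ => (1 : ℝ))
      (f := fun q => (q.totient : ℝ) / q) (g := fun q => ((q.totient : ℝ) / q)⁻¹)
      (fun q _ => by positivity) (fun q _ => by positivity)
      (fun q hq => by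
        have hq' := (Finset.mem_Ioc.mp (hV hq)).1
        have : (0 : ℝ) < (q.totient : ℝ) / q := by
          have := Nat.totient_pos.mpr hq'
          positivity
        rw [mul_inv_cancel₀ this.ne']; norm_num)
    simpa using this
  set Φ := ∑ q ∈ V, (q.totient : ℝ) / q with hΦ
  have hΦ0 : 0 ≤ Φ := Finset.sum_nonneg fun q _ => by positivity
  rw [← hα] at s3 s4
  -- α^(1+1/k) ≤ C2^(1/k) Φ/N
  have s6 : α ^ (1 + 1 / k : ℝ) ≤ C2 ^ (1 / k : ℝ) * (Φ / N) := by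
    have e1 : (V.card : ℝ) = α * N := by rw [hα]; field_simp
    have e2 : α ^ (1 + 1 / k : ℝ) * α ^ (1 - 1 / k : ℝ) = α ^ 2 := by
      rw [← Real.rpow_add hαp, ← Real.rpow_natCast]; congr 1; push_cast; ring
    have e3 : 0 < α ^ (1 - 1 / k : ℝ) := Real.rpow_pos_of_pos hαp _
    have e4 : (α * N) ^ 2 ≤ Φ * (C2 ^ (1 / k : ℝ) * N * α ^ (1 - 1 / k : ℝ)) := by
      rw [← e1]; exact s5.trans (by gcongr)
    have e5 : α ^ (1 + 1 / k : ℝ) * α ^ (1 - 1 / k : ℝ) ≤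
        (C2 ^ (1 / k : ℝ) * (Φ / N)) * α ^ (1 - 1 / k : ℝ) := by
      rw [e2]
      have : α ^ 2 = (α * N) ^ 2 / N ^ 2 := by field_simp
      rw [this, div_le_iff₀ (by positivity)]
      refine e4.trans (le_of_eq ?_)
      field_simp
    exact le_of_mul_le_mul_right e5 e3
  have s7 : α ^ lam * α ^ (1 - 1 / k : ℝ) ≤ α ^ (1 + 1 / k : ℝ) := by
    rw [← Real.rpow_add hαp]
    exact Real.rpow_le_rpow_of_exponent_ge hαp hα1 (by linarith)
  calc ∑ g ∈ Finset.Ioc 0 N, (g : ℝ) ^ (-1 - σ) * ((g : ℝ) * nm V g / N) ^ (9 / 8 : ℝ)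
      ≤ ∑ g ∈ Finset.Ioc 0 N, α ^ lam / N * ((g : ℝ) ^ (-lam) * nm V g) := Finset.sum_le_sum s1
    _ = α ^ lam / N * ∑ q ∈ V, ∑ g ∈ q.divisors, (g : ℝ) ^ (-lam) := by rw [← Finset.mul_sum, s2]
    _ ≤ α ^ lam / N * (C1 ^ (1 / k : ℝ) * N * α ^ (1 - 1 / k : ℝ)) := by gcongr
    _ = C1 ^ (1 / k : ℝ) * (α ^ lam * α ^ (1 - 1 / k : ℝ)) := by field_simp
    _ ≤ C1 ^ (1 / k : ℝ) * (C2 ^ (1 / k : ℝ) * (Φ / N)) := 
        mul_le_mul_of_nonneg_left (s7.trans s6) (by positivity)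
    _ = _ := by ring

end Vale.Agent.P028
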