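import Vale.Agent.P028.BasB

namespace Vale.Agent.P028

open Finset MeasureTheory

variable {γ : ℝ}

theorem exists_z {t : ℝ} (ht : 1 / 5 < t) : ∃ z : ℕ, (primorial z : ℝ) ≤ 2 * max t (1 / 2) ∧
    Real.exp (-((z : ℝ) + 1)) ≤ t ^ (-(1 / 2) : ℝ) := by
  classical
  have t0 : 0 < t := by linarith
  obtain ⟨T, hT⟩ : ∃ T, T = 2 * max t (1 / 2) := ⟨_, rfl⟩
  have T1 : 1 ≤ T := by rw [hT]; linarith [le_max_right t (1 / 2)]
  have T2 : t ≤ T := by rw [hT]; linarith [le_max_left t (1 / 2)]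
  have hex : ∃ z : ℕ, T < primorial (z + 1) := by
    obtain ⟨z, hz⟩ := exists_nat_gt T
    refine ⟨z, hz.trans_le ?_⟩
    exact_mod_cast (Nat.le_succ z).trans le_primorial_self
  rw [← hT]
  refine ⟨Nat.find hex, ?_, ?_⟩
  · rcases h : Nat.find hex with _ | k
    · simpa using T1
    · exact not_lt.1 (Nat.find_min hex (m := k) (by omega))
  · have h1 := Nat.find_spec hex
    generalize Nat.find hex = z at h1 ⊢
    have h2 : (primorial (z + 1) : ℝ) ≤ 4 ^ (z + 1) := by exact_mod_cast primorial_le_four_pow _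
    have h3 : (4 : ℝ) ≤ Real.exp 2 := by
      have := Real.add_one_le_exp 1
      have e : Real.exp 2 = Real.exp 1 * Real.exp 1 := by rw [← Real.exp_add]; norm_num
      nlinarith
    have h4 : t ≤ Real.exp (2 * ((z : ℝ) + 1)) := by
      have e : Real.exp (2 * ((z : ℝ) + 1)) = Real.exp 2 ^ (z + 1) := by
        rw [← Real.exp_nat_mul]
        push_cast
        ring_nf
      rw [e]
      exact T2.trans (h1.le.trans (h2.trans (pow_le_pow_left₀ (by norm_num) h3 _)))
    have h5 := Real.rpow_le_rpow_of_nonpos t0 h4 (show (-(1 / 2) : ℝ) ≤ 0 by norm_num)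
    rw [← Real.exp_mul] at h5
    convert h5 using 2
    ring

theorem LargeAX.one_le {s : ℝ} {z m n : ℕ} (s0 : 0 < s) (hz' : Real.exp (-((z : ℝ) + 1)) ≤ s)
    (hL : ¬ (Lz z m ≤ 1 ∧ Lz z n ≤ 1)) : 1 ≤ s * (Gz z m + Gz z n) := by
  have c3 : ∀ n, 1 < Lz z n → 1 ≤ s * Gz z n := by
    intro n hn
    refine le_trans ?_ (mul_le_mul_of_nonneg_right hz' (Gz_pos z n).le)
    unfold Gz
    rw [← Real.exp_add]
    refine Real.one_le_exp ?_
    have : (0 : ℝ) ≤ z := Nat.cast_nonneg z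
    nlinarith
  rw [not_and_or, not_le, not_le] at hL
  rcases hL with h | h
  · nlinarith [c3 _ h, mul_pos s0 (Gz_pos z n)]
  · nlinarith [c3 _ h, mul_pos s0 (Gz_pos z m)]

theorem LargeAX.cnt {z n : ℕ} (h1 : SieveOK γ n) (h2 : Lz z n ≤ 1) :
    ((RR γ n ((PP γ n).filter (· ≤ z))).card : ℝ) ≤ 2 * n * (ff γ n * Real.exp 2) := by
  refine (h1 _ (filter_subset _ _)).trans (mul_le_mul_of_nonneg_left
    ((prod_trunc γ n z).trans (mul_le_mul_of_nonneg_left ?_ (ff_pos γ n).le)) (by positivity))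
  exact Real.exp_le_exp.2 (by linarith)

theorem large_pair {N M : ℕ} {δ δ' : ℝ} {V V' : Finset ℕ} (hb : Blk γ N δ V)
    (hb' : Blk γ M δ' V') (hNM : N ≤ M) {g : ℕ} (hg : 0 < g) {t : ℝ}
    (ht : t = max (M * δ) (N * δ') / g) (ht1 : 1 / 5 < t) {z : ℕ}
    (hz : (primorial z : ℝ) ≤ 2 * max t (1 / 2))
    (hz' : Real.exp (-((z : ℝ) + 1)) ≤ t ^ (-(1 / 2) : ℝ)) {p : ℕ × ℕ} (hp : p ∈ PG V V' g) :
    ov γ δ δ' p.1 p.2 ≤ 1200 * Real.exp 4 * ((δ * ff γ p.1) * (δ' * ff γ p.2)) +
      72 * (δ * δ') * t ^ (-(1 / 2) : ℝ) * (Gz z p.1 + Gz z p.2) := by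
  obtain ⟨q', r', rfl, hcop, hne, hq, hr⟩ := mem_PG hg hp
  have N5 := hb.big
  have q1 := hb.lo _ hq
  have r1 := hb'.lo _ hr
  have q0 : 0 < q' := Nat.pos_of_ne_zero fun e => by simp [e] at q1
  have r0 : 0 < r' := Nat.pos_of_ne_zero fun e => by simp [e] at r1
  have rN : (512 : ℝ) ≤ N := by exact_mod_cast N5
  have rNM : (N : ℝ) ≤ M := by exact_mod_cast hNM
  have rg : (0 : ℝ) < g := by exact_mod_cast hg
  have N0 : (0 : ℝ) < N := by linarith
  have M0 : (0 : ℝ) < M := by linarith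
  have t0 : 0 < t := by linarith
  have δ0 := hb.pos
  have δ0' := hb'.pos
  have tg : t * g = max (M * δ) (N * δ') := by rw [ht]; field_simp
  have mu : min (M * δ) (N * δ') * (t * g) = N * M * (δ * δ') := by
    rw [tg, min_mul_max]
    ring
  have mu0 : 0 ≤ min (M * δ) (N * δ') := le_min (by positivity) (by positivity)
  have key := ov_le_blk hb hb' hg hq hr
  rw [← ht] at key
  have fin : ∀ K : ℝ, ((Pairs (RR γ (g * q') (PP γ (g * q'))) (RR γ (g * r') (PP γ (g * r')))
      q' r' γ t).card : ℝ) ≤ K * (t * g) → ov γ δ δ' (g * q') (g * r') ≤ 4 * K * (δ * δ') := by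
    intro K hK
    refine key.trans ((mul_le_mul_of_nonneg_left hK (by positivity)).trans (le_of_eq ?_))
    have : 4 * min (M * δ) (N * δ') / ((N : ℝ) * M) * (K * (t * g)) =
        4 * K * (min (M * δ) (N * δ') * (t * g)) / (N * M) := by ring
    rw [this, mu]
    field_simp
  have f1 := ff_pos γ (g * q')
  have f2 := ff_pos γ (g * r')
  have G1 := Gz_pos z (g * q')
  have G2 := Gz_pos z (g * r')
  have s0 : 0 < t ^ (-(1 / 2) : ℝ) := Real.rpow_pos_of_pos t0 _
  dsimp only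
  by_cases hL : Lz z (g * q') ≤ 1 ∧ Lz z (g * r') ≤ 1
  · have hP : ∀ n, ∀ l ∈ (PP γ n).filter (· ≤ z), l ∣ n ∧ l ∣ primorial z := by
      intro n l hl
      obtain ⟨h1, h2⟩ := mem_filter.1 hl
      have h3 := Nat.mem_primeFactors.1 (mem_filter.1 h1).1
      exact ⟨h3.2.1, h3.1.dvd_primorial_iff.2 h2⟩
    have D1 : max t (1 / 2) ≤ 5 / 2 * t := max_le (by linarith) (by linarith)
    have D0 : 0 ≤ max t (1 / 2) := t0.le.trans (le_max_left _ _)
    have d2 : δ * N ≤ 1 / 8 := by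
      have := hb.d2
      rw [le_div_iff₀ (by positivity)] at this
      linarith
    have d3 : δ' * M ≤ 1 / 8 := by
      have := hb'.d2
      rw [le_div_iff₀ (by positivity)] at this
      linarith
    have t5 : t * g ≤ M := by
      rw [tg]
      refine max_le ?_ ?_
      · exact mul_le_of_le_one_right M0.le (by nlinarith)
      · nlinarith
    have rq : (N : ℝ) < 2 * (g * q') := by exact_mod_cast q1
    have rr : (M : ℝ) < 2 * (g * r') := by exact_mod_cast r1
    have rq0 : (0 : ℝ) < q' := by exact_mod_cast q0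
    have rr0 : (0 : ℝ) < r' := by exact_mod_cast r0
    have D2 : 2 * max t (1 / 2) ≤ (g * q' * r' : ℕ) := by
      push_cast
      refine le_of_mul_le_mul_right ?_ rg
      have := mul_le_mul rq.le rr.le M0.le (by positivity)
      nlinarith
    have c1 := card_le_card (Pairs_mono 
      (RR_anti γ (g * q') (filter_subset (· ≤ z) (PP γ (g * q'))))
      (RR_anti γ (g * r') (filter_subset (· ≤ z) (PP γ (g * r')))) q' r' γ (le_max_left t (1 / 2)))
    have c2 := cnt_sieve g q' r' hg q0 r0 hcop ((PP γ (g * q')).filter (· ≤ z))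
      ((PP γ (g * r')).filter (· ≤ z)) (fun _ => ((cen γ (g * q')).2 : ℤ))
      (fun _ => (cen γ (g * q')).1) (fun _ => ((cen γ (g * r')).2 : ℤ))
      (fun _ => (cen γ (g * r')).1) (fun l hl => (hP _ l hl).1) (fun l hl => (hP _ l hl).1)
      (primorial z) (primorial_pos z) (fun l hl => (hP _ l hl).2) (fun l hl => (hP _ l hl).2)
      γ _ D0 hz D2
    have c4 := LargeAX.cnt (hb.ok _ hq) hL.1
    have c5 := LargeAX.cnt (hb'.ok _ hr) hL.2
    have e4 : Real.exp 4 = Real.exp 2 * Real.exp 2 := by rw [← Real.exp_add]; norm_num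
    have c6 := fin (300 * Real.exp 4 * (ff γ (g * q') * ff γ (g * r'))) (by
      refine le_trans (by exact_mod_cast c1) (c2.trans ?_)
      rw [div_le_iff₀ (by positivity)]
      refine (mul_le_mul (mul_le_mul_of_nonneg_left D1 (by norm_num))
        (mul_le_mul c4 c5 (by positivity) (by positivity)) (by positivity)
        (by positivity)).trans (le_of_eq ?_)
      rw [e4]
      push_cast
      ring)
    have : 0 ≤ 72 * (δ * δ') * t ^ (-(1 / 2) : ℝ) * (Gz z (g * q') + Gz z (g * r')) := by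
      positivity
    linarith
  · have c1 := cnt_crude g q' r' hg q0 hcop (RR γ (g * q') (PP γ (g * q')))
      (RR γ (g * r') (PP γ (g * r'))) (filter_subset _ _) γ t t0.le
    have c2 := fin 18 (c1.trans (by nlinarith))
    have c4 := LargeAX.one_le s0 hz' hL
    have c5 : 0 ≤ 1200 * Real.exp 4 * ((δ * ff γ (g * q')) * (δ' * ff γ (g * r'))) := by
      positivity
    have c6 := mul_le_mul_of_nonneg_left c4 (show 0 ≤ 72 * (δ * δ') by positivity)
    linarith

end Vale.Agent.P028
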