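import Vale.Agent.P028.BasA

namespace Vale.Agent.P028

open Finset MeasureTheory

theorem reduce (γ : ℝ) (ψ : ℕ → ℝ) (h0 : ∀ q, 0 ≤ ψ q) (C : ℝ)
    (hC : ∀ q : ℕ, 0 < q → ψ q ≤ C / q)
    (hdiv : ¬ Summable fun q : ℕ => (q.totient : ℝ) / q * ψ q) :
    ∃ (T : Set ℕ) (e : ℕ → ℕ), Sys γ T e ∧ (∀ q ∈ T, (2⁻¹ : ℝ) ^ e q ≤ ψ q) ∧
      ¬ Summable (T.indicator fun q => (2⁻¹ : ℝ) ^ e q * ff γ q) := by
  classical
  obtain ⟨Q, hQ⟩ := exists_sieveOK
  set K : ℝ := 16 * max C 1 with hK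
  have hm1 : (1 : ℝ) ≤ max C 1 := le_max_right _ _
  have hm2 : C ≤ max C 1 := le_max_left _ _
  have hKp : 0 < K := by rw [hK]; linarith
  set T : Set ℕ := {q | max Q 512 ≤ q ∧ (2⁻¹ : ℝ) ^ (2 * Nat.clog 2 q) ≤ ψ q / K} with hT
  let e : ℕ → ℕ := fun q => if h : ∃ n : ℕ, (2⁻¹ : ℝ) ^ n ≤ ψ q / K then Nat.find h else 0
  have he : ∀ q ∈ T, (2⁻¹ : ℝ) ^ e q ≤ ψ q / K ∧ e q ≤ 2 * Nat.clog 2 q ∧
      ∀ n < e q, ψ q / K < (2⁻¹ : ℝ) ^ n := by
    intro q hq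
    have h : ∃ n : ℕ, (2⁻¹ : ℝ) ^ n ≤ ψ q / K := ⟨_, hq.2⟩
    have e1 : e q = Nat.find h := dif_pos h
    rw [e1]
    exact ⟨Nat.find_spec h, Nat.find_min' h hq.2, fun n hn => not_le.1 (Nat.find_min h hn)⟩
  have hbig : ∀ q ∈ T, 512 ≤ q := fun q hq => (le_max_right _ _).trans hq.1
  have hlo : ∀ q ∈ T, Nat.clog 2 q + 3 ≤ e q := by
    intro q hq
    have hq0 := hbig q hq
    have hqp : (0 : ℝ) < q := by exact_mod_cast (by omega : 0 < q)
    have h1 : ψ q / K ≤ 1 / (16 * q) := by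
      rw [div_le_iff₀ hKp]
      calc ψ q ≤ C / q := hC q (by omega)
        _ ≤ max C 1 / q := by gcongr
        _ = _ := by rw [hK]; field_simp
    have h2 := (he q hq).1.trans h1
    rw [inv_pow, ← one_div, one_div_le_one_div (by positivity) (by positivity)] at h2
    have h3 : 16 * q ≤ 2 ^ e q := by exact_mod_cast h2
    have h4 := Nat.pow_pred_clog_lt_self (b := 2) (by norm_num) (x := q) (by omega)
    have h5 : 0 < Nat.clog 2 q := Nat.clog_pos (by norm_num) (by omega)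
    have h6 : 2 ^ (Nat.clog 2 q + 3) < 2 ^ e q := by
      obtain ⟨L, hL⟩ : ∃ L, Nat.clog 2 q = L + 1 := ⟨Nat.clog 2 q - 1, by omega⟩
      rw [hL] at h4 ⊢
      simp only [Nat.pred_succ] at h4
      have : 2 ^ (L + 1 + 3) = 16 * 2 ^ L := by ring
      omega
    exact ((Nat.pow_lt_pow_iff_right (by norm_num)).1 h6).le
  refine ⟨T, e, ⟨hbig, fun q hq => hQ γ q ((le_max_left _ _).trans hq.1), hlo,
    fun q hq => (he q hq).2.1⟩, fun q hq => (he q hq).1.trans ?_, fun hs => hdiv ?_⟩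
  · rw [div_le_iff₀ hKp]
    have := h0 q
    have : (1 : ℝ) ≤ K := by rw [hK]; linarith
    nlinarith
  · have hs2 : Summable fun q : ℕ => 1 / (q : ℝ) ^ 2 := Real.summable_one_div_nat_pow.2 (by norm_num)
    refine Summable.of_norm_bounded_eventually_nat (((hs.mul_left 2).add hs2).mul_left K) ?_
    filter_upwards [Filter.eventually_ge_atTop (max Q 512)] with q hq
    have hq0 : 512 ≤ q := (le_max_right _ _).trans hq
    have hqp : (0 : ℝ) < q := by exact_mod_cast (by omega : 0 < q)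
    have hψ := h0 q
    have hff := tot_le_ff γ (q := q) (by omega)
    have hf1 := ff_le_one γ q
    have hf0 := ff_pos γ q
    rw [Real.norm_of_nonneg (by positivity)]
    have e0 : (q.totient : ℝ) / q * ψ q ≤ K * (ff γ q * (ψ q / K)) := by
      calc _ ≤ ff γ q * ψ q := by gcongr
        _ = _ := by field_simp
    refine e0.trans (mul_le_mul_of_nonneg_left ?_ hKp.le)
    by_cases hqT : q ∈ T
    · rw [Set.indicator_of_mem hqT]
      have h1 := hlo q hqT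
      have h2 := (he q hqT).2.2 (e q - 1) (by omega)
      have h3 : (2⁻¹ : ℝ) ^ (e q - 1) = 2 * 2⁻¹ ^ e q := by
        obtain ⟨n, hn⟩ : ∃ n, e q = n + 1 := ⟨e q - 1, by omega⟩
        rw [hn, Nat.add_sub_cancel, pow_succ]; ring
      rw [h3] at h2
      have h4 : ff γ q * (ψ q / K) ≤ ff γ q * (2 * 2⁻¹ ^ e q) := by gcongr
      have h5 : (0 : ℝ) ≤ 1 / (q : ℝ) ^ 2 := by positivity
      linarith
    · rw [Set.indicator_of_notMem hqT]
      have h1 : ψ q / K < (2⁻¹ : ℝ) ^ (2 * Nat.clog 2 q) := by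
        by_contra h
        exact hqT ⟨hq, not_lt.1 h⟩
      have h2 : (2⁻¹ : ℝ) ^ (2 * Nat.clog 2 q) ≤ 1 / (q : ℝ) ^ 2 := by
        rw [inv_pow, ← one_div, mul_comm, pow_mul]
        have h3 : q ≤ 2 ^ Nat.clog 2 q := Nat.le_pow_clog (by norm_num) q
        have h4 : (q : ℝ) ≤ 2 ^ Nat.clog 2 q := by exact_mod_cast h3
        gcongr
      have h4 : ff γ q * (ψ q / K) ≤ 1 * (ψ q / K) := by gcongr
      linarith

end Vale.Agent.P028
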