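import Vale.Agent.P028.Block

namespace Vale.Agent.P028

open Finset MeasureTheory

/-- weight of the block `b` seen from level `i` -/
noncomputable def wt (i : ℕ) (b : ℕ × ℕ) : ℝ :=
  (2 : ℝ) ^ (-|(i : ℝ) - b.1| / 4) * ((2 : ℝ) ^ b.1 * 2⁻¹ ^ b.2) ^ sg

theorem wsum : ∃ K : ℝ, 0 < K ∧ ∀ (i : ℕ) (B : Finset (ℕ × ℕ)), (∀ b ∈ B, b.1 ≤ b.2) →
    ∑ b ∈ B, wt i b ≤ K := by
  set τ : ℝ := (2 : ℝ) ^ (-(1 / 4) : ℝ) with hτ
  set ρ : ℝ := (2⁻¹ : ℝ) ^ sg with hρ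
  have hτ0 : 0 ≤ τ := by positivity
  have hρ0 : 0 ≤ ρ := by positivity
  have hτ1 : τ < 1 := Real.rpow_lt_one_of_one_lt_of_neg (by norm_num) (by norm_num)
  have hρ1 : ρ < 1 := Real.rpow_lt_one (by norm_num) (by norm_num) (by unfold sg; norm_num)
  have s1 : Summable fun z : ℤ => τ ^ z.natAbs := by
    refine Summable.of_nat_of_neg ?_ ?_
    · simpa using summable_geometric_of_lt_one hτ0 hτ1
    · simpa using summable_geometric_of_lt_one hτ0 hτ1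
  have s2 : Summable fun k : ℕ => ρ ^ k := summable_geometric_of_lt_one hρ0 hρ1
  have s3 : Summable fun c : ℤ × ℕ => τ ^ c.1.natAbs * ρ ^ c.2 :=
    s1.mul_of_nonneg s2 (fun _ => by positivity) (fun _ => by positivity)
  have h0 : 0 ≤ ∑' c : ℤ × ℕ, τ ^ c.1.natAbs * ρ ^ c.2 := tsum_nonneg fun _ => by positivity
  refine ⟨∑' c : ℤ × ℕ, τ ^ c.1.natAbs * ρ ^ c.2 + 1, by linarith, fun i B hB => ?_⟩
  let φ : ℕ × ℕ → ℤ × ℕ := fun b => ((i : ℤ) - b.1, b.2 - b.1)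
  have hinj : Set.InjOn φ (B : Set (ℕ × ℕ)) := by
    intro a ha b hb hab
    have h1 := hB a ha
    have h2 := hB b hb
    simp only [φ, Prod.mk.injEq] at hab
    obtain ⟨h3, h4⟩ := hab
    ext <;> omega
  have hw : ∀ b ∈ B, wt i b = τ ^ (φ b).1.natAbs * ρ ^ (φ b).2 := by
    intro b hb
    obtain ⟨k, hk⟩ := Nat.exists_eq_add_of_le (hB b hb)
    have e1 : (2 : ℝ) ^ b.1 * 2⁻¹ ^ b.2 = 2⁻¹ ^ k := by
      rw [hk, pow_add, ← mul_assoc, ← mul_pow]; norm_num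
    have e2 : (φ b).2 = k := by simp only [φ]; omega
    have e3 : (((φ b).1.natAbs : ℕ) : ℝ) = |(i : ℝ) - b.1| := by
      simp only [φ]
      rw [Nat.cast_natAbs]
      push_cast
      rfl
    unfold wt
    rw [e1, e2, hτ, hρ, ← Real.rpow_mul_natCast (by norm_num), e3,
      ← Real.rpow_pow_comm (by norm_num)]
    congr 2
    ring
  rw [Finset.sum_congr rfl hw,
    ← Finset.sum_image (f := fun c : ℤ × ℕ => τ ^ c.1.natAbs * ρ ^ c.2) hinj]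
  have := s3.sum_le_tsum (B.image φ) (fun _ _ => by positivity)
  linarith

theorem total_half {i j : ℕ} (h : i ≤ j) :
    (((2 ^ j : ℕ) : ℝ) / ((2 ^ i : ℕ) : ℝ)) ^ (-(1 / 4) : ℝ) =
      (2 : ℝ) ^ (-|(i : ℝ) - j| / 4) := by
  have h1 : (i : ℝ) ≤ j := by exact_mod_cast h
  push_cast
  rw [← Real.rpow_natCast, ← Real.rpow_natCast, ← Real.rpow_sub (by norm_num),
    ← Real.rpow_mul (by norm_num), abs_of_nonpos (by linarith)]
  congr 1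
  ring

theorem block_sym : ∃ C : ℝ, 0 < C ∧ ∀ (γ : ℝ) (b b' : ℕ × ℕ) (V V' : Finset ℕ),
    Blk γ (2 ^ b.1) (2⁻¹ ^ b.2) V → Blk γ (2 ^ b'.1) (2⁻¹ ^ b'.2) V' →
    ∑ p ∈ (V ×ˢ V').filter (fun p => p.1 ≠ p.2), ov γ (2⁻¹ ^ b.2) (2⁻¹ ^ b'.2) p.1 p.2 ≤
      C * (wt b.1 b' * mass γ (2⁻¹ ^ b.2) V + wt b'.1 b * mass γ (2⁻¹ ^ b'.2) V' +
        mass γ (2⁻¹ ^ b.2) V * mass γ (2⁻¹ ^ b'.2) V') := by
  obtain ⟨C, hC, h⟩ := block
  have key : ∀ (γ : ℝ) (b b' : ℕ × ℕ) (V V' : Finset ℕ),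
      Blk γ (2 ^ b.1) (2⁻¹ ^ b.2) V → Blk γ (2 ^ b'.1) (2⁻¹ ^ b'.2) V' → b.1 ≤ b'.1 →
      ∑ p ∈ (V ×ˢ V').filter (fun p => p.1 ≠ p.2), ov γ (2⁻¹ ^ b.2) (2⁻¹ ^ b'.2) p.1 p.2 ≤
        C * (wt b.1 b' * mass γ (2⁻¹ ^ b.2) V + wt b'.1 b * mass γ (2⁻¹ ^ b'.2) V' +
          mass γ (2⁻¹ ^ b.2) V * mass γ (2⁻¹ ^ b'.2) V') := by
    intro γ b b' V V' h1 h2 hle
    refine (h γ _ _ _ _ V V' h1 h2 (Nat.pow_le_pow_right (by norm_num) hle)).trans (le_of_eq ?_)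
    rw [total_half hle]
    unfold wt
    rw [abs_sub_comm (b'.1 : ℝ)]
    push_cast
    ring
  refine ⟨C, hC, fun γ b b' V V' h1 h2 => ?_⟩
  rcases le_total b.1 b'.1 with hle | hle
  · exact key γ b b' V V' h1 h2 hle
  · have h3 := key γ b' b V' V h2 h1 hle
    have h4 : ∑ p ∈ (V ×ˢ V').filter (fun p => p.1 ≠ p.2),
        ov γ (2⁻¹ ^ b.2) (2⁻¹ ^ b'.2) p.1 p.2 =
        ∑ p ∈ (V' ×ˢ V).filter (fun p => p.1 ≠ p.2), ov γ (2⁻¹ ^ b'.2) (2⁻¹ ^ b.2) p.1 p.2 := by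
      refine Finset.sum_nbij' Prod.swap Prod.swap ?_ ?_ ?_ ?_ ?_
      · intro p hp
        simp only [Finset.mem_filter, Finset.mem_product, Prod.fst_swap, Prod.snd_swap] at hp ⊢
        exact ⟨⟨hp.1.2, hp.1.1⟩, hp.2.symm⟩
      · intro p hp
        simp only [Finset.mem_filter, Finset.mem_product, Prod.fst_swap, Prod.snd_swap] at hp ⊢
        exact ⟨⟨hp.1.2, hp.1.1⟩, hp.2.symm⟩
      · intro p _; rfl
      · intro p _; rfl
      · intro p _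
        exact ov_comm _ _ _ _ _
    rw [h4]
    refine h3.trans (le_of_eq ?_)
    ring

theorem Sys.blk {γ : ℝ} {T : Set ℕ} {e : ℕ → ℕ} (h : Sys γ T e) {S : Finset ℕ}
    (hS : (S : Set ℕ) ⊆ T) {b : ℕ × ℕ} (hb : b ∈ S.image fun q => (Nat.clog 2 q, e q)) :
    b.1 ≤ b.2 ∧ Blk γ (2 ^ b.1) (2⁻¹ ^ b.2) (S.filter fun q => (Nat.clog 2 q, e q) = b) := by
  obtain ⟨q₀, hq₀, rfl⟩ := Finset.mem_image.1 hb
  have hT := hS hq₀
  have h1 := h.big _ hT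
  have h2 := h.lo _ hT
  have h3 := h.hi _ hT
  refine ⟨by simp only; omega, ⟨?_, ?_, ?_, ?_, ?_, ?_⟩⟩
  · exact h1.trans (Nat.le_pow_clog (by norm_num) _)
  · intro q hq
    obtain ⟨hqS, hqe⟩ := Finset.mem_filter.1 hq
    have h4 := h.big _ (hS hqS)
    have h5 : Nat.clog 2 q = Nat.clog 2 q₀ := (Prod.mk.inj hqe).1
    have h6 := Nat.pow_pred_clog_lt_self (b := 2) (by norm_num) (x := q) (by omega)
    have h7 : 0 < Nat.clog 2 q := Nat.clog_pos (by norm_num) (by omega)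
    simp only
    rw [← h5]
    obtain ⟨k, hk⟩ := Nat.exists_eq_succ_of_ne_zero h7.ne'
    rw [hk] at h6 ⊢
    simp only [Nat.pred_succ] at h6
    rw [pow_succ]
    omega
  · intro q hq
    obtain ⟨hqS, hqe⟩ := Finset.mem_filter.1 hq
    have h5 : Nat.clog 2 q = Nat.clog 2 q₀ := (Prod.mk.inj hqe).1
    simp only
    rw [← h5]
    exact Nat.le_pow_clog (by norm_num) _
  · intro q hq
    exact h.ok _ (hS (Finset.mem_filter.1 hq).1)
  · simp only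
    push_cast
    rw [← pow_mul, one_div, ← inv_pow]
    exact pow_le_pow_of_le_one (by norm_num) (by norm_num) (by omega)
  · simp only
    push_cast
    have : (1 : ℝ) / (8 * 2 ^ Nat.clog 2 q₀) = 2⁻¹ ^ (Nat.clog 2 q₀ + 3) := by
      rw [inv_pow, pow_add]; field_simp; norm_num
    rw [this]
    exact pow_le_pow_of_le_one (by norm_num) (by norm_num) h2

theorem total : ∃ C : ℝ, 0 < C ∧ ∀ (γ : ℝ) (T : Set ℕ) (e : ℕ → ℕ), Sys γ T e →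
    ∀ S : Finset ℕ, (S : Set ℕ) ⊆ T →
      ∑ q ∈ S, ∑ r ∈ S, ov γ (2⁻¹ ^ e q) (2⁻¹ ^ e r) q r ≤
        C * (∑ q ∈ S, 2⁻¹ ^ e q * ff γ q + (∑ q ∈ S, 2⁻¹ ^ e q * ff γ q) ^ 2) := by
  classical
  obtain ⟨K, hK, hw⟩ := wsum
  obtain ⟨C, hC, hb⟩ := block_sym
  refine ⟨4 + 2 * C * K + C, by positivity, fun γ T e h S hS => ?_⟩
  set key : ℕ → ℕ × ℕ := fun q => (Nat.clog 2 q, e q) with hkey
  set I : Finset (ℕ × ℕ) := S.image key with hI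
  set V : ℕ × ℕ → Finset ℕ := fun b => S.filter fun q => key q = b with hV
  set m : ℕ × ℕ → ℝ := fun b => mass γ (2⁻¹ ^ b.2) (V b) with hm
  set M : ℝ := ∑ q ∈ S, 2⁻¹ ^ e q * ff γ q with hM
  have hmaps : ∀ q ∈ S, key q ∈ I := fun q hq => Finset.mem_image_of_mem _ hq
  have hfib : ∀ f : ℕ → ℝ, ∑ q ∈ S, f q = ∑ b ∈ I, ∑ q ∈ V b, f q := fun f =>
    (Finset.sum_fiberwise_of_maps_to hmaps f).symm
  have he : ∀ b, ∀ q ∈ V b, e q = b.2 := by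
    intro b q hq
    have := (Finset.mem_filter.1 hq).2
    rw [← this]
  have hm0 : ∀ b, 0 ≤ m b := fun b =>
    Finset.sum_nonneg fun q _ => mul_nonneg (by positivity) (ff_pos γ q).le
  have hMm : M = ∑ b ∈ I, m b := by
    rw [hM, hfib]
    refine Finset.sum_congr rfl fun b _ => Finset.sum_congr rfl fun q hq => ?_
    rw [he b q hq]
  have hM0 : 0 ≤ M := by rw [hMm]; exact Finset.sum_nonneg fun b _ => hm0 b
  set G : ℕ → ℕ → ℝ := fun q r => if q ≠ r then ov γ (2⁻¹ ^ e q) (2⁻¹ ^ e r) q r else 0 with hG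
  have h1 : ∀ q ∈ S, ∑ r ∈ S, ov γ (2⁻¹ ^ e q) (2⁻¹ ^ e r) q r ≤
      4 * (2⁻¹ ^ e q * ff γ q) + ∑ r ∈ S, G q r := by
    intro q hq
    have a1 := ov_diag (γ := γ) (δ := 2⁻¹ ^ e q) (by positivity)
      (q := q) (by have := h.big q (hS hq); omega) (h.ok q (hS hq))
    have a2 : ∑ r ∈ S, ov γ (2⁻¹ ^ e q) (2⁻¹ ^ e r) q r =
        ∑ r ∈ S, ((if q = r then ov γ (2⁻¹ ^ e q) (2⁻¹ ^ e r) q r else 0) + G q r) := by
      refine Finset.sum_congr rfl fun r _ => ?_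
      by_cases hqr : q = r <;> simp [hG, hqr]
    rw [a2, Finset.sum_add_distrib, Finset.sum_ite_eq, if_pos hq]
    linarith
  have h2 : ∑ q ∈ S, ∑ r ∈ S, G q r = ∑ b ∈ I, ∑ b' ∈ I, ∑ q ∈ V b, ∑ r ∈ V b', G q r := by
    rw [hfib]
    refine Finset.sum_congr rfl fun b _ => ?_
    rw [Finset.sum_comm (s := I)]
    exact Finset.sum_congr rfl fun q _ => hfib _
  have h3 : ∀ b ∈ I, ∀ b' ∈ I, ∑ q ∈ V b, ∑ r ∈ V b', G q r ≤
      C * (wt b.1 b' * m b + wt b'.1 b * m b' + m b * m b') := by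
    intro b hbI b' hbI'
    refine le_trans (le_of_eq ?_) (hb γ b b' (V b) (V b') (h.blk hS hbI).2 (h.blk hS hbI').2)
    rw [Finset.sum_filter (s := V b ×ˢ V b'), Finset.sum_product]
    refine Finset.sum_congr rfl fun q hq => Finset.sum_congr rfl fun r hr => ?_
    simp only [hG]
    rw [he b q hq, he b' r hr]
  have hwI : ∀ i, ∑ b ∈ I, wt i b ≤ K := fun i => hw i I fun b hbI => (h.blk hS hbI).1
  have h4 : ∑ b ∈ I, ∑ b' ∈ I, wt b.1 b' * m b ≤ K * M := by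
    rw [hMm, Finset.mul_sum]
    refine Finset.sum_le_sum fun b _ => ?_
    rw [← Finset.sum_mul]
    exact mul_le_mul_of_nonneg_right (hwI _) (hm0 b)
  have h5 : ∑ b ∈ I, ∑ b' ∈ I, wt b'.1 b * m b' ≤ K * M := by
    rw [Finset.sum_comm]; exact h4
  have h6 : ∑ b ∈ I, ∑ b' ∈ I, m b * m b' = M ^ 2 := by
    rw [hMm, sq, Finset.sum_mul_sum]
  have h7 : ∑ q ∈ S, ∑ r ∈ S, G q r ≤ C * (K * M + K * M + M ^ 2) := by
    rw [h2]
    refine (Finset.sum_le_sum fun b hbI => Finset.sum_le_sum fun b' hbI' =>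
      h3 b hbI b' hbI').trans ?_
    simp only [← Finset.mul_sum, Finset.sum_add_distrib]
    refine mul_le_mul_of_nonneg_left ?_ hC.le
    simp only [Finset.mul_sum]
    linarith
  refine (Finset.sum_le_sum h1).trans ?_
  rw [Finset.sum_add_distrib, ← Finset.mul_sum, ← hM]
  have a1 : 0 ≤ C * M := by positivity
  have a2 : 0 ≤ C * K * M ^ 2 := by positivity
  have a3 : 0 ≤ M ^ 2 := by positivity
  nlinarith

end Vale.Agent.P028
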