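import Vale.Agent.P028.BC
import Vale.Agent.P028.Total
import Vale.Agent.P028.Reduce
import Vale.Agent.P028.Equi

namespace Vale.Agent.P028

open Finset MeasureTheory

theorem main (γ : ℝ) (ψ : ℕ → ℝ) (h0 : ∀ q, 0 ≤ ψ q) (C : ℝ)
    (hC : ∀ q : ℕ, 0 < q → ψ q ≤ C / q)
    (hdiv : ¬ Summable fun q : ℕ => (q.totient : ℝ) / q * ψ q) :
    ∀ᵐ x : ℝ, {q : ℕ | 0 < q ∧ ∃ a : ℤ, |(q : ℝ) * x - a - γ| < ψ q}.Infinite := by
  obtain ⟨T, e, hS, hψ, hd⟩ := reduce γ ψ h0 C hC hdiv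
  obtain ⟨K, hK, htot⟩ := total
  have h1 := bc (fun q => EE γ (2⁻¹ ^ e q) q) (fun q => (2⁻¹ : ℝ) ^ e q * ff γ q) T
    (fun q => (isOpen_EE _ _ _).measurableSet) (fun q => EE_ne_top _ _ _)
    (fun q => mul_nonneg (by positivity) (ff_pos γ q).le) hd
    (fun u v hu huv hv => by
      obtain ⟨Q, hQ⟩ := equi γ hu huv hv
      refine ⟨Q, fun q hq hQq => hQ q hQq _ (by positivity) ?_⟩
      have := hS.lo q hq
      calc (2⁻¹ : ℝ) ^ e q ≤ 2⁻¹ ^ 1 := pow_le_pow_of_le_one (by norm_num) (by norm_num) (by omega)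
        _ = 1 / 2 := by norm_num)
    K hK (htot γ T e hS)
  refine ae_of_periodic (fun x k hx => hx.mono ?_) ?_
  · rintro q ⟨hq, a, ha⟩
    refine ⟨hq, a + q * k, ?_⟩
    convert ha using 2
    push_cast; ring
  · filter_upwards [h1] with x hx hx1
    refine (hx hx1).mono ?_
    rintro q ⟨hq, hxq⟩
    have hq0 : 0 < q := by have := hS.big q hq; omega
    obtain ⟨a, ha⟩ := mem_EE hq0 hxq
    exact ⟨hq0, a, ha.trans_le (hψ q hq)⟩

end Vale.Agent.P028
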