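import Vale.Agent.P028.SmallA

namespace Vale.Agent.P028

open Finset MeasureTheory

variable {γ : ℝ}

theorem SmallAux.interp {a x T Y : ℝ} (hY : 0 < Y) (hx : 0 ≤ x) (hT : 0 ≤ T) (ha : 0 ≤ a)
    (h1 : a ≤ x * Y) (h2 : a ≤ 40 * T * Y) :
    a ≤ 40 * (x ^ (9 / 10 : ℝ) * T ^ (1 / 10 : ℝ)) * Y := by
  have e : a / Y = (a / Y) ^ (9 / 10 : ℝ) * (a / Y) ^ (1 / 10 : ℝ) := by
    rw [← Real.rpow_add' (by positivity) (by norm_num)]; norm_num
  have h3 : (a / Y) ^ (9 / 10 : ℝ) ≤ x ^ (9 / 10 : ℝ) :=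
    Real.rpow_le_rpow (by positivity) ((div_le_iff₀ hY).2 h1) (by norm_num)
  have h4 : (a / Y) ^ (1 / 10 : ℝ) ≤ (40 * T) ^ (1 / 10 : ℝ) :=
    Real.rpow_le_rpow (by positivity) ((div_le_iff₀ hY).2 h2) (by norm_num)
  have h5 : (40 : ℝ) ^ (1 / 10 : ℝ) ≤ 40 := by
    conv_rhs => rw [← Real.rpow_one 40]
    exact Real.rpow_le_rpow_of_exponent_le (by norm_num) (by norm_num)
  rw [Real.mul_rpow (by norm_num) hT] at h4
  rw [← div_le_iff₀ hY, e]
  calc _ ≤ x ^ (9 / 10 : ℝ) * (40 ^ (1 / 10 : ℝ) * T ^ (1 / 10 : ℝ)) :=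
        mul_le_mul h3 h4 (by positivity) (by positivity)
    _ ≤ x ^ (9 / 10 : ℝ) * (40 * T ^ (1 / 10 : ℝ)) := by gcongr
    _ = _ := by ring

theorem small_g {N M : ℕ} {δ δ' : ℝ} {V V' : Finset ℕ} (hb : Blk γ N δ V) (hb' : Blk γ M δ' V')
    (hNM : N ≤ M) {g : ℕ} (hg : 0 < g) (ht : max (M * δ) (N * δ') / g ≤ 1 / 5) :
    ∑ p ∈ PG V V' g, ov γ δ δ' p.1 p.2 ≤
      640 * (min (M * δ) (N * δ') * max (M * δ) (N * δ') ^ sg) *
        ((g : ℝ) ^ (-1 - sg) * (dens N V g * dens M V' g ^ (9 / 10 : ℝ))) := by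
  classical
  have hN : (0 : ℝ) < N := by have := hb.big; exact_mod_cast (by omega : 0 < N)
  have hM : (0 : ℝ) < M := by have := hb'.big; exact_mod_cast (by omega : 0 < M)
  have hgr : (0 : ℝ) < g := by exact_mod_cast hg
  have hδ := hb.pos
  have hδ' := hb'.pos
  set U := max (M * δ) (N * δ') with hU
  set μ := min (M * δ) (N * δ') with hμ
  have hU0 : 0 < U := lt_max_of_lt_left (by positivity)
  have hμ0 : 0 < μ := lt_min (by positivity) (by positivity)
  set t := U / g with htdef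
  have ht0 : 0 < t := by positivity
  have hx := dens_nonneg N V g
  have hx' := dens_nonneg M V' g
  have hq0 : ∀ q', g * q' ∈ V → 0 < q' := fun q' h => by
    have h1 := hb.lo _ h
    have h2 := hb.big
    rcases Nat.eq_zero_or_pos q' with rfl | h3
    · omega
    · exact h3
  have hr0 : ∀ r', g * r' ∈ V' → 0 < r' := fun r' h => by
    have h1 := hb'.lo _ h
    have h2 := hb'.big
    rcases Nat.eq_zero_or_pos r' with rfl | h3
    · omega
    · exact h3
  have hle : ∀ q' r' : ℕ, g * q' ∈ V → g * r' ∈ V' →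
      (q' : ℝ) ≤ (M : ℝ) / g ∧ (r' : ℝ) ≤ (M : ℝ) / g := fun q' r' h h' => by
    have h1 : g * q' ≤ M := (hb.hi _ h).trans hNM
    have h2 : g * r' ≤ M := hb'.hi _ h'
    rw [le_div_iff₀ hgr, le_div_iff₀ hgr]
    constructor
    · rw [mul_comm]; exact_mod_cast h1
    · rw [mul_comm]; exact_mod_cast h2
  rcases bohr γ (1 / 64) t ((M : ℝ) / g) (by norm_num) (by norm_num) ht0 ht (by positivity) with
    hB | ⟨A, B, hB, hc, h1, h2, h3⟩
  · set S := (PG V V' g).filter fun p =>
      ∃ c : ℤ, |(c : ℝ) + γ * ((((p.2 / g : ℕ) : ℤ) - (p.1 / g : ℕ) : ℤ) : ℝ)| < 2 * t with hS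
    have s1 : ∑ p ∈ PG V V' g, ov γ δ δ' p.1 p.2 ≤ S.card * (4 * μ / ((N : ℝ) * M) * (4 * g)) := by
      rw [← nsmul_eq_mul, ← Finset.sum_const, hS, Finset.sum_filter]
      refine Finset.sum_le_sum fun p hp => ?_
      obtain ⟨q', r', rfl, hcop, hne, hq, hr⟩ := mem_PG hg hp
      refine (ov_le_blk hb hb' hg hq hr).trans ?_
      simp only [Nat.mul_div_cancel_left _ hg]
      split_ifs with hex
      · refine mul_le_mul_of_nonneg_left ?_ (by positivity)
        refine (cnt_crude g q' r' hg (hq0 _ hq) hcop _ _ (Finset.filter_subset _ _) γ t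
          ht0.le).trans ?_
        nlinarith
      · have : Pairs (RR γ (g * q') (PP γ (g * q'))) (RR γ (g * r') (PP γ (g * r'))) q' r' γ t
            = ∅ := by
          rw [Finset.eq_empty_iff_forall_notMem]
          intro ab hab
          refine hex ⟨ab.1 * r' - ab.2 * q', ?_⟩
          have := (Finset.mem_filter.1 hab).2
          push_cast at this ⊢
          exact this
        rw [this]; simp
    set W := 40 * (dens M V' g ^ (9 / 10 : ℝ) * (t ^ (1 / 64 : ℝ)) ^ (1 / 10 : ℝ)) * ((M : ℝ) / g)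
      with hW
    have s2 : (S.card : ℝ) ≤ nm V g * W := by
      refine card_le_mul_of_fibers S (fun p => (p.1 : ℤ)) _ _ (by positivity) ?_ ?_
      · have : S.image (fun p => (p.1 : ℤ)) ⊆ (V.filter (g ∣ ·)).image (fun q : ℕ => (q : ℤ)) := by
          intro n hn
          obtain ⟨p, hp, rfl⟩ := Finset.mem_image.1 hn
          obtain ⟨q', r', rfl, -, -, hq, -⟩ := mem_PG hg (Finset.mem_filter.1 hp).1
          exact Finset.mem_image_of_mem _ (Finset.mem_filter.2 ⟨hq, dvd_mul_right _ _⟩)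
        exact_mod_cast (Finset.card_le_card this).trans Finset.card_image_le
      · intro n _
        set Fb := S.filter fun p => (p.1 : ℤ) = n with hFb
        have hmem : ∀ p ∈ Fb, ∃ q' r' : ℕ, p = (g * q', g * r') ∧ ((g * q' : ℕ) : ℤ) = n ∧
            q' ≠ r' ∧ g * q' ∈ V ∧ g * r' ∈ V' ∧
            ∃ c : ℤ, |(c : ℝ) + γ * (((r' : ℤ) - q' : ℤ) : ℝ)| < 2 * t := by
          intro p hp
          obtain ⟨hp1, hp2⟩ := Finset.mem_filter.1 hp
          obtain ⟨hp3, hp4⟩ := Finset.mem_filter.1 hp1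
          obtain ⟨q', r', rfl, -, hne, hq, hr⟩ := mem_PG hg hp3
          simp only [Nat.mul_div_cancel_left _ hg] at hp4
          exact ⟨q', r', rfl, hp2, hne, hq, hr, hp4⟩
        refine SmallAux.interp (by positivity) hx' (by positivity) (Nat.cast_nonneg _) ?_ ?_
        · have : Fb.card ≤ nm V' g := by
            refine Finset.card_le_card_of_injOn (fun p => p.2) (fun p hp => ?_) ?_
            · obtain ⟨q', r', rfl, -, -, -, hr, -⟩ := hmem p hp
              exact Finset.mem_coe.2 (Finset.mem_filter.2 ⟨hr, dvd_mul_right _ _⟩)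
            · intro p hp p' hp' h
              have e1 := (Finset.mem_filter.1 hp).2
              have e2 := (Finset.mem_filter.1 hp').2
              exact Prod.ext (by exact_mod_cast e1.trans e2.symm) h
          have e : dens M V' g * ((M : ℝ) / g) = nm V' g := by rw [dens]; field_simp
          rw [e]; exact_mod_cast this
        · have hinj : Set.InjOn
              (fun p : ℕ × ℕ => (((p.2 / g : ℕ) : ℤ) - (p.1 / g : ℕ) : ℤ)) Fb := by
            intro p hp p' hp' h
            obtain ⟨q1, r1, rfl, e1, -⟩ := hmem p hp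
            obtain ⟨q2, r2, rfl, e2, -⟩ := hmem p' hp'
            simp only [Nat.mul_div_cancel_left _ hg] at h
            have e3 : g * q1 = g * q2 := by exact_mod_cast e1.trans e2.symm
            have e4 : q1 = q2 := Nat.eq_of_mul_eq_mul_left hg e3
            subst e4
            have e5 : r1 = r2 := by omega
            rw [e5]
          rw [← Finset.card_image_of_injOn hinj]
          refine hB _ (fun m hm => ?_) (fun m hm m' hm' => ?_)
          · obtain ⟨p, hp, rfl⟩ := Finset.mem_image.1 hm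
            obtain ⟨q', r', rfl, -, hne, hq, hr, hc⟩ := hmem p hp
            simp only [Nat.mul_div_cancel_left _ hg]
            obtain ⟨a1, a2⟩ := hle q' r' hq hr
            refine ⟨by omega, ?_, hc⟩
            have b1 : (0 : ℝ) ≤ q' := Nat.cast_nonneg _
            have b2 : (0 : ℝ) ≤ r' := Nat.cast_nonneg _
            push_cast
            rw [abs_le]; constructor <;> linarith
          · obtain ⟨p, hp, rfl⟩ := Finset.mem_image.1 hm
            obtain ⟨p', hp', rfl⟩ := Finset.mem_image.1 hm'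
            obtain ⟨q1, r1, rfl, e1, -, hq1, hr1, -⟩ := hmem p hp
            obtain ⟨q2, r2, rfl, e2, -, hq2, hr2, -⟩ := hmem p' hp'
            simp only [Nat.mul_div_cancel_left _ hg]
            have e3 : g * q1 = g * q2 := by exact_mod_cast e1.trans e2.symm
            have e4 : q1 = q2 := Nat.eq_of_mul_eq_mul_left hg e3
            subst e4
            obtain ⟨-, a1⟩ := hle q1 r1 hq1 hr1
            obtain ⟨-, a2⟩ := hle q1 r2 hq1 hr2
            have b1 : (0 : ℝ) ≤ r1 := Nat.cast_nonneg _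
            have b2 : (0 : ℝ) ≤ r2 := Nat.cast_nonneg _
            push_cast
            rw [abs_le]; constructor <;> linarith
    have e1 : (nm V g : ℝ) = dens N V g * ((N : ℝ) / g) := by rw [dens]; field_simp
    have e2 : (t ^ (1 / 64 : ℝ)) ^ (1 / 10 : ℝ) = U ^ sg * (g : ℝ) ^ (-sg) := by
      rw [← Real.rpow_mul ht0.le, htdef, Real.div_rpow hU0.le hgr.le, Real.rpow_neg hgr.le,
        div_eq_mul_inv, sg]
      norm_num
    have e3 : (g : ℝ) ^ (-1 - sg) = (g : ℝ)⁻¹ * (g : ℝ) ^ (-sg) := by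
      rw [← Real.rpow_neg_one, ← Real.rpow_add hgr]; congr 1
    refine s1.trans ((mul_le_mul_of_nonneg_right s2 (by positivity)).trans (le_of_eq ?_))
    rw [hW, e1, e2, e3]
    field_simp
    ring
  · refine le_trans (Finset.sum_nonpos fun p hp => ?_) (by positivity)
    obtain ⟨q', r', rfl, hcop, hne, hq, hr⟩ := mem_PG hg hp
    have hgN : g ≤ N := (Nat.le_mul_of_pos_right _ (hq0 _ hq)).trans (hb.hi _ hq)
    have c1 := cen_of_bohr hb hb' hNM hg hgN rfl ht hB hc h1 h2 (Or.inl hq)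
    have c2 := cen_of_bohr hb hb' hNM hg hgN rfl ht hB hc h1 h2 (Or.inr hr)
    refine (ov_le_blk hb hb' hg hq hr).trans ?_
    rw [pairs_empty hg (hq0 _ hq) (hr0 _ hr) hcop hne c1 c2 fun c hc' => h3 _ c ?_ hc']
    · simp
    · obtain ⟨a1, a2⟩ := hle q' r' hq hr
      have b1 : (0 : ℝ) ≤ q' := Nat.cast_nonneg _
      have b2 : (0 : ℝ) ≤ r' := Nat.cast_nonneg _
      push_cast
      rw [abs_le]; constructor <;> linarith

end Vale.Agent.P028
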