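import Vale.Agent.P028.BasB

namespace Vale.Agent.P028

open Finset MeasureTheory

variable {γ : ℝ}

theorem SmallAX.not_dvd {n : ℕ} (hn : n ≠ 0) {A : ℤ} {B : ℕ} (hc : cen γ n = (A, B)) {a : ℤ}
    (ha : a ∈ RR γ n (PP γ n)) {l : ℕ} (hl : l.Prime) (hln : l ∣ n) :
    ¬ (l : ℤ) ∣ B * a + A := by
  intro h
  have hs := (cen_spec γ n).2
  have ho := (mem_filter.1 ha).2
  by_cases hB : l ∣ B
  · rw [hc] at hs
    have h1 : (l : ℤ) ∣ (B : ℤ) := by exact_mod_cast hB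
    have h2 : (l : ℤ) ∣ A := (dvd_add_right (h1.mul_right a)).1 h
    have h3 := hs.isUnit_of_dvd' h2 h1
    exact (Nat.prime_iff_prime_int.1 hl).not_unit h3
  · have := ho l (mem_filter.2 ⟨Nat.mem_primeFactors.2 ⟨hl, hln, hn⟩, by rwa [hc]⟩)
    rw [hc] at this
    exact this h

theorem pairs_empty {g q' r' : ℕ} (hg : 0 < g) (hq : 0 < q') (hr : 0 < r')
    (hcop : Nat.Coprime q' r') (hne : q' ≠ r') {A : ℤ} {B : ℕ} (h1 : cen γ (g * q') = (A, B))
    (h2 : cen γ (g * r') = (A, B)) {D : ℝ}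
    (h : ∀ c : ℤ, |(c : ℝ) + γ * (((r' : ℤ) - q' : ℤ) : ℝ)| < 2 * D →
      c * B + A * ((r' : ℤ) - q') = 0) :
    Pairs (RR γ (g * q') (PP γ (g * q'))) (RR γ (g * r') (PP γ (g * r'))) q' r' γ D = ∅ := by
  rw [eq_empty_iff_forall_notMem]
  rintro ⟨a, b⟩ hab
  obtain ⟨h3, h4⟩ := mem_filter.1 hab
  obtain ⟨ha, hb⟩ := mem_product.1 h3
  have h5 := h (a * r' - b * q') (by push_cast at h4 ⊢; exact h4)
  have h6 : ((B : ℤ) * a + A) * r' = (B * b + A) * q' := by linear_combination h5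
  have hc : IsCoprime (q' : ℤ) (r' : ℤ) := Nat.isCoprime_iff_coprime.2 hcop
  by_cases hq1 : q' = 1
  · obtain ⟨l, hl, hd⟩ := Nat.exists_prime_and_dvd (n := r') (fun e => hne (hq1.trans e.symm))
    refine SmallAX.not_dvd (by positivity) h2 hb hl (hd.mul_left g) ?_
    have : (r' : ℤ) ∣ B * b + A := hc.symm.dvd_of_dvd_mul_right ⟨B * a + A, by rw [← h6]; ring⟩
    exact (Int.natCast_dvd_natCast.2 hd).trans this
  · obtain ⟨l, hl, hd⟩ := Nat.exists_prime_and_dvd hq1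
    refine SmallAX.not_dvd (by positivity) h1 ha hl (hd.mul_left g) ?_
    have : (q' : ℤ) ∣ B * a + A := hc.dvd_of_dvd_mul_right ⟨B * b + A, by rw [h6]; ring⟩
    exact (Int.natCast_dvd_natCast.2 hd).trans this

theorem cen_of_bohr {N M : ℕ} {δ δ' : ℝ} {V V' : Finset ℕ} (hb : Blk γ N δ V)
    (hb' : Blk γ M δ' V') (hNM : N ≤ M) {g : ℕ} (hg : 0 < g) (hgN : g ≤ N) {t : ℝ}
    (ht : t = max (M * δ) (N * δ') / g) (ht1 : t ≤ 1 / 5) {A : ℤ} {B : ℕ} (hB : 0 < B)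
    (hc : IsCoprime A (B : ℤ)) (h1 : (B : ℝ) * t ^ (1 / 64 : ℝ) < 1)
    (h2 : |γ - A / B| * ((M : ℝ) / g) ≤ t ^ (1 - 1 / 64 : ℝ)) {n : ℕ} (hn : n ∈ V ∨ n ∈ V') :
    cen γ n = (A, B) := by
  have N5 := hb.big
  have n1 : N < 2 * n ∧ n ≤ M := by
    rcases hn with h | h
    · exact ⟨hb.lo n h, (hb.hi n h).trans hNM⟩
    · exact ⟨hNM.trans_lt (hb'.lo n h), hb'.hi n h⟩
  have rN : (512 : ℝ) ≤ N := by exact_mod_cast N5
  have rNM : (N : ℝ) ≤ M := by exact_mod_cast hNM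
  have rg : (0 : ℝ) < g := by exact_mod_cast hg
  have rgN : (g : ℝ) ≤ N := by exact_mod_cast hgN
  have rn1 : (N : ℝ) < 2 * n := by exact_mod_cast n1.1
  have rn2 : (n : ℝ) ≤ M := by exact_mod_cast n1.2
  have N0 : (0 : ℝ) < N := by linarith
  have M0 : (0 : ℝ) < M := by linarith
  have tg : t * g = max (M * δ) (N * δ') := by rw [ht]; field_simp
  have d1 : 1 ≤ δ * N ^ 2 := by
    have := hb.d1
    rwa [div_le_iff₀ (by positivity)] at this
  have d2 : δ * N ≤ 1 := by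
    have := hb.d2
    rw [le_div_iff₀ (by positivity)] at this
    nlinarith [hb.pos]
  have d3 : δ' * M ≤ 1 := by
    have := hb'.d2
    rw [le_div_iff₀ (by positivity)] at this
    nlinarith [hb'.pos]
  have t1 : (M : ℝ) * δ ≤ t * g := tg ▸ le_max_left _ _
  have t0 : 0 < t := (mul_pos_iff_of_pos_right rg).1 (lt_of_lt_of_le (mul_pos M0 hb.pos) t1)
  have t2 : (M : ℝ) ≤ t * N ^ 3 := by
    calc (M : ℝ) = M * 1 := (mul_one _).symm
      _ ≤ M * (δ * N ^ 2) := by gcongr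
      _ = M * δ * N ^ 2 := by ring
      _ ≤ t * N * N ^ 2 := mul_le_mul_of_nonneg_right
          (t1.trans (mul_le_mul_of_nonneg_left rgN t0.le)) (by positivity)
      _ = _ := by ring
  have t3 : 1 ≤ t * N ^ 2 := by
    refine le_of_mul_le_mul_right ?_ N0
    nlinarith
  have t4 : (M : ℝ) ≤ N ^ 3 := t2.trans (mul_le_of_le_one_left (by positivity) (by linarith))
  have t5 : t * g * N ≤ M := by
    rw [tg]
    rcases le_total (M * δ) (N * δ') with h | h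
    · rw [max_eq_right h]
      refine le_of_mul_le_mul_right ?_ M0
      calc (N : ℝ) * δ' * N * M = N * N * (δ' * M) := by ring
        _ ≤ M * M * 1 := by gcongr; exact (mul_pos hb'.pos M0).le
        _ = _ := by ring
    · rw [max_eq_left h]
      nlinarith
  refine cen_eq (by omega) ⟨hB, hc, ?_, ?_⟩
  · have e1 : ((B : ℝ) * t ^ (1 / 64 : ℝ)) ^ 64 < 1 :=
      pow_lt_one₀ (by positivity) h1 (by norm_num)
    have e2 : (t ^ (1 / 64 : ℝ)) ^ 64 = t := by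
      rw [← Real.rpow_natCast, ← Real.rpow_mul t0.le]
      norm_num
    rw [mul_pow, e2] at e1
    show (B : ℝ) ^ 16 ≤ n
    have e3 : (B : ℝ) ^ 64 = ((B ^ 16) ^ 2) ^ 2 := by ring
    rw [e3] at e1
    have b0 : (0 : ℝ) ≤ (B : ℝ) ^ 16 := by positivity
    generalize (B : ℝ) ^ 16 = b at e1 b0 ⊢
    have e4 : (b ^ 2) ^ 2 < (N : ℝ) ^ 2 := by
      refine lt_of_mul_lt_mul_right ?_ t0.le
      linarith
    have e5 : b ^ 2 < N := lt_of_pow_lt_pow_left₀ 2 N0.le e4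
    refine le_of_sq_le_sq ?_ (Nat.cast_nonneg n)
    nlinarith
  · show |γ - A / B| ^ 4 * n ≤ 1
    have x0 := abs_nonneg (γ - A / B)
    generalize |γ - A / B| = x at h2 x0 ⊢
    have e1 := pow_le_pow_left₀ (by positivity) h2 64
    have e2 : (t ^ (1 - 1 / 64 : ℝ)) ^ 64 = t ^ 63 := by
      rw [← Real.rpow_natCast, ← Real.rpow_mul t0.le, ← Real.rpow_natCast]
      norm_num
    rw [e2] at e1
    have e3 : x * N * t ≤ x * (M / g) := by
      rw [mul_assoc]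
      refine mul_le_mul_of_nonneg_left ?_ x0
      rw [le_div_iff₀ rg]
      linarith
    have e4 := (pow_le_pow_left₀ (by positivity) e3 64).trans e1
    have e5 : (x * N) ^ 64 * t ≤ 1 := by
      refine le_of_mul_le_mul_right ?_ (pow_pos t0 63)
      calc (x * N) ^ 64 * t * t ^ 63 = (x * N * t) ^ 64 := by ring
        _ ≤ t ^ 63 := e4
        _ = _ := (one_mul _).symm
    have e6 : (x ^ 4 * n) ^ 16 ≤ 1 := by
      calc (x ^ 4 * n) ^ 16 ≤ (x ^ 4 * N ^ 3) ^ 16 := by gcongr; exact rn2.trans t4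
        _ = x ^ 64 * N ^ 48 * 1 * 1 := by ring
        _ ≤ x ^ 64 * N ^ 48 * N ^ 14 * (t * N ^ 2) :=
          mul_le_mul (mul_le_mul_of_nonneg_left (one_le_pow₀ (by linarith))
            (mul_nonneg (pow_nonneg x0 _) (pow_nonneg N0.le _))) t3 zero_le_one
            (mul_nonneg (mul_nonneg (pow_nonneg x0 _) (pow_nonneg N0.le _)) (pow_nonneg N0.le _))
        _ = (x * N) ^ 64 * t := by ring
        _ ≤ 1 := e5
    exact (pow_le_one_iff_of_nonneg (by positivity) (by norm_num)).1 e6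

end Vale.Agent.P028
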